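import Vale.Agent.P088.R2.H509.Ch

/-!
# P088, Theorem S, local boundary step: parallel sections in the chart; local boundary determination
-/

set_option linter.all false

open Bundle Manifold MeasureTheory Set Filter Topology Metric
open scoped ContDiff Matrix

noncomputable section

namespace Vale.Agent.P088.R2.H338

open Vale.Agent.P088 Vale.Agent.P088.EYM Vale.Agent.P088.EYM.O Vale.Agent.P088.R2.H509

universe u

/-! ### Parallel sections -/

section

variable {n N : ℕ} [NeZero n]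

/-- A smooth unit section on `D`, parallel for the local data `L`. -/
structure Pe (L : LD n N) (D : Set (E n)) (e : E n → Fib N) : Prop where
  rel : RelOpen D
  ok : L.Ok D
  h1 : ∀ x, L.h x = 1
  sm : ContDiffOn ℝ ∞ e D
  unit : ∀ y ∈ D, ‖e y‖ = 1
  par : ∀ y ∈ D, ∀ j, nab L j e y = 0

/-- The real component along `e`. -/
def rb (e F : E n → Fib N) (y : E n) : ℝ := (inner ℂ (e y) (F y) : ℂ).re

variable {L : LD n N} {D : Set (E n)} {e F : E n → Fib N}

theorem Pe.mono (he : Pe L D e) {D' : Set (E n)} (hD : RelOpen D') (hs : D' ⊆ D) : Pe L D' e where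
  rel := hD
  ok := cRungeB_ok_mono he.ok hs
  h1 := he.h1
  sm := he.sm.mono hs
  unit := fun y hy => he.unit y (hs hy)
  par := fun y hy => he.par y (hs hy)

theorem rb_le' {y : E n} (h : ‖e y‖ = 1) (F : E n → Fib N) : |rb e F y| ≤ ‖F y‖ := by
  unfold rb
  refine (Complex.abs_re_le_norm _).trans ((norm_inner_le_norm _ _).trans ?_)
  rw [h, one_mul]

theorem rb_sq_le {y : E n} (h : ‖e y‖ = 1) (F : E n → Fib N) : rb e F y ^ 2 ≤ ‖F y‖ ^ 2 := by
  rw [← sq_abs]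
  exact pow_le_pow_left₀ (abs_nonneg _) (rb_le' h F) 2

theorem rb_smul_e {y : E n} (h : ‖e y‖ = 1) {β : ℝ} (hF : F y = β • e y) : rb e F y = β := by
  unfold rb
  have h2 : (inner ℂ (e y) (e y) : ℂ).re = ‖e y‖ ^ 2 := inner_self_eq_norm_sq (𝕜 := ℂ) (e y)
  rw [hF, inner_smul_right_eq_smul, Complex.real_smul, Complex.re_ofReal_mul, h2, h]
  ring

theorem rb_smooth (he : ContDiffOn ℝ ∞ e D) (hF : ContDiffOn ℝ ∞ F D) :
    ContDiffOn ℝ ∞ (rb e F) D :=
  Complex.reCLM.contDiff.comp_contDiffOn (he.inner ℂ hF)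

theorem rb_sub (e F G : E n → Fib N) (y : E n) :
    rb e (fun y => F y - G y) y = rb e F y - rb e G y := by
  unfold rb
  rw [inner_sub_right, Complex.sub_re]

theorem rb_sum {ι : Type*} (s : Finset ι) (G : ι → E n → Fib N) (y : E n) :
    rb e (fun y => ∑ k ∈ s, G k y) y = ∑ k ∈ s, rb e (G k) y := by
  unfold rb
  rw [inner_sum, Complex.re_sum]

theorem rb_smul (a : E n → ℝ) (G : E n → Fib N) (y : E n) :
    rb e (fun y => a y • G y) y = a y * rb e G y := by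
  unfold rb
  rw [inner_smul_right_eq_smul, Complex.real_smul, Complex.re_ofReal_mul]

theorem Pe.skew (he : Pe L D e) {y : E n} (hy : y ∈ D) (j : Fin n) :
    ContinuousLinearMap.adjoint (L.B j y) = -L.B j y := by
  have h2 := he.ok.compat y hy j
  have e1 : L.h = fun _ => 1 := funext he.h1
  rw [e1, pd_const, mul_one, one_mul] at h2
  exact eq_neg_of_add_eq_zero_left h2.symm

/-- The derivative of the component is the component of the covariant derivative. -/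
theorem Pe.pd_rb (he : Pe L D e) (hF : ContDiffOn ℝ ∞ F D) {y : E n} (hy : y ∈ D) (j : Fin n) :
    pd j (rb e F) y = rb e (nab L j F) y := by
  have hed := he.rel.hasD hy he.sm (by simp)
  have hFd := he.rel.hasD hy hF (by simp)
  have h2 : HasFDerivWithinAt (rb e F) (Complex.reCLM.comp ((fderivInnerCLM ℂ (e y, F y)).comp
      ((fderivWithin ℝ e (Hs n) y).prod (fderivWithin ℝ F (Hs n) y)))) (Hs n) y :=
    Complex.reCLM.hasFDerivAt.comp_hasFDerivWithinAt y (hed.inner ℂ hFd)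
  have h3 : pd j (rb e F) y = (inner ℂ (e y) (pd j F y) + inner ℂ (pd j e y) (F y) : ℂ).re := by
    rw [pd_of_has (he.rel.subset hy) h2 j]
    rfl
  have h4 : pd j e y = -L.B j y (e y) := eq_neg_of_add_eq_zero_left (he.par y hy j)
  have h6 : (inner ℂ (L.B j y (e y)) (F y) : ℂ) = -inner ℂ (e y) (L.B j y (F y)) := by
    have h7 := ContinuousLinearMap.adjoint_inner_right (L.B j y) (e y) (F y)
    rw [he.skew hy j] at h7
    rw [← h7]
    simp
  rw [h3, h4, inner_neg_left, h6, neg_neg]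
  unfold rb nab
  rw [inner_add_right]

/-- The component of the flux. -/
theorem Pe.rb_flux (he : Pe L D e) (hF : ContDiffOn ℝ ∞ F D) {y : E n} (hy : y ∈ D) (j : Fin n) :
    rb e (flux L j F) y = ∑ k, gg L.g j k y * pd k (rb e F) y := by
  have h1 : rb e (flux L j F) y = ∑ k, rb e (fun y => gg L.g j k y • nab L k F y) y :=
    rb_sum _ (fun k y => gg L.g j k y • nab L k F y) y
  rw [h1]
  refine Finset.sum_congr rfl fun k _ => ?_
  rw [rb_smul, he.pd_rb hF hy]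

/-- The component of `L F`. -/
theorem Pe.rb_Lop (he : Pe L D e) (hF : ContDiffOn ℝ ∞ F D) {y : E n} (hy : y ∈ D) :
    rb e (Lop L F) y = Ls L.g (rb e F) y := by
  have h1 : rb e (Lop L F) y = ∑ j, rb e (nab L j (flux L j F)) y :=
    rb_sum _ (fun j y => nab L j (flux L j F) y) y
  rw [h1]
  unfold Ls
  refine Finset.sum_congr rfl fun j _ => ?_
  rw [← he.pd_rb (CHarm_flux_smooth he.rel he.ok hF j) hy]
  exact he.rel.pd_congr (fun x hx => he.rb_flux hF hx j) hy j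

theorem Pe.nab_smul_e (he : Pe L D e) {β : E n → ℝ} (hβ : ContDiffOn ℝ ∞ β D) {y : E n}
    (hy : y ∈ D) (j : Fin n) : nab L j (fun y => β y • e y) y = pd j β y • e y := by
  unfold nab
  rw [he.rel.pd_smul hβ he.sm hy j]
  have h2 := he.par y hy j
  unfold nab at h2
  have h3 : L.B j y (β y • e y) = β y • L.B j y (e y) :=
    ContinuousLinearMap.map_smul_of_tower _ _ _
  show β y • pd j e y + pd j β y • e y + L.B j y (β y • e y) = _
  rw [h3, add_right_comm, ← smul_add, h2, smul_zero, zero_add]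

theorem nab_congr' (hD : RelOpen D) {F G : E n → Fib N} (h : EqOn F G D) {y : E n} (hy : y ∈ D)
    (j : Fin n) : nab L j F y = nab L j G y := by
  unfold nab
  rw [hD.pd_congr h hy j, h hy]

theorem Pe.flux_smul_e (he : Pe L D e) {β : E n → ℝ} (hβ : ContDiffOn ℝ ∞ β D) {y : E n}
    (hy : y ∈ D) (j : Fin n) :
    flux L j (fun y => β y • e y) y = (∑ k, gg L.g j k y * pd k β y) • e y := by
  unfold flux
  rw [Finset.sum_smul]
  refine Finset.sum_congr rfl fun k _ => ?_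
  rw [he.nab_smul_e hβ hy k, smul_smul]

/-- `L (β e)`. -/
theorem Pe.Lop_smul_e (he : Pe L D e) {β : E n → ℝ} (hβ : ContDiffOn ℝ ∞ β D) {y : E n}
    (hy : y ∈ D) : Lop L (fun y => β y • e y) y = Ls L.g β y • e y := by
  have h1 : Lop L (fun y => β y • e y) y =
      ∑ j, nab L j (flux L j fun y => β y • e y) y := rfl
  rw [h1]
  unfold Ls
  rw [Finset.sum_smul]
  refine Finset.sum_congr rfl fun j _ => ?_
  have hs : ContDiffOn ℝ ∞ (fun y => ∑ k, gg L.g j k y * pd k β y) D :=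
    ContDiffOn.sum fun k _ => (he.rel.gg_smooth he.ok.g_smooth he.ok.g_pos j k).mul
      (he.rel.pd_smooth hβ k)
  rw [nab_congr' he.rel (fun x hx => he.flux_smul_e hβ hx j) hy j, he.nab_smul_e hs hy j]

end

/-! ### The covariant derivative in the chart -/

section

variable {n N : ℕ} [NeZero n] {M : Type u} [TopologicalSpace M]
  [ChartedSpace (EuclideanHalfSpace n) M] [IsManifold (𝓡∂ n) ∞ M] [MeasurableSpace M]

/-- The covariant derivative in the chart, for a local section. -/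
theorem nab_chart {P : One n N M} {p : M} {e : M → Fib N} {W : Set M} (hW : IsOpen W)
    (he : ContMDiffOn (𝓡∂ n) 𝓘(ℝ, Fib N) ∞ e W) {x : E n} (hx : x ∈ tg n p)
    (hxW : (xc n p).symm x ∈ W) (j : Fin n) :
    nab (P.loc p) j (lu (𝓡∂ n) p e) x =
      cov P.A e ((xc n p).symm x) (coordVec (𝓡∂ n) p ((xc n p).symm x) j) := by
  have hx' : (xc n p).symm x ∈ (extChartAt (𝓡∂ n) p).source := (xc n p).map_target hx
  have h1 : MDifferentiableAt (𝓡∂ n) 𝓘(ℝ, Fib N) e ((xc n p).symm x) :=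
    (he.contMDiffAt (hW.mem_nhds hxW)).mdifferentiableAt (by simp)
  unfold nab cov
  rw [dmap_coordVec (𝓡∂ n) hx' h1, CEnergy_range, (xc n p).right_inv hx]
  rfl

/-- Local maps in the chart. -/
theorem smChart {V : Type*} [NormedAddCommGroup V] [NormedSpace ℝ V] {p : M} {D : Set (E n)}
    (hD : D ⊆ tg n p) {W : Set M} {c : M → V} (hc : ContMDiffOn (𝓡∂ n) 𝓘(ℝ, V) ∞ c W)
    (hW : ∀ y ∈ D, (xc n p).symm y ∈ W) :
    ContDiffOn ℝ ∞ (fun y => c ((xc n p).symm y)) D := by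
  rw [← contMDiffOn_iff_contDiffOn]
  exact hc.comp ((contMDiffOn_extChartAt_symm p).mono hD) hW

/-- The local hypotheses. -/
structure HyL (P Q : One n N M) (Γ W : Set M) (c : M → ℝ) (e : M → Fib N) : Prop where
  hn : 3 ≤ n
  bd : RelBd n Γ
  data : SameD P Q Γ
  op : IsOpen W
  sm : ContMDiffOn (𝓡∂ n) 𝓘(ℝ, ℝ) ∞ c W
  pos : ∀ x ∈ W, 0 < c x
  conf : ∀ x ∈ W, ∀ v w : TangentSpace (𝓡∂ n) x, Q.g.inner x v w = c x * P.g.inner x v w
  sme : ContMDiffOn (𝓡∂ n) 𝓘(ℝ, Fib N) ∞ e W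
  ne : ∀ x ∈ W, ‖e x‖ = 1
  par : ∀ x ∈ W, ∀ X : TangentSpace (𝓡∂ n) x, cov P.A e x X = 0
  AA : ∀ x ∈ W, ∀ X : TangentSpace (𝓡∂ n) x, P.A.form x X = Q.A.form x X

theorem HyL.N0 {P Q : One n N M} {Γ W : Set M} {c : M → ℝ} {e : M → Fib N}
    (h : HyL P Q Γ W c e) (hW : W.Nonempty) : 0 < N := by
  obtain ⟨x, hx⟩ := hW
  rcases Nat.eq_zero_or_pos N with h0 | h0
  · exfalso
    subst h0
    have h1 := h.ne x hx
    have h2 : e x = 0 := Subsingleton.elim _ _
    rw [h2, norm_zero] at h1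
    exact zero_ne_one h1
  · exact h0

theorem HyL.parQ {P Q : One n N M} {Γ W : Set M} {c : M → ℝ} {e : M → Fib N}
    (h : HyL P Q Γ W c e) : ∀ x ∈ W, ∀ X : TangentSpace (𝓡∂ n) x, cov Q.A e x X = 0 := by
  intro x hx X
  have h1 := h.par x hx X
  unfold cov at h1 ⊢
  rwa [← h.AA x hx X]

/-- The parallel section in the chart. -/
theorem HyL.pe {P Q : One n N M} {Γ W : Set M} {c : M → ℝ} {e : M → Fib N}
    (h : HyL P Q Γ W c e) {p : M} {D : Set (E n)} (hr : RelOpen D) (hD : D ⊆ tg n p)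
    (hW : ∀ y ∈ D, (xc n p).symm y ∈ W) : Pe (P.loc p) D (lu (𝓡∂ n) p e) where
  rel := hr
  ok := cRungeB_ok_mono ((TM.fLoc n N M).2.1 P p) hD
  h1 := fun _ => rfl
  sm := smChart hD h.sme hW
  unit := fun y hy => h.ne _ (hW y hy)
  par := fun y hy j => by
    rw [nab_chart h.op h.sme (hD hy) (hW y hy) j]
    exact h.par _ (hW y hy) _

theorem HyL.peQ {P Q : One n N M} {Γ W : Set M} {c : M → ℝ} {e : M → Fib N}
    (h : HyL P Q Γ W c e) {p : M} {D : Set (E n)} (hr : RelOpen D) (hD : D ⊆ tg n p)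
    (hW : ∀ y ∈ D, (xc n p).symm y ∈ W) : Pe (Q.loc p) D (lu (𝓡∂ n) p e) where
  rel := hr
  ok := cRungeB_ok_mono ((TM.fLoc n N M).2.1 Q p) hD
  h1 := fun _ => rfl
  sm := smChart hD h.sme hW
  unit := fun y hy => h.ne _ (hW y hy)
  par := fun y hy j => by
    rw [nab_chart h.op h.sme (hD hy) (hW y hy) j]
    exact h.parQ _ (hW y hy) _

end

/-! ### Boundary determination -/

section

variable {n N : ℕ} [NeZero n] {M : Type u} [TopologicalSpace M]
  [ChartedSpace (EuclideanHalfSpace n) M] [IsManifold (𝓡∂ n) ∞ M] [T2Space M] [CompactSpace M]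
  [ConnectedSpace M] [MeasurableSpace M] [BorelSpace M] {P Q : One n N M} {Γ W : Set M} {c : M → ℝ}
  {e : M → Fib N}

/-- If `c - 1` has a sign on a connected open set which meets `Γ`, then `c = 1` there. -/
theorem HyL.one_of_sign (h : HyL P Q Γ W c e)
    {O : Set M} (hO : IsOpen O) (hOp : IsPreconnected O) (hOΓ : (O ∩ Γ).Nonempty) (hOW : O ⊆ W)
    (hs : (∀ x ∈ O, 1 ≤ c x) ∨ ∀ x ∈ O, c x ≤ 1) : ∀ x ∈ O, c x = 1 := by
  have hN : 0 < N := h.N0 (hOΓ.mono (inter_subset_left.trans hOW))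
  have hAA : ∀ x ∈ O, ∀ X : TangentSpace (𝓡∂ n) x, P.A.form x X = Q.A.form x X :=
    fun x hx X => h.AA x (hOW hx) X
  have key : ∀ x ∈ O, ∀ v w : TangentSpace (𝓡∂ n) x, Q.g.inner x v w = P.g.inner x v w := by
    rcases hs with hs | hs
    · refine lL_closed n N M P Q Γ O h.hn hN h.bd hO hOp hOΓ h.data hAA fun x hx => ?_
      have e : sig Q.g x - sig P.g x = (√(c x ^ n) * (c x)⁻¹ - 1) • sig P.g x := by
        rw [sig_conf (h.pos x (hOW hx)) (h.conf x (hOW hx)), sub_smul, one_smul]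
      rw [e]
      exact (sig_psd P.g x).smul (sub_nonneg.2 (fac_ge h.hn (hs x hx)))
    · have hS' : SameD Q P Γ := (cData TM.fUniq TM.fForm n N M P Q Γ h.bd
        (hOΓ.mono inter_subset_right) h.data).1.2.2
      intro x hx v w
      symm
      refine lL_closed n N M Q P Γ O h.hn hN h.bd hO hOp hOΓ hS' (fun x hx X => (hAA x hx X).symm)
        (fun x hx => ?_) x hx v w
      have e : sig P.g x - sig Q.g x = (1 - √(c x ^ n) * (c x)⁻¹) • sig P.g x := by
        rw [sig_conf (h.pos x (hOW hx)) (h.conf x (hOW hx)), sub_smul, one_smul]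
      rw [e]
      exact (sig_psd P.g x).smul (sub_nonneg.2 (fac_le h.hn (h.pos x (hOW hx)) (hs x hx)))
  intro x hx
  have hv : (EuclideanSpace.single (0 : Fin n) (1 : ℝ) : TangentSpace (𝓡∂ n) x) ≠ 0 := by
    intro h0
    have h1 := congrArg (fun v : E n => v 0) h0
    simp at h1
  have h1 := key x hx _ _ ▸ h.conf x (hOW hx) (EuclideanSpace.single (0 : Fin n) (1 : ℝ))
    (EuclideanSpace.single (0 : Fin n) (1 : ℝ))
  have h2 := P.g.pos x _ hv
  have h3 : (c x - 1) * P.g.inner x (EuclideanSpace.single (0 : Fin n) (1 : ℝ))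
      (EuclideanSpace.single (0 : Fin n) (1 : ℝ)) = 0 := by
    rw [sub_mul, one_mul, ← h1, sub_self]
  rcases mul_eq_zero.1 h3 with h4 | h4
  · linarith
  · exact absurd h4 h2.ne'

/-- The sign lemma in a half ball. -/
theorem HyL.cm_zero_of_sign (h : HyL P Q Γ W c e) {p : M} {z : E n} {r : ℝ} (hr : 0 < r)
    (hz : z 0 = 0) (hsub : HB z r ⊆ tg n p) (hW : ∀ y ∈ HB z r, (xc n p).symm y ∈ W)
    (hzΓ : (xc n p).symm z ∈ Γ)
    (hs : (∀ y ∈ HB z r, 0 ≤ cm c p y) ∨ ∀ y ∈ HB z r, cm c p y ≤ 0) :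
    ∀ y ∈ HB z r, cm c p y = 0 := by
  have hzH : z ∈ HB z r := ⟨mem_ball_self hr, hz.ge⟩
  have h1 : IsOpen ((xc n p).symm '' HB z r) := TM.xc_image_open p (HB_rel z r) hsub
  have hconv : Convex ℝ (HB z r) := (convex_ball z r).inter convex_Hs
  have h2 : IsPreconnected ((xc n p).symm '' HB z r) :=
    hconv.isPreconnected.image _ ((continuousOn_extChartAt_symm p).mono hsub)
  have h3 : ((xc n p).symm '' HB z r ∩ Γ).Nonempty := ⟨_, ⟨z, hzH, rfl⟩, hzΓ⟩
  have h4 := h.one_of_sign h1 h2 h3 (by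
    rintro _ ⟨y, hy, rfl⟩
    exact hW y hy) (by
    rcases hs with hs | hs
    · left
      rintro _ ⟨y, hy, rfl⟩
      have := hs y hy
      unfold cm at this
      linarith
    · right
      rintro _ ⟨y, hy, rfl⟩
      have := hs y hy
      unfold cm at this
      linarith)
  intro y hy
  unfold cm
  rw [h4 _ ⟨y, hy, rfl⟩, sub_self]

/-- Boundary determination: `c - 1` vanishes to second order on `Γ`. -/
theorem HyL.bdDet (h : HyL P Q Γ W c e) {p : M} {z : E n} {r : ℝ} (hsub : HB z r ⊆ tg n p)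
    (hW : ∀ y ∈ HB z r, (xc n p).symm y ∈ W)
    (hbd : ∀ y ∈ HB z r, y 0 = 0 → (xc n p).symm y ∈ Γ) : Van2 z r (cm c p) := by
  have hF : ContDiffOn ℝ ∞ (cm c p) (HB z r) := (smChart hsub h.sm hW).sub contDiffOn_const
  have sgn : ∀ y ∈ HB z r, y 0 = 0 → ∀ ρ > 0, HB y ρ ⊆ HB z r →
      ((∀ x ∈ HB y ρ, 0 ≤ cm c p x) ∨ ∀ x ∈ HB y ρ, cm c p x ≤ 0) →
      ∀ x ∈ HB y ρ, cm c p x = 0 := fun y hy hy0 ρ hρ hs hh =>
    h.cm_zero_of_sign hρ hy0 (hs.trans hsub) (fun y hy => hW y (hs hy)) (hbd y hy hy0) hh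
  have self : ∀ y ∈ HB z r, ∀ ρ > 0, y ∈ HB y ρ := fun y hy ρ hρ => ⟨mem_ball_self hρ, hy.2⟩
  -- zeroth order
  have h0 : ∀ y ∈ HB z r, y 0 = 0 → cm c p y = 0 := by
    intro y hy hy0
    by_contra hne
    rcases lt_or_gt_of_ne hne with h | h
    · obtain ⟨ρ, hρ, hs, hU⟩ := HB_small hF.continuousOn hy isOpen_Iio h
      exact hne (sgn y hy hy0 ρ hρ hs (Or.inr fun x hx => (hU x hx).le) y (self y hy ρ hρ))
    · obtain ⟨ρ, hρ, hs, hU⟩ := HB_small hF.continuousOn hy isOpen_Ioi h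
      exact hne (sgn y hy hy0 ρ hρ hs (Or.inl fun x hx => (hU x hx).le) y (self y hy ρ hρ))
  have hF1 : ContDiffOn ℝ ∞ (pd 0 (cm c p)) (HB z r) := (HB_rel z r).pd_smooth hF 0
  have h00 : ∀ y ρ, HB y ρ ⊆ HB z r → ∀ x ∈ HB y ρ, x 0 = 0 → cm c p x = 0 :=
    fun y ρ hs x hx hx0 => h0 x (hs hx) hx0
  have pz : ∀ y ∈ HB z r, ∀ ρ > 0, HB y ρ ⊆ HB z r → (∀ x ∈ HB y ρ, cm c p x = 0) →
      ∀ i, ∀ x ∈ HB y ρ, pd i (cm c p) x = 0 := by
    intro y hy ρ hρ hs h i x hx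
    rw [(HB_rel y ρ).pd_congr (g := fun _ => (0 : ℝ)) (fun x hx => h x hx) hx i, pd_const]
  -- first order
  have h1 : ∀ y ∈ HB z r, y 0 = 0 → pd 0 (cm c p) y = 0 := by
    intro y hy hy0
    by_contra hne
    rcases lt_or_gt_of_ne hne with h | h
    · obtain ⟨ρ, hρ, hs, hU⟩ := HB_small hF1.continuousOn hy isOpen_Iio h
      have h2 := nonpos_of_pd hy0 (hF.mono hs) (h00 y ρ hs) fun x hx => (hU x hx).le
      exact hne (pz y hy ρ hρ hs (sgn y hy hy0 ρ hρ hs (Or.inr h2)) 0 y (self y hy ρ hρ))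
    · obtain ⟨ρ, hρ, hs, hU⟩ := HB_small hF1.continuousOn hy isOpen_Ioi h
      have h2 := nonneg_of_pd hy0 (hF.mono hs) (h00 y ρ hs) fun x hx => (hU x hx).le
      exact hne (pz y hy ρ hρ hs (sgn y hy hy0 ρ hρ hs (Or.inl h2)) 0 y (self y hy ρ hρ))
  have hF2 : ContDiffOn ℝ ∞ (pd 0 (pd 0 (cm c p))) (HB z r) := (HB_rel z r).pd_smooth hF1 0
  have h11 : ∀ y ρ, HB y ρ ⊆ HB z r → ∀ x ∈ HB y ρ, x 0 = 0 → pd 0 (cm c p) x = 0 :=
    fun y ρ hs x hx hx0 => h1 x (hs hx) hx0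
  have pz2 : ∀ y ∈ HB z r, ∀ ρ > 0, HB y ρ ⊆ HB z r → (∀ x ∈ HB y ρ, cm c p x = 0) →
      ∀ x ∈ HB y ρ, pd 0 (pd 0 (cm c p)) x = 0 := by
    intro y hy ρ hρ hs h x hx
    rw [(HB_rel y ρ).pd_congr (g := fun _ => (0 : ℝ))
      (fun x hx => pz y hy ρ hρ hs h 0 x hx) hx 0, pd_const]
  -- second order
  have h2 : ∀ y ∈ HB z r, y 0 = 0 → pd 0 (pd 0 (cm c p)) y = 0 := by
    intro y hy hy0
    by_contra hne
    rcases lt_or_gt_of_ne hne with h | h
    · obtain ⟨ρ, hρ, hs, hU⟩ := HB_small hF2.continuousOn hy isOpen_Iio h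
      have h3 := nonpos_of_pd hy0 (hF1.mono hs) (h11 y ρ hs) fun x hx => (hU x hx).le
      have h4 := nonpos_of_pd hy0 (hF.mono hs) (h00 y ρ hs) h3
      exact hne (pz2 y hy ρ hρ hs (sgn y hy hy0 ρ hρ hs (Or.inr h4)) y (self y hy ρ hρ))
    · obtain ⟨ρ, hρ, hs, hU⟩ := HB_small hF2.continuousOn hy isOpen_Ioi h
      have h3 := nonneg_of_pd hy0 (hF1.mono hs) (h11 y ρ hs) fun x hx => (hU x hx).le
      have h4 := nonneg_of_pd hy0 (hF.mono hs) (h00 y ρ hs) h3
      exact hne (pz2 y hy ρ hρ hs (sgn y hy hy0 ρ hρ hs (Or.inl h4)) y (self y hy ρ hρ))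
  exact Van2.of_normal hF h0 h1 h2

end

end Vale.Agent.P088.R2.H338
end
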