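import Vale.Agent.P088.R2.H338.BA

/-!
# P088, Theorem S, local boundary step: the two problems in the coordinates at the boundary
-/

set_option linter.all false

open Bundle Manifold MeasureTheory Set Filter Topology Metric
open scoped ContDiff Matrix

noncomputable section

namespace Vale.Agent.P088.R2.H338

open Vale.Agent.P088 Vale.Agent.P088.EYM Vale.Agent.P088.EYM.O Vale.Agent.P088.R2.H509

universe u

/-- The coordinates at the boundary point, local form. -/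
structure SuL {n N : ℕ} [NeZero n] {M : Type u} [TopologicalSpace M]
    [ChartedSpace (EuclideanHalfSpace n) M] [IsManifold (𝓡∂ n) ∞ M] [MeasurableSpace M]
    (P Q : One n N M) (Γ W : Set M) (c : M → ℝ) (e : M → Fib N) (p : M) (X : E n → E n)
    (om : E n → ℝ) (z : E n) (r r' R : ℝ) : Prop where
  hy : HyL P Q Γ W c e
  geo : Geo X z r r' R
  sub : HB z r' ⊆ tg n p
  subW : ∀ y ∈ HB z r', (xc n p).symm y ∈ W
  Γs : ∀ y ∈ HB z r', y 0 = 0 → (xc n p).symm y ∈ Γ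
  smw : ContDiffOn ℝ ∞ (fun x => om (X x)) (HB z r')
  pw : ∀ x ∈ HB z r', 0 < om (X x)
  harm : ∀ x ∈ HB z r', 0 < x 0 → H31.lap om (X x) = 0
  met : ∀ x ∈ HB z r', (P.loc p).g x =
    (om (X x)) ^ (4 / ((n : ℝ) - 2)) • ((Jac X x).transpose * Jac X x)

section

variable {n N : ℕ} [NeZero n] {M : Type u} [TopologicalSpace M]
  [ChartedSpace (EuclideanHalfSpace n) M] [IsManifold (𝓡∂ n) ∞ M] [T2Space M] [CompactSpace M]
  [ConnectedSpace M] [MeasurableSpace M] [BorelSpace M] {P Q : One n N M} {Γ W : Set M} {c : M → ℝ}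
  {e : M → Fib N} {p : M} {X : E n → E n} {om : E n → ℝ} {z : E n} {r r' R : ℝ}

theorem SuL.HBr (h : SuL P Q Γ W c e p X om z r r' R) : HB z r ⊆ HB z r' :=
  HB_sub_KB.trans h.geo.KB_sub

theorem SuL.n2 (h : SuL P Q Γ W c e p X om z r r' R) : (0 : ℝ) < (n : ℝ) - 2 := by
  have : (3 : ℝ) ≤ n := by exact_mod_cast h.hy.hn
  linarith

theorem SuL.cm_van' (h : SuL P Q Γ W c e p X om z r r' R) : Van2 z r' (cm c p) :=
  h.hy.bdDet h.sub h.subW h.Γs

theorem SuL.cp (h : SuL P Q Γ W c e p X om z r r' R) : ∀ x ∈ HB z r', 0 < c ((xc n p).symm x) :=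
  fun x hx => h.hy.pos _ (h.subW x hx)

theorem SuL.w1s (h : SuL P Q Γ W c e p X om z r r' R) :
    ContDiffOn ℝ ∞ (fun x => om (X x)) (HB z r) :=
  h.smw.mono h.HBr

theorem SuL.Tvan (h : SuL P Q Γ W c e p X om z r r' R) :
    Van2 z r' (fun x => (c ((xc n p).symm x)) ^ (((n : ℝ) - 2) / 4) - 1) := by
  have h1 := h.cm_van'.rpow (fun x hx => by
    have := h.cp x hx
    unfold cm
    linarith) (((n : ℝ) - 2) / 4)
  refine ⟨h1.sm.congr ?_, ?_, ?_, ?_⟩
  · intro x _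
    simp [cm]
  all_goals
    intro x hx hx0
  · have := h1.v0 x hx hx0
    simpa [cm] using this
  · intro i
    have := h1.v1 x hx hx0 i
    simpa [cm] using this
  · intro i j
    have := h1.v2 x hx hx0 i j
    simpa [cm] using this

theorem SuL.w2s' (h : SuL P Q Γ W c e p X om z r r' R) :
    ContDiffOn ℝ ∞ (w2 c p X om) (HB z r') := by
  have h1 : ContDiffOn ℝ ∞ (fun x => ((c ((xc n p).symm x)) ^ (((n : ℝ) - 2) / 4) - 1) + 1)
      (HB z r') := h.Tvan.sm.add contDiffOn_const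
  simp only [sub_add_cancel] at h1
  exact h1.mul h.smw

theorem SuL.w2s (h : SuL P Q Γ W c e p X om z r r' R) : ContDiffOn ℝ ∞ (w2 c p X om) (HB z r) :=
  h.w2s'.mono h.HBr

theorem SuL.w2p (h : SuL P Q Γ W c e p X om z r r' R) : ∀ x ∈ HB z r', 0 < w2 c p X om x :=
  fun x hx => mul_pos (Real.rpow_pos_of_pos (h.cp x hx) _) (h.pw x hx)

/-- `ω₂ - ω₁` vanishes to second order. -/
theorem SuL.dvan (h : SuL P Q Γ W c e p X om z r r' R) :
    Van2 z r (fun x => w2 c p X om x - om (X x)) := by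
  have h1 := (h.Tvan.mul h.smw).mono h.geo.rr.le
  have e : (fun x => w2 c p X om x - om (X x)) =
      fun x => ((c ((xc n p).symm x)) ^ (((n : ℝ) - 2) / 4) - 1) * om (X x) := by
    funext x
    unfold w2
    ring
  rw [e]
  exact h1

/-- `ω₁` is harmonic. -/
theorem SuL.Lw1 (h : SuL P Q Γ W c e p X om z r r' R) :
    ∀ x ∈ HB z r, Lx X (fun x => om (X x)) x = 0 := by
  refine eq_of_OB (h.geo.Lx_sm h.w1s).continuousOn continuousOn_const fun x hx => ?_
  rw [← h.geo.lap_ext0 h.w1s hx, ← h.harm x (h.HBr (OB_sub_HB hx)) hx.2]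
  refine H31.lap_congr ?_
  filter_upwards [h.geo.ev_near hx] with y hy
  obtain ⟨x', hx', rfl⟩ := hy
  exact h.geo.ext0_X (OB_sub_KB hx')

theorem SuL.Lw2 (h : SuL P Q Γ W c e p X om z r r' R) : ∀ x ∈ HB z r, x 0 = 0 →
    Lx X (w2 c p X om) x = 0 := by
  intro x hx hx0
  have h1 := h.geo.Lx_van h.dvan hx hx0
  rw [h.geo.Lx_sub h.w2s h.w1s hx, h.Lw1 x hx, sub_zero] at h1
  exact h1

/-- The metric of `Q`. -/
theorem SuL.met2 (h : SuL P Q Γ W c e p X om z r r' R) : ∀ x ∈ HB z r', (Q.loc p).g x =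
    (w2 c p X om x) ^ (4 / ((n : ℝ) - 2)) • ((Jac X x).transpose * Jac X x) := by
  intro x hx
  have h1 : (Q.loc p).g x = c ((xc n p).symm x) • (P.loc p).g x :=
    gram_conf (h.hy.conf _ (h.subW x hx)) p
  rw [h1, h.met x hx, smul_smul]
  congr 1
  unfold w2
  have hc := h.cp x hx
  rw [Real.mul_rpow (Real.rpow_nonneg hc.le _) (h.pw x hx).le, ← Real.rpow_mul hc.le]
  have e : ((n : ℝ) - 2) / 4 * (4 / ((n : ℝ) - 2)) = 1 := by
    have := h.n2.ne'
    field_simp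
  rw [e, Real.rpow_one]

theorem SuL.okP (h : SuL P Q Γ W c e p X om z r r' R) : (P.loc p).Ok (HB z r') :=
  cRungeB_ok_mono ((TM.fLoc n N M).2.1 P p) h.sub

theorem SuL.okQ (h : SuL P Q Γ W c e p X om z r r' R) : (Q.loc p).Ok (HB z r') :=
  cRungeB_ok_mono ((TM.fLoc n N M).2.1 Q p) h.sub

theorem SuL.ggP (h : SuL P Q Γ W c e p X om z r r' R) (j k : Fin n) :
    ContDiffOn ℝ ∞ (gg (P.loc p).g j k) (HB z r) :=
  (HB_rel z r).gg_smooth (fun i j => (h.okP.g_smooth i j).mono h.HBr)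
    (fun x hx => h.okP.g_pos x (h.HBr hx)) j k

theorem SuL.ggQ (h : SuL P Q Γ W c e p X om z r r' R) (j k : Fin n) :
    ContDiffOn ℝ ∞ (gg (Q.loc p).g j k) (HB z r) :=
  (HB_rel z r).gg_smooth (fun i j => (h.okQ.g_smooth i j).mono h.HBr)
    (fun x hx => h.okQ.g_pos x (h.HBr hx)) j k

/-- The operator of `P`. -/
theorem SuL.LP (h : SuL P Q Γ W c e p X om z r r' R) {F : E n → ℝ}
    (hF : ContDiffOn ℝ ∞ F (HB z r)) {x : E n} (hx : x ∈ HB z r) :
    Ls (P.loc p).g F x = |(Jac X x).det| * (om (X x) * Lx X (fun x => om (X x) * F x) x) := by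
  rw [h.geo.tr h.hy.hn h.ggP h.w1s (fun x hx => h.pw x (h.HBr hx))
    (fun x hx => h.met x (h.HBr hx)) hF hx, h.Lw1 x hx]
  ring

/-- The operator of `Q`. -/
theorem SuL.LQ (h : SuL P Q Γ W c e p X om z r r' R) {F : E n → ℝ}
    (hF : ContDiffOn ℝ ∞ F (HB z r)) {x : E n} (hx : x ∈ HB z r) :
    Ls (Q.loc p).g F x = |(Jac X x).det| * (w2 c p X om x * Lx X (fun x => w2 c p X om x * F x) x -
      w2 c p X om x * F x * Lx X (w2 c p X om) x) :=
  h.geo.tr h.hy.hn h.ggQ h.w2s (fun x hx => h.w2p x (h.HBr hx))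
    (fun x hx => h.met2 x (h.HBr hx)) hF hx

/-- The parallel section in the chart. -/
abbrev ec (p : M) (e : M → Fib N) : E n → Fib N := lu (𝓡∂ n) p e

theorem SuL.peP (h : SuL P Q Γ W c e p X om z r r' R) : Pe (P.loc p) (HB z r') (ec p e) :=
  h.hy.pe (HB_rel z r') h.sub h.subW

theorem SuL.peQ (h : SuL P Q Γ W c e p X om z r r' R) : Pe (Q.loc p) (HB z r') (ec p e) :=
  h.hy.peQ (HB_rel z r') h.sub h.subW

/-- The component of a section along `e`, in the chart. -/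
def cu (p : M) (e u : M → Fib N) : E n → ℝ := rb (ec (n := n) p e) (lu (𝓡∂ n) p u)

theorem cu_eq (p : M) (e u : M → Fib N) (y : E n) :
    cu p e u y = (inner ℂ (e ((xc n p).symm y)) (u ((xc n p).symm y)) : ℂ).re := rfl

theorem SuL.lu_sm (h : SuL P Q Γ W c e p X om z r r' R) {u : M → Fib N} (hu : SmS n u) :
    ContDiffOn ℝ ∞ (lu (𝓡∂ n) p u) (HB z r') := ((TM.fLoc n N M).2.2.2 u hu p).mono h.sub

theorem SuL.cu_sm (h : SuL P Q Γ W c e p X om z r r' R) {u : M → Fib N} (hu : SmS n u) :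
    ContDiffOn ℝ ∞ (cu (n := n) p e u) (HB z r') := rb_smooth h.peP.sm (h.lu_sm hu)

theorem SuL.cu_sm_r (h : SuL P Q Γ W c e p X om z r r' R) {u : M → Fib N} (hu : SmS n u) :
    ContDiffOn ℝ ∞ (cu (n := n) p e u) (HB z r) := (h.cu_sm hu).mono h.HBr

/-- The scalar equation in the chart. -/
theorem SuL.LsP (h : SuL P Q Γ W c e p X om z r r' R) {f u : M → Fib N} (hH : P.Harm f u)
    {x : E n} (hx : x ∈ HB z r') : Ls (P.loc p).g (cu (n := n) p e u) x = 0 := by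
  have hS := (TM.fHarm n N M P _ _ hH p).2 x (h.sub hx)
  unfold cu
  rw [← h.peP.rb_Lop (h.lu_sm hH.smooth) hx]
  unfold rb
  rw [hS, inner_zero_right, Complex.zero_re]

theorem SuL.LsQ (h : SuL P Q Γ W c e p X om z r r' R) {f u : M → Fib N} (hH : Q.Harm f u)
    {x : E n} (hx : x ∈ HB z r') : Ls (Q.loc p).g (cu (n := n) p e u) x = 0 := by
  have hS := (TM.fHarm n N M Q _ _ hH p).2 x (h.sub hx)
  unfold cu
  rw [← h.peQ.rb_Lop (h.lu_sm hH.smooth) hx]
  unfold rb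
  rw [hS, inner_zero_right, Complex.zero_re]

/-- Equality of the energies with all test sections near the boundary point. -/
theorem SuL.en_eq (h : SuL P Q Γ W c e p X om z r r' R) {u : (M → Fib N) × (M → Fib N)}
    (hu : u ∈ PP P Q Γ) (φ : E n → Fib N) (hφ : Tst0 (ball z r') φ) :
    En (P.loc p) (HB z r') φ (lu (𝓡∂ n) p u.1) = En (Q.loc p) (HB z r') φ (lu (𝓡∂ n) p u.2) := by
  obtain ⟨hφs, hφc, hφt⟩ := hφ
  set K' : Set (E n) := tsupport φ ∩ Hs n with hK'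
  have hK'c : IsCompact K' := hφc.isCompact.inter_right isClosed_Hs
  have hK'D : K' ⊆ HB z r' := inter_subset_inter_left _ hφt
  have h0 : ∀ y ∈ HB z r', y ∉ K' → φ y = 0 := fun y hy hyK =>
    image_eq_zero_of_notMem_tsupport fun hy' => hyK ⟨hy', hy.2⟩
  obtain ⟨ψ, hψ, hψD, hψ0, hψs⟩ := TM.fExt n N M p φ (HB z r') K' (HB_rel z r') h.sub
    hφs.contDiffOn hK'c hK'D h0
  have hcl : IsClosed ((xc n p).symm '' K') :=
    (hK'c.image_of_continuousOn ((continuousOn_extChartAt_symm p).mono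
      (hK'D.trans h.sub))).isClosed
  obtain ⟨hrel, hOk, hbd, -⟩ := TM.fLoc n N M
  have hbdc : IsClosed ((𝓡∂ n).boundary M) := by
    rw [← ModelWithCorners.compl_interior]
    exact (TM.fConn n M).1.isClosed_compl
  have hsupp : closure {x ∈ (𝓡∂ n).boundary M | ψ x ≠ 0} ⊆ Γ := by
    have h1 : closure {x ∈ (𝓡∂ n).boundary M | ψ x ≠ 0} ⊆
        (xc n p).symm '' K' ∩ (𝓡∂ n).boundary M := by
      refine closure_minimal ?_ (hcl.inter hbdc)
      rintro x ⟨hx, hx'⟩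
      exact ⟨by_contra fun h => hx' (hψ0 x h), hx⟩
    refine h1.trans ?_
    rintro x ⟨⟨y, hy, rfl⟩, hx⟩
    have hyt := h.sub (hK'D hy)
    refine h.Γs y (hK'D hy) ?_
    have h2 := (hbd p _ ((xc n p).map_target hyt)).1 hx
    rwa [(xc n p).right_inv hyt] at h2
  have hΓn : Γ.Nonempty := by
    refine ⟨_, h.Γs z ⟨mem_ball_self (h.geo.rpos.trans h.geo.rr), h.geo.z0.ge⟩ h.geo.z0⟩
  have h3 := (cData TM.fUniq TM.fForm n N M P Q Γ h.hy.bd hΓn h.hy.data).2 u hu ψ ψ hψ hψ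
    (fun _ _ => rfl) hsupp
  obtain ⟨f, hf, hu1, hu2⟩ := hu
  have hsub : tsupport ψ ⊆ (xc n p).symm '' HB z r' := hψs.trans (image_mono hK'D)
  rw [(TM.fEn n N M P p _ (HB_rel z r') h.sub).1 ψ u.1 hψ hu1.smooth (Or.inl hsub),
    (TM.fEn n N M Q p _ (HB_rel z r') h.sub).1 ψ u.2 hψ hu2.smooth (Or.inl hsub)] at h3
  have e1 : ∀ (L : LD n N) (d : E n → Fib N),
      En L (HB z r') (lu (𝓡∂ n) p ψ) d = En L (HB z r') φ d := by
    intro L d
    unfold En
    refine setIntegral_congr_fun (CRungeC_meas (HB_rel z r')) fun y hy => ?_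
    exact CRungeC_ed_congr (HB_rel z r') (fun y hy => hψD y hy) (fun _ _ => rfl) hy
  rwa [e1, e1] at h3

/-- Equality of the boundary values in the chart. -/
theorem SuL.bv (h : SuL P Q Γ W c e p X om z r r' R) {u : (M → Fib N) × (M → Fib N)}
    (hu : u ∈ PP P Q Γ) {y : E n} (hy : y ∈ HB z r') (hy0 : y 0 = 0) :
    u.2 ((xc n p).symm y) = u.1 ((xc n p).symm y) := by
  obtain ⟨hrel, hOk, hbd, -⟩ := TM.fLoc n N M
  obtain ⟨f, hf, hu1, hu2⟩ := hu
  have hyt := h.sub hy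
  have h1 : (xc n p).symm y ∈ (𝓡∂ n).boundary M := by
    rw [hbd p _ ((xc n p).map_target hyt), (xc n p).right_inv hyt]
    exact hy0
  rw [hu1.boundary _ h1, hu2.boundary _ h1]

theorem SuL.bv_cu (h : SuL P Q Γ W c e p X om z r r' R) {u : (M → Fib N) × (M → Fib N)}
    (hu : u ∈ PP P Q Γ) {y : E n} (hy : y ∈ HB z r') (hy0 : y 0 = 0) :
    cu (n := n) p e u.2 y = cu (n := n) p e u.1 y := by
  rw [cu_eq, cu_eq, h.bv hu hy hy0]

/-- The normal derivatives agree. -/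
theorem SuL.pd0 (h : SuL P Q Γ W c e p X om z r r' R) {u : (M → Fib N) × (M → Fib N)}
    (hu : u ∈ PP P Q Γ) {x : E n} (hx : x ∈ HB z r') (hx0 : x 0 = 0) (i : Fin n) :
    pd i (fun y => cu (n := n) p e u.2 y - cu (n := n) p e u.1 y) x = 0 := by
  obtain ⟨hrel, hOk, hbd, -⟩ := TM.fLoc n N M
  have hu' := hu
  obtain ⟨f, hf, hu1, hu2⟩ := hu
  have sa : ContDiffOn ℝ ∞ (cu (n := n) p e u.1) (HB z r') := h.cu_sm hu1.smooth
  have sb : ContDiffOn ℝ ∞ (cu (n := n) p e u.2) (HB z r') := h.cu_sm hu2.smooth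
  have sd : ContDiffOn ℝ ∞ (fun y => cu (n := n) p e u.2 y - cu (n := n) p e u.1 y) (HB z r') :=
    sb.sub sa
  have d0 : ∀ y ∈ HB z r', y 0 = 0 → cu (n := n) p e u.2 y - cu (n := n) p e u.1 y = 0 := by
    intro y hy hy0
    rw [h.bv_cu hu' hy hy0, sub_self]
  by_cases hi : i ≠ 0
  · exact pd_tan sd d0 hx hx0 hi
  push Not at hi
  subst hi
  have hS1 := TM.fHarm n N M P _ _ hu1 p
  have hS2 := TM.fHarm n N M Q _ _ hu2 p
  have hfl := aFlux n N (P.loc p) (Q.loc p) z r' (h.geo.rpos.trans h.geo.rr) h.geo.z0 h.okP h.okQ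
    (fun _ _ _ => rfl) _ _ ⟨hS1.1.mono h.sub, fun x hx => hS1.2 x (h.sub hx)⟩
    ⟨hS2.1.mono h.sub, fun x hx => hS2.2 x (h.sub hx)⟩ (fun φ hφ => h.en_eq hu' φ hφ) x hx hx0
  have h1 : ∑ k, gg (P.loc p).g 0 k x * pd k (cu (n := n) p e u.1) x =
      ∑ k, gg (Q.loc p).g 0 k x * pd k (cu (n := n) p e u.2) x := by
    have e1 := h.peP.rb_flux (h.lu_sm hu1.smooth) hx 0
    have e2 := h.peQ.rb_flux (h.lu_sm hu2.smooth) hx 0
    have e3 : rb (ec (n := n) p e) (flux (P.loc p) 0 (lu (𝓡∂ n) p u.1)) x =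
        rb (ec (n := n) p e) (flux (Q.loc p) 0 (lu (𝓡∂ n) p u.2)) x := by
      unfold rb
      rw [hfl]
    unfold cu
    rw [← e1, ← e2, e3]
  -- `c = 1` at `x`
  have hc1 : c ((xc n p).symm x) = 1 := by
    have := h.cm_van'.v0 x hx hx0
    unfold cm at this
    linarith
  have hgq : (Q.loc p).g x = (P.loc p).g x := by
    have h2 : (Q.loc p).g x = c ((xc n p).symm x) • (P.loc p).g x :=
      gram_conf (h.hy.conf _ (h.subW x hx)) p
    rw [h2, hc1, one_smul]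
  have hgg : ∀ k, gg (Q.loc p).g 0 k x = gg (P.loc p).g 0 k x := fun k => by
    unfold gg
    rw [hgq]
  simp only [hgg] at h1
  have h3 : ∀ k, pd k (fun y => cu (n := n) p e u.2 y - cu (n := n) p e u.1 y) x =
      pd k (cu (n := n) p e u.2) x - pd k (cu (n := n) p e u.1) x := fun k =>
    (HB_rel z r').pd_sub sb sa hx k
  have h4 : ∑ k, gg (P.loc p).g 0 k x *
      pd k (fun y => cu (n := n) p e u.2 y - cu (n := n) p e u.1 y) x = 0 := by
    simp only [h3, mul_sub, Finset.sum_sub_distrib]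
    rw [h1, sub_self]
  rw [Finset.sum_eq_single (0 : Fin n)] at h4
  · have h5 : 0 < gg (P.loc p).g 0 0 x := by
      have hpd := h.okP.g_pos x hx
      unfold gg
      refine mul_pos (Real.sqrt_pos.2 hpd.det_pos) ?_
      exact hpd.inv.diag_pos
    exact (mul_eq_zero.1 h4).resolve_left h5.ne'
  · intro k _ hk
    rw [pd_tan sd d0 hx hx0 hk, mul_zero]
  · intro h; exact absurd (Finset.mem_univ _) h

/-- `w = ω₂ ⟨e,u₂⟩ - ω₁ ⟨e,u₁⟩` in the coordinates `x`. -/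
def WL (c : M → ℝ) (e : M → Fib N) (p : M) (X : E n → E n) (om : E n → ℝ) (u₁ u₂ : M → Fib N)
    (x : E n) : ℝ := w2 c p X om x * cu (n := n) p e u₂ x - om (X x) * cu (n := n) p e u₁ x

theorem SuL.W_main (h : SuL P Q Γ W c e p X om z r r' R) {u : (M → Fib N) × (M → Fib N)}
    (hu : u ∈ PP P Q Γ) : Van2 z r (WL c e p X om u.1 u.2) ∧ ∀ x ∈ HB z r,
      Lx X (WL c e p X om u.1 u.2) x = cu (n := n) p e u.2 x * Lx X (w2 c p X om) x := by
  have hu' := hu
  obtain ⟨f, hf, hu1, hu2⟩ := hu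
  have sa' : ContDiffOn ℝ ∞ (cu (n := n) p e u.1) (HB z r') := h.cu_sm hu1.smooth
  have sb' : ContDiffOn ℝ ∞ (cu (n := n) p e u.2) (HB z r') := h.cu_sm hu2.smooth
  have sa : ContDiffOn ℝ ∞ (cu (n := n) p e u.1) (HB z r) := sa'.mono h.HBr
  have sb : ContDiffOn ℝ ∞ (cu (n := n) p e u.2) (HB z r) := sb'.mono h.HBr
  have sW : ContDiffOn ℝ ∞ (WL c e p X om u.1 u.2) (HB z r) := (h.w2s.mul sb).sub (h.w1s.mul sa)
  have hdet : ∀ x ∈ HB z r, |(Jac X x).det| ≠ 0 := fun x hx =>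
    abs_ne_zero.2 (h.geo.det x (HB_sub_KB hx))
  have l1 : ∀ x ∈ HB z r, Lx X (fun x => om (X x) * cu (n := n) p e u.1 x) x = 0 := by
    intro x hx
    have h1 := h.LP sa hx
    rw [h.LsP hu1 (h.HBr hx)] at h1
    have h2 := (mul_eq_zero.1 h1.symm).resolve_left (hdet x hx)
    exact (mul_eq_zero.1 h2).resolve_left (h.pw x (h.HBr hx)).ne'
  have l2 : ∀ x ∈ HB z r, Lx X (fun x => w2 c p X om x * cu (n := n) p e u.2 x) x =
      cu (n := n) p e u.2 x * Lx X (w2 c p X om) x := by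
    intro x hx
    have h1 := h.LQ sb hx
    rw [h.LsQ hu2 (h.HBr hx)] at h1
    have h2 := (mul_eq_zero.1 h1.symm).resolve_left (hdet x hx)
    have h3 : w2 c p X om x * (Lx X (fun x => w2 c p X om x * cu (n := n) p e u.2 x) x -
        cu (n := n) p e u.2 x * Lx X (w2 c p X om) x) = 0 := by
      rw [← h2]; ring
    exact sub_eq_zero.1 ((mul_eq_zero.1 h3).resolve_left (h.w2p x (h.HBr hx)).ne')
  have l3 : ∀ x ∈ HB z r, Lx X (WL c e p X om u.1 u.2) x =
      cu (n := n) p e u.2 x * Lx X (w2 c p X om) x := by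
    intro x hx
    have e := h.geo.Lx_sub (h.w2s.mul sb) (h.w1s.mul sa) hx
    rw [l1 x hx, l2 x hx, sub_zero] at e
    exact e
  refine ⟨h.geo.van_of_Lx sW ?_ ?_ ?_, l3⟩
  · -- boundary values
    intro x hx hx0
    have h1 := h.dvan.v0 x hx hx0
    unfold WL
    rw [h.bv_cu hu' (h.HBr hx) hx0, ← sub_mul, h1, zero_mul]
  · intro x hx hx0
    have eW : EqOn (WL c e p X om u.1 u.2) (fun x => (w2 c p X om x - om (X x)) *
        cu (n := n) p e u.2 x +
        om (X x) * (cu (n := n) p e u.2 x - cu (n := n) p e u.1 x)) (HB z r) := by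
      intro y _
      unfold WL
      ring
    have hd : pd 0 (fun y => cu (n := n) p e u.2 y - cu (n := n) p e u.1 y) x = 0 :=
      h.pd0 hu' (h.HBr hx) hx0 0
    rw [(HB_rel z r).pd_congr eW hx 0, pd_add' (h.dvan.sm.mul sb) (h.w1s.mul (sb.sub sa)) hx,
      pd_mul' h.dvan.sm sb hx, pd_mul' h.w1s (sb.sub sa) hx, hd, h.dvan.v0 x hx hx0,
      h.dvan.v1 x hx hx0, h.bv_cu hu' (h.HBr hx) hx0]
    ring
  · intro x hx hx0
    rw [l3 x hx, h.Lw2 x hx hx0, mul_zero]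

end

end Vale.Agent.P088.R2.H338
end
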