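import Vale.Agent.P088.R2.H338.BB
import Vale.Agent.P088.R2.H509.Sd

/-!
# P088, Theorem S, local boundary step: norms on `M` and in the chart
-/

set_option linter.all false

open Bundle Manifold MeasureTheory Set Filter Topology Metric
open scoped ContDiff Matrix

noncomputable section

namespace Vale.Agent.P088.R2.H338

open Vale.Agent.P088 Vale.Agent.P088.EYM Vale.Agent.P088.EYM.O Vale.Agent.P088.R2.H509

universe u

section

variable {n N : ℕ} [NeZero n]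

theorem pd_rb_gen {D : Set (E n)} (hD : RelOpen D) {e F : E n → Fib N} (he : ContDiffOn ℝ ∞ e D)
    (hF : ContDiffOn ℝ ∞ F D) {y : E n} (hy : y ∈ D) (j : Fin n) :
    pd j (rb e F) y = (inner ℂ (e y) (pd j F y) + inner ℂ (pd j e y) (F y) : ℂ).re := by
  have hed := hD.hasD hy he (by simp)
  have hFd := hD.hasD hy hF (by simp)
  have h2 : HasFDerivWithinAt (rb e F) (Complex.reCLM.comp ((fderivInnerCLM ℂ (e y, F y)).comp
      ((fderivWithin ℝ e (Hs n) y).prod (fderivWithin ℝ F (Hs n) y)))) (Hs n) y :=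
    Complex.reCLM.hasFDerivAt.comp_hasFDerivWithinAt y (hed.inner ℂ hFd)
  rw [pd_of_has (hD.subset hy) h2 j]
  rfl

theorem q1_rb_le {D : Set (E n)} (hD : RelOpen D) {e F : E n → Fib N} (he : ContDiffOn ℝ ∞ e D)
    (hF : ContDiffOn ℝ ∞ F D) {y : E n} (hy : y ∈ D) (h1 : ‖e y‖ = 1) {B : ℝ}
    (hB : ∀ j, ‖pd j e y‖ ≤ B) :
    q1 (rb e F) y ≤ (2 + 2 * n * B ^ 2) * (‖F y‖ ^ 2 + ∑ j, ‖pd j F y‖ ^ 2) := by
  have a1 : rb e F y ^ 2 ≤ ‖F y‖ ^ 2 := rb_sq_le h1 F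
  have a2 : ∀ j, pd j (rb e F) y ^ 2 ≤ 2 * ‖pd j F y‖ ^ 2 + 2 * B ^ 2 * ‖F y‖ ^ 2 := by
    intro j
    have e1 := pd_rb_gen hD he hF hy j
    have e2 : |pd j (rb e F) y| ≤ ‖pd j F y‖ + B * ‖F y‖ := by
      rw [e1]
      refine (Complex.abs_re_le_norm _).trans ((norm_add_le _ _).trans (add_le_add ?_ ?_))
      · refine (norm_inner_le_norm _ _).trans ?_
        rw [h1, one_mul]
      · exact (norm_inner_le_norm _ _).trans (mul_le_mul_of_nonneg_right (hB j) (norm_nonneg _))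
    have e3 : pd j (rb e F) y ^ 2 ≤ (‖pd j F y‖ + B * ‖F y‖) ^ 2 := by
      rw [← sq_abs]
      exact pow_le_pow_left₀ (abs_nonneg _) e2 2
    refine e3.trans ?_
    generalize ‖pd j F y‖ = a
    generalize ‖F y‖ = b
    nlinarith [sq_nonneg (a - B * b)]
  have a3 : ∑ j, pd j (rb e F) y ^ 2 ≤ 2 * (∑ j, ‖pd j F y‖ ^ 2) + n * (2 * B ^ 2 * ‖F y‖ ^ 2) := by
    refine (Finset.sum_le_sum fun j _ => a2 j).trans ?_
    generalize 2 * B ^ 2 * ‖F y‖ ^ 2 = t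
    rw [Finset.sum_add_distrib, ← Finset.mul_sum]
    have ht : ∑ _j : Fin n, t = n * t := by
      rw [Finset.sum_const, Finset.card_univ, Fintype.card_fin, nsmul_eq_mul]
    rw [ht]
  have a4 : 0 ≤ ∑ j, ‖pd j F y‖ ^ 2 := Finset.sum_nonneg fun _ _ => sq_nonneg _
  have a8 : (0 : ℝ) ≤ 2 * n * B ^ 2 := by positivity
  have a5 : 0 ≤ (2 * n * B ^ 2) * ∑ j, ‖pd j F y‖ ^ 2 := mul_nonneg a8 a4
  have a6 : 0 ≤ ‖F y‖ ^ 2 := sq_nonneg _
  have a7 : (2 + 2 * n * B ^ 2) * (‖F y‖ ^ 2 + ∑ j, ‖pd j F y‖ ^ 2) =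
      2 * ‖F y‖ ^ 2 + 2 * (∑ j, ‖pd j F y‖ ^ 2) + n * (2 * B ^ 2 * ‖F y‖ ^ 2) +
        (2 * n * B ^ 2) * ∑ j, ‖pd j F y‖ ^ 2 := by ring
  unfold q1
  rw [a7]
  linarith

theorem bound_pd {z : E n} {r r' : ℝ} (hrr : r < r') {e : E n → Fib N}
    (he : ContDiffOn ℝ ∞ e (HB z r')) : ∃ B > 0, ∀ y ∈ KB z r, ∀ j, ‖pd j e y‖ ≤ B := by
  obtain ⟨B, hB, hb⟩ := bound_fam (KB_compact (z := z) (r := r))
    (F := fun j y => ‖pd j e y‖)
    (fun j => ((((HB_rel z r').pd_smooth he j).continuousOn.mono (KB_sub' hrr)).norm))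
  exact ⟨B, hB, fun y hy j => (le_abs_self _).trans (hb j y hy)⟩

end

section

variable {n N : ℕ} [NeZero n] {M : Type u} [TopologicalSpace M]
  [ChartedSpace (EuclideanHalfSpace n) M] [IsManifold (𝓡∂ n) ∞ M] [T2Space M] [CompactSpace M]
  [ConnectedSpace M] [MeasurableSpace M] [BorelSpace M]

/-- The section in the chart: smooth and of norm `1`. -/
structure Se (p : M) (e : M → Fib N) (z : E n) (r' : ℝ) : Prop where
  sub : HB z r' ⊆ tg n p
  sm : ContDiffOn ℝ ∞ (ec (n := n) p e) (HB z r')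
  unit : ∀ y ∈ HB z r', ‖ec (n := n) p e y‖ = 1

theorem Se.lu_sm {p : M} {e : M → Fib N} {z : E n} {r' : ℝ} (h : Se p e z r') {u : M → Fib N}
    (hu : SmS n u) : ContDiffOn ℝ ∞ (lu (𝓡∂ n) p u) (HB z r') :=
  ((TM.fLoc n N M).2.2.2 u hu p).mono h.sub

theorem Se.cu_sm {p : M} {e : M → Fib N} {z : E n} {r' : ℝ} (h : Se p e z r') {u : M → Fib N}
    (hu : SmS n u) : ContDiffOn ℝ ∞ (cu (n := n) p e u) (HB z r') :=
  rb_smooth h.sm (h.lu_sm hu)

/-- `L²` norms: from the chart to `M`. -/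
theorem chart_L2L (P : One n N M) {p : M} {e : M → Fib N} {z : E n} {r r' : ℝ} (hrr : r < r')
    (h : Se p e z r') : ∃ C > 0, ∀ u : M → Fib N, SmS n u →
      (∫ y in HB z r, ‖lu (𝓡∂ n) p u y‖ ^ 2) ≤ C * ∫ x, ‖u x‖ ^ 2 ∂P.μ ∧
      ∫ y in HB z r, cu (n := n) p e u y ^ 2 ≤ C * ∫ x, ‖u x‖ ^ 2 ∂P.μ := by
  obtain ⟨C, hC, hCb⟩ := det_bounds P p hrr h.sub
  refine ⟨C, hC, fun u hu => ?_⟩
  have hFc : Continuous fun x => ‖u x‖ ^ 2 := hu.continuous.norm.pow 2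
  have hch : ContinuousOn (fun y => ‖lu (𝓡∂ n) p u y‖ ^ 2) (HB z r') :=
    (h.lu_sm hu).continuousOn.norm.pow 2
  have hcc : ContinuousOn (fun y => cu (n := n) p e u y ^ 2) (HB z r') :=
    (h.cu_sm hu).continuousOn.pow 2
  have i1 := int_HB hrr hch
  have i2 := int_HB hrr ((det_cont P p h.sub).mul hch)
  have h1 : ∫ y in HB z r, ‖lu (𝓡∂ n) p u y‖ ^ 2 ≤
      C * ∫ y in HB z r, √((P.loc p).g y).det * ‖lu (𝓡∂ n) p u y‖ ^ 2 := by
    rw [← integral_const_mul]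
    refine setIntegral_mono_on i1 (i2.const_mul C) (HB_meas z r) fun y hy => ?_
    have h2 := (hCb y (HB_sub_KB hy)).1
    have h3 := mul_le_mul_of_nonneg_right h2 (sq_nonneg ‖lu (𝓡∂ n) p u y‖)
    rw [one_mul] at h3
    rw [← mul_assoc]
    exact h3
  have h5 : ∫ y in HB z r, √((P.loc p).g y).det * ‖lu (𝓡∂ n) p u y‖ ^ 2 =
      ∫ x in (xc n p).symm '' HB z r, ‖u x‖ ^ 2 ∂P.μ := (int_chart P p hrr h.sub hFc).symm
  have h6 : ∫ y in HB z r, ‖lu (𝓡∂ n) p u y‖ ^ 2 ≤ C * ∫ x, ‖u x‖ ^ 2 ∂P.μ := by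
    refine h1.trans (mul_le_mul_of_nonneg_left ?_ hC.le)
    rw [h5]
    exact setIntegral_le_integral (int_M P hFc) (Eventually.of_forall fun x => sq_nonneg _)
  refine ⟨h6, le_trans ?_ h6⟩
  exact setIntegral_mono_on (int_HB hrr hcc) i1 (HB_meas z r) fun y hy =>
    rb_sq_le (h.unit y (KB_sub' hrr (HB_sub_KB hy))) _

/-- `H¹` norms: from the chart to `M`. -/
theorem chart_lowL (P : One n N M) {p : M} {e : M → Fib N} {z : E n} {r r' : ℝ} (hrr : r < r')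
    (h : Se p e z r') : ∃ C > 0, ∀ u : M → Fib N, SmS n u →
      ∫ y in HB z r, q1 (cu (n := n) p e u) y ≤ C * ((∫ x, ‖u x‖ ^ 2 ∂P.μ) + (P.E u u).re) := by
  obtain ⟨C, hC, hCb⟩ := chart_L2L P hrr h
  have hKs : KB z r ⊆ tg n p := (KB_sub' hrr).trans h.sub
  obtain ⟨hrel, hOk, -, -⟩ := TM.fLoc n N M
  obtain ⟨b, hb, hpt⟩ := cRungeB_pt (hrel p) (hOk P p) (fun _ => rfl) (KB_compact (z := z) (r := r)) hKs
  obtain ⟨B, hB, hBb⟩ := bound_pd hrr h.sm
  set b' : ℝ := (2 + 2 * n * B ^ 2) * b with hb'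
  have hb'0 : 0 < b' := by positivity
  refine ⟨b' * (C + 1), by positivity, fun u hu => ?_⟩
  have hchs : ContDiffOn ℝ ∞ (cu (n := n) p e u) (HB z r') := h.cu_sm hu
  have hlus : ContDiffOn ℝ ∞ (lu (𝓡∂ n) p u) (HB z r') := h.lu_sm hu
  have hen := (TM.fEn n N M P p (HB z r) (HB_rel z r) (HB_sub_KB.trans hKs)).2 _ hu
  have iq := int_HB hrr (q1_cont hchs)
  have i1 : IntegrableOn (fun y => ‖lu (𝓡∂ n) p u y‖ ^ 2) (HB z r) :=
    int_HB hrr (hlus.continuousOn.norm.pow 2)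
  have ie : IntegrableOn (fun y => (ed (P.loc p) (lu (𝓡∂ n) p u) (lu (𝓡∂ n) p u) y).re) (HB z r) :=
    hen.2.re
  have h1 : ∫ y in HB z r, q1 (cu (n := n) p e u) y ≤
      ∫ y in HB z r, b' * (‖lu (𝓡∂ n) p u y‖ ^ 2 +
        (ed (P.loc p) (lu (𝓡∂ n) p u) (lu (𝓡∂ n) p u) y).re) := by
    refine setIntegral_mono_on iq ((i1.add ie).const_mul b') (HB_meas z r) fun y hy => ?_
    have hyK := HB_sub_KB hy
    have hy' := KB_sub' hrr hyK
    have h2 := hpt y hyK (lu (𝓡∂ n) p u)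
    have h3 := q1_rb_le (HB_rel z r') h.sm hlus hy' (h.unit y hy') (hBb y hyK)
    calc _ ≤ (2 + 2 * n * B ^ 2) * (‖lu (𝓡∂ n) p u y‖ ^ 2 +
          ∑ j, ‖pd j (lu (𝓡∂ n) p u) y‖ ^ 2) := h3
      _ ≤ (2 + 2 * n * B ^ 2) * (b * (‖lu (𝓡∂ n) p u y‖ ^ 2 +
        (ed (P.loc p) (lu (𝓡∂ n) p u) (lu (𝓡∂ n) p u) y).re)) :=
          mul_le_mul_of_nonneg_left h2 (by positivity)
      _ = _ := by rw [hb']; ring
  have h5 : ∫ y in HB z r, b' * (‖lu (𝓡∂ n) p u y‖ ^ 2 +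
      (ed (P.loc p) (lu (𝓡∂ n) p u) (lu (𝓡∂ n) p u) y).re) =
      b' * ((∫ y in HB z r, ‖lu (𝓡∂ n) p u y‖ ^ 2) + (En (P.loc p) (HB z r)
        (lu (𝓡∂ n) p u) (lu (𝓡∂ n) p u)).re) := by
    rw [integral_const_mul, integral_add i1 ie]
    congr 2
    exact integral_re (𝕜 := ℂ) hen.2
  rw [h5] at h1
  have h6 := (hCb u hu).1
  have h7 := hen.1
  have h8 : 0 ≤ ∫ x, ‖u x‖ ^ 2 ∂P.μ := integral_nonneg fun _ => sq_nonneg _
  have h9 : 0 ≤ (P.E u u).re := (TM.fForm n N M P).2.2.2.1 _ hu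
  calc _ ≤ b' * ((∫ y in HB z r, ‖lu (𝓡∂ n) p u y‖ ^ 2) + (En (P.loc p) (HB z r)
        (lu (𝓡∂ n) p u) (lu (𝓡∂ n) p u)).re) := h1
    _ ≤ b' * (C * (∫ x, ‖u x‖ ^ 2 ∂P.μ) + (P.E u u).re) :=
        mul_le_mul_of_nonneg_left (add_le_add h6 h7) hb'0.le
    _ ≤ b' * ((C + 1) * ((∫ x, ‖u x‖ ^ 2 ∂P.μ) + (P.E u u).re)) := by
        refine mul_le_mul_of_nonneg_left ?_ hb'0.le
        nlinarith
    _ = _ := by ring

/-- `H¹` norms: from `M` to the chart, for multiples of `e` supported in the chart. -/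
theorem chart_upL (P : One n N M) {p : M} {e : M → Fib N} {z : E n} {r r' : ℝ} (hrr : r < r')
    (h : Se p e z r') : ∃ C > 0, ∀ T : M → Fib N, SmS n T →
      tsupport T ⊆ (xc n p).symm '' HB z r →
      (∀ y ∈ HB z r, lu (𝓡∂ n) p T y = cu (n := n) p e T y • ec (n := n) p e y) →
      (∫ x, ‖T x‖ ^ 2 ∂P.μ) + (P.E T T).re ≤ C * ∫ y in HB z r, q1 (cu (n := n) p e T) y := by
  obtain ⟨C, hC, hCb⟩ := det_bounds P p hrr h.sub
  have hKs : KB z r ⊆ tg n p := (KB_sub' hrr).trans h.sub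
  obtain ⟨hrel, hOk, -, -⟩ := TM.fLoc n N M
  have hgs := (hrel p).gg_smooth (hOk P p).g_smooth (hOk P p).g_pos
  obtain ⟨C₀, hC₀, hed⟩ := CRungeC_ed_bound (hOk P p) hgs (fun _ _ => rfl)
    (KB_compact (z := z) (r := r)) hKs
  obtain ⟨B, hB, hBb⟩ := bound_pd hrr h.sm
  set b' : ℝ := 2 + 2 * B ^ 2 with hb'
  have hb'0 : 0 < b' := by positivity
  refine ⟨C + C₀ * b', by positivity, fun T hT hTt hTe => ?_⟩
  have hFc : Continuous fun x => ‖T x‖ ^ 2 := hT.continuous.norm.pow 2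
  have hchs : ContDiffOn ℝ ∞ (cu (n := n) p e T) (HB z r') := h.cu_sm hT
  have iq := int_HB hrr (q1_cont hchs)
  have hrs : HB z r ⊆ HB z r' := HB_sub_KB.trans (KB_sub' hrr)
  have hnorm : ∀ y ∈ HB z r, ‖lu (𝓡∂ n) p T y‖ ^ 2 = cu (n := n) p e T y ^ 2 := by
    intro y hy
    rw [hTe y hy, norm_smul, h.unit y (hrs hy), mul_one, Real.norm_eq_abs, sq_abs]
  have hch : ContinuousOn (fun y => ‖lu (𝓡∂ n) p T y‖ ^ 2) (HB z r') :=
    (h.lu_sm hT).continuousOn.norm.pow 2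
  -- `L²`
  have e1 : ∫ x, ‖T x‖ ^ 2 ∂P.μ = ∫ x in (xc n p).symm '' HB z r, ‖T x‖ ^ 2 ∂P.μ := by
    symm
    refine setIntegral_eq_integral_of_forall_compl_eq_zero fun x hx => ?_
    rw [image_eq_zero_of_notMem_tsupport fun h => hx (hTt h)]
    simp
  have e2 : ∫ x, ‖T x‖ ^ 2 ∂P.μ ≤ C * ∫ y in HB z r, q1 (cu (n := n) p e T) y := by
    rw [e1, int_chart P p hrr h.sub hFc, ← integral_const_mul]
    refine setIntegral_mono_on (int_HB hrr ((det_cont P p h.sub).mul hch)) (iq.const_mul C)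
      (HB_meas z r) fun y hy => ?_
    have h2 := (hCb y (HB_sub_KB hy)).2
    have h3 : ‖lu (𝓡∂ n) p T y‖ ^ 2 ≤ q1 (cu (n := n) p e T) y := by
      rw [hnorm y hy]
      exact le_add_of_nonneg_right (Finset.sum_nonneg fun _ _ => sq_nonneg _)
    exact mul_le_mul h2 h3 (sq_nonneg _) hC.le
  -- energy
  have e3 := (TM.fEn n N M P p (HB z r) (HB_rel z r) (HB_sub_KB.trans hKs)).1 _ _ hT hT (Or.inl hTt)
  have hen := (TM.fEn n N M P p (HB z r) (HB_rel z r) (HB_sub_KB.trans hKs)).2 _ hT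
  have e4 : (P.E T T).re ≤ C₀ * (b' * ∫ y in HB z r, q1 (cu (n := n) p e T) y) := by
    rw [e3]
    have h1 : (En (P.loc p) (HB z r) (lu (𝓡∂ n) p T) (lu (𝓡∂ n) p T)).re =
        ∫ y in HB z r, (ed (P.loc p) (lu (𝓡∂ n) p T) (lu (𝓡∂ n) p T) y).re :=
      (integral_re (𝕜 := ℂ) hen.2).symm
    rw [h1, ← integral_const_mul, ← integral_const_mul]
    refine setIntegral_mono_on hen.2.re ((iq.const_mul b').const_mul C₀) (HB_meas z r) fun y hy => ?_
    have hyr := hrs hy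
    have h3 : ∀ j, pd j (lu (𝓡∂ n) p T) y = cu (n := n) p e T y • pd j (ec (n := n) p e) y +
        pd j (cu (n := n) p e T) y • ec (n := n) p e y := by
      intro j
      rw [(HB_rel z r).pd_congr hTe hy j]
      exact (HB_rel z r).pd_smul (hchs.mono hrs) (h.sm.mono hrs) hy j
    have h0 := q1_nonneg (cu (n := n) p e T) y
    have hq : 0 ≤ b' * q1 (cu (n := n) p e T) y := by positivity
    have hc0 : cu (n := n) p e T y ^ 2 ≤ q1 (cu (n := n) p e T) y :=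
      le_add_of_nonneg_right (Finset.sum_nonneg fun _ _ => sq_nonneg _)
    have h5 := hed (lu (𝓡∂ n) p T) y (HB_sub_KB hy)
      (√(b' * q1 (cu (n := n) p e T) y)) (Real.sqrt_nonneg _) ?_ ?_
    · rwa [Real.sq_sqrt hq] at h5
    · refine Real.le_sqrt_of_sq_le ?_
      rw [hnorm y hy]
      have : 1 ≤ b' := by
        rw [hb']
        nlinarith [sq_nonneg B]
      nlinarith
    · intro j
      refine Real.le_sqrt_of_sq_le ?_
      rw [h3]
      have hs := Finset.single_le_sum (f := fun k => pd k (cu (n := n) p e T) y ^ 2)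
        (fun _ _ => sq_nonneg _) (Finset.mem_univ j)
      have hs' : pd j (cu (n := n) p e T) y ^ 2 + cu (n := n) p e T y ^ 2 ≤
          q1 (cu (n := n) p e T) y := by
        unfold q1
        linarith
      have n1 : ‖cu (n := n) p e T y • pd j (ec (n := n) p e) y +
          pd j (cu (n := n) p e T) y • ec (n := n) p e y‖ ≤
          |cu (n := n) p e T y| * B + |pd j (cu (n := n) p e T) y| := by
        refine (norm_add_le _ _).trans (add_le_add ?_ ?_)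
        · rw [norm_smul, Real.norm_eq_abs]
          exact mul_le_mul_of_nonneg_left (hBb y (HB_sub_KB hy) j) (abs_nonneg _)
        · rw [norm_smul, Real.norm_eq_abs, h.unit y hyr, mul_one]
      have n2 := pow_le_pow_left₀ (norm_nonneg _) n1 2
      have n3 : (|cu (n := n) p e T y| * B + |pd j (cu (n := n) p e T) y|) ^ 2 ≤
          2 * B ^ 2 * cu (n := n) p e T y ^ 2 + 2 * pd j (cu (n := n) p e T) y ^ 2 := by
        rw [← sq_abs (cu (n := n) p e T y), ← sq_abs (pd j (cu (n := n) p e T) y)]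
        nlinarith [sq_nonneg (|cu (n := n) p e T y| * B - |pd j (cu (n := n) p e T) y|)]
      have n4 : 0 ≤ 2 * cu (n := n) p e T y ^ 2 := by positivity
      have n5 : 0 ≤ 2 * B ^ 2 * pd j (cu (n := n) p e T) y ^ 2 := by positivity
      calc _ ≤ _ := n2.trans n3
        _ ≤ b' * (pd j (cu (n := n) p e T) y ^ 2 + cu (n := n) p e T y ^ 2) := by
            rw [hb']
            nlinarith
        _ ≤ _ := mul_le_mul_of_nonneg_left hs' hb'0.le
  calc _ ≤ C * (∫ y in HB z r, q1 (cu (n := n) p e T) y) +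
        C₀ * (b' * ∫ y in HB z r, q1 (cu (n := n) p e T) y) := add_le_add e2 e4
    _ = _ := by ring

/-! ### Energies -/

theorem smS_sub {u T : M → Fib N} (hu : SmS n u) (hT : SmS n T) : SmS n (u - T) := hu.sub hT

theorem smS_neg' {T : M → Fib N} (hT : SmS n T) : SmS n ((-1 : ℂ) • T) := by
  have e : (-1 : ℂ) • T = -T := by
    funext x
    simp
  rw [e]
  exact hT.neg

theorem sub_eq' (u T : M → Fib N) : u - T = u + (-1 : ℂ) • T := by
  funext x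
  simp [sub_eq_add_neg]

variable {P : One n N M} {T u : M → Fib N}

/-- `E(D,D) = - E(D,T)` for `D = u - T`. -/
theorem eDD (hT : SmS n T) (h : P.Harm T u) :
    P.E (u - T) (u - T) = -P.E (u - T) T := by
  obtain ⟨f1, f2, f3, f4, f5⟩ := TM.fForm n N M P
  have sA : SmS n u := h.smooth
  have sD : SmS n (u - T) := smS_sub sA hT
  have h0 : P.E u (u - T) = 0 := by
    refine h.weak _ sD fun x hx => ?_
    show u x - T x = 0
    rw [h.boundary x hx, sub_self]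
  have h1 : P.E (u - T) u = 0 := by
    rw [f3 _ _ sA sD, h0, map_zero]
  have h2 : P.E (u - T) (u - T) = P.E (u - T) u + P.E (u - T) ((-1 : ℂ) • T) := by
    conv_lhs => rw [show P.E (u - T) (u - T) = P.E (u - T) (u + (-1 : ℂ) • T) by
      rw [← sub_eq']]
    exact f1 _ _ _ sD sA (smS_neg' hT)
  rw [h2, h1, f2 _ _ _ sD hT]
  ring

/-- `E(T,T) = E(u,u) + E(D,D)`. -/
theorem pythL (hT : SmS n T) (h : P.Harm T u) :
    (P.E T T).re = (P.E u u).re + (P.E (u - T) (u - T)).re := by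
  obtain ⟨f1, f2, f3, f4, f5⟩ := TM.fForm n N M P
  have sA : SmS n u := h.smooth
  have sD : SmS n (u - T) := smS_sub sA hT
  have h0 : P.E u (u - T) = 0 := by
    refine h.weak _ sD fun x hx => ?_
    show u x - T x = 0
    rw [h.boundary x hx, sub_self]
  have e1 : P.E u u - P.E u T = 0 := by
    have h2 : P.E u (u - T) = P.E u u + P.E u ((-1 : ℂ) • T) := by
      rw [sub_eq']
      exact f1 _ _ _ sA sA (smS_neg' hT)
    rw [h0, f2 _ _ _ sA hT] at h2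
    rw [h2]
    ring
  have e2 := eDD hT h
  have e3 : P.E T (u - T) = P.E T u - P.E T T := by
    have h2 : P.E T (u - T) = P.E T u + P.E T ((-1 : ℂ) • T) := by
      rw [sub_eq']
      exact f1 _ _ _ hT sA (smS_neg' hT)
    rw [h2, f2 _ _ _ hT hT]
    ring
  have e4 : (P.E (u - T) T).re = (P.E T (u - T)).re := by
    rw [f3 _ _ hT sD, Complex.conj_re]
  have e5 : (P.E T u).re = (P.E u T).re := by
    rw [f3 _ _ sA hT, Complex.conj_re]
  rw [e2, Complex.neg_re, e4, e3, Complex.sub_re, e5]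
  have e6 := congrArg Complex.re e1
  rw [Complex.sub_re, Complex.zero_re] at e6
  linarith

theorem E_nonnegL (P : One n N M) {u : M → Fib N} (hu : SmS n u) : 0 ≤ (P.E u u).re :=
  (TM.fForm n N M P).2.2.2.1 _ hu

/-- The norm of the solution. -/
theorem sol_boundL (P : One n N M) (hb : ((𝓡∂ n).boundary M).Nonempty) :
    ∃ C > 0, ∀ T u : M → Fib N, SmS n T → P.Harm T u →
      (∫ x, ‖u x‖ ^ 2 ∂P.μ) + (P.E u u).re ≤ C * ((∫ x, ‖T x‖ ^ 2 ∂P.μ) + (P.E T T).re) := by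
  obtain ⟨C, hC, hCb⟩ := TM.fPoinc n N M P hb
  refine ⟨2 * C + 2, by positivity, fun T u hT h => ?_⟩
  have sA : SmS n u := h.smooth
  have sD : SmS n (u - T) := smS_sub sA hT
  have h1 : ∫ x, ‖u x - T x‖ ^ 2 ∂P.μ ≤ C * (P.E (u - T) (u - T)).re := hCb (u - T) sD fun x hx => by
    show u x - T x = 0
    rw [h.boundary x hx, sub_self]
  have h2 := pythL hT h
  have h3 := E_nonnegL P sA
  have h4 := E_nonnegL P sD
  have i1 : Integrable (fun x => ‖u x - T x‖ ^ 2) P.μ :=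
    int_M P ((sA.continuous.sub hT.continuous).norm.pow 2)
  have i2 : Integrable (fun x => ‖T x‖ ^ 2) P.μ := int_M P (hT.continuous.norm.pow 2)
  have i3 : Integrable (fun x => ‖u x‖ ^ 2) P.μ := int_M P (sA.continuous.norm.pow 2)
  have h5 : ∫ x, ‖u x‖ ^ 2 ∂P.μ ≤ 2 * (∫ x, ‖u x - T x‖ ^ 2 ∂P.μ) + 2 * ∫ x, ‖T x‖ ^ 2 ∂P.μ := by
    rw [← integral_const_mul, ← integral_const_mul, ← integral_add (i1.const_mul 2) (i2.const_mul 2)]
    refine integral_mono i3 ((i1.const_mul 2).add (i2.const_mul 2)) fun x => ?_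
    show ‖u x‖ ^ 2 ≤ 2 * ‖u x - T x‖ ^ 2 + 2 * ‖T x‖ ^ 2
    have h7 : ‖u x‖ ≤ ‖u x - T x‖ + ‖T x‖ := by
      have := norm_add_le (u x - T x) (T x)
      rwa [sub_add_cancel] at this
    have h8 := pow_le_pow_left₀ (norm_nonneg _) h7 2
    nlinarith [sq_nonneg (‖u x - T x‖ - ‖T x‖)]
  have h6 : 0 ≤ ∫ x, ‖T x‖ ^ 2 ∂P.μ := integral_nonneg fun _ => sq_nonneg _
  nlinarith

end

end Vale.Agent.P088.R2.H338
end
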