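import Vale.Agent.P088.R2.H338.BC
import Vale.Agent.P088.R2.H509.Est2

/-!
# P088, Theorem S, local boundary step: the distance of the solution to the test function
-/

set_option linter.all false

open Bundle Manifold MeasureTheory Set Filter Topology Metric
open scoped ContDiff Matrix

noncomputable section

namespace Vale.Agent.P088.R2.H338

open Vale.Agent.P088 Vale.Agent.P088.EYM Vale.Agent.P088.EYM.O Vale.Agent.P088.R2.H509

universe u

section

variable {n N : ℕ} [NeZero n] {L : LD n N} {D : Set (E n)}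

theorem flux_congr' (hD : RelOpen D) {F G : E n → Fib N} (h : EqOn F G D) {y : E n} (hy : y ∈ D)
    (j : Fin n) : flux L j F y = flux L j G y := by
  unfold flux
  exact Finset.sum_congr rfl fun k _ => by rw [nab_congr' hD h hy k]

theorem Lop_congr' (hD : RelOpen D) {F G : E n → Fib N} (h : EqOn F G D) {y : E n} (hy : y ∈ D) :
    Lop L F y = Lop L G y := by
  have h1 : ∀ F, Lop L F y = ∑ j, nab L j (flux L j F) y := fun _ => rfl
  rw [h1, h1]
  exact Finset.sum_congr rfl fun j _ => nab_congr' hD (fun x hx => flux_congr' hD h hx j) hy j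

end

section

variable {n N : ℕ} [NeZero n] {M : Type u} [TopologicalSpace M]
  [ChartedSpace (EuclideanHalfSpace n) M] [IsManifold (𝓡∂ n) ∞ M] [T2Space M] [CompactSpace M]
  [ConnectedSpace M] [MeasurableSpace M] [BorelSpace M] {P Q : One n N M} {Γ W : Set M} {c : M → ℝ}
  {e : M → Fib N} {p : M} {X : E n → E n} {om : E n → ℝ} {z : E n} {r r' R : ℝ}

theorem SuL.se (h : SuL P Q Γ W c e p X om z r r' R) : Se p e z r' :=
  ⟨h.sub, h.peP.sm, h.peP.unit⟩

/-- The test function and the section on `M`. -/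
structure TTL (e : M → Fib N) (p : M) (X : E n → E n) (om : E n → ℝ) (z : E n) (r R : ℝ)
    (f : E n → ℝ) (T : M → Fib N) : Prop where
  sm : ContDiff ℝ ∞ f
  cs : HasCompactSupport f
  ts : tsupport f ⊆ ball 0 R
  sT : SmS n T
  cT : ∀ y ∈ HB z r, lu (𝓡∂ n) p T y = (f (X y) / om (X y)) • ec (n := n) p e y
  st : tsupport T ⊆ (xc n p).symm '' (KB z r ∩ X ⁻¹' tsupport f)

theorem TTL.f0 {f : E n → ℝ} {T : M → Fib N} (ht : TTL e p X om z r R f T) {y : E n}
    (hy : y ∉ ball (0 : E n) R) : f y = 0 :=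
  image_eq_zero_of_notMem_tsupport fun h => hy (ht.ts h)

theorem SuL.tsm (h : SuL P Q Γ W c e p X om z r r' R) {f : E n → ℝ} (hf : ContDiff ℝ ∞ f) :
    ContDiffOn ℝ ∞ (fun y => f (X y) / om (X y)) (HB z r) :=
  (hf.comp_contDiffOn h.geo.smH).div h.w1s fun x hx => (h.pw x (h.HBr hx)).ne'

theorem SuL.T_ex (h : SuL P Q Γ W c e p X om z r r' R) {f : E n → ℝ} (hf : ContDiff ℝ ∞ f)
    (hfc : HasCompactSupport f) (hft : tsupport f ⊆ ball 0 R) :
    ∃ T : M → Fib N, TTL e p X om z r R f T ∧ IsBdryData (𝓡∂ n) Γ T := by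
  set K' : Set (E n) := KB z r ∩ X ⁻¹' tsupport f with hK'
  have hK'c : IsCompact K' := by
    have h1 : IsClosed (tsupport f) := isClosed_tsupport f
    obtain ⟨U, hU, hUe⟩ := continuousOn_iff_isClosed.1 h.geo.contX (tsupport f) h1
    have e : K' = U ∩ KB z r := by
      rw [← hUe, inter_comm]
    rw [e]
    exact KB_compact.inter_left hU
  have hK'D : K' ⊆ HB z r := fun x hx => h.geo.SR_HB ⟨hx.1, hft hx.2⟩
  have hTv : ContDiffOn ℝ ∞ (fun y => (f (X y) / om (X y)) • ec (n := n) p e y) (HB z r) :=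
    (h.tsm hf).smul (h.peP.sm.mono h.HBr)
  have h0 : ∀ y ∈ HB z r, y ∉ K' → (f (X y) / om (X y)) • ec (n := n) p e y = 0 := by
    intro y hy hyK
    have h1 : f (X y) = 0 := image_eq_zero_of_notMem_tsupport fun h' => hyK ⟨HB_sub_KB hy, h'⟩
    rw [h1, zero_div, zero_smul]
  obtain ⟨u, hu, huD, hu0, hus⟩ := TM.fExt n N M p
    (fun y => (f (X y) / om (X y)) • ec (n := n) p e y) (HB z r) K'
    (HB_rel z r) (h.HBr.trans h.sub) hTv hK'c hK'D h0
  refine ⟨u, ⟨hf, hfc, hft, hu, huD, hus⟩, hu, ?_⟩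
  have hcl : IsClosed ((xc n p).symm '' K') :=
    (hK'c.image_of_continuousOn ((continuousOn_extChartAt_symm p).mono
      ((hK'D.trans h.HBr).trans h.sub))).isClosed
  obtain ⟨hrel, hOk, hbd, -⟩ := TM.fLoc n N M
  have hbdc : IsClosed ((𝓡∂ n).boundary M) := by
    rw [← ModelWithCorners.compl_interior]
    exact (TM.fConn n M).1.isClosed_compl
  have h1 : closure {x ∈ (𝓡∂ n).boundary M | u x ≠ 0} ⊆
      (xc n p).symm '' K' ∩ (𝓡∂ n).boundary M := by
    refine closure_minimal ?_ (hcl.inter hbdc)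
    rintro x ⟨hx, hx'⟩
    exact ⟨by_contra fun h => hx' (hu0 x h), hx⟩
  refine h1.trans ?_
  rintro x ⟨⟨y, hy, rfl⟩, hx⟩
  have hy' := h.HBr (hK'D hy)
  have hyt := h.sub hy'
  refine h.Γs y hy' ?_
  have h2 := (hbd p _ ((xc n p).map_target hyt)).1 hx
  rwa [(xc n p).right_inv hyt] at h2

theorem SuL.cuT (h : SuL P Q Γ W c e p X om z r r' R) {f : E n → ℝ} {T : M → Fib N}
    (ht : TTL e p X om z r R f T) {y : E n} (hy : y ∈ HB z r) :
    cu (n := n) p e T y = f (X y) / om (X y) :=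
  rb_smul_e (h.peP.unit y (h.HBr hy)) (ht.cT y hy)

/-- The energy of the difference. -/
theorem SuL.e_eq (h : SuL P Q Γ W c e p X om z r r' R) {f h₁ h₂ : E n → ℝ}
    {T u : M → Fib N} (ht : TTL e p X om z r R f T) (hs : P.Harm T u)
    (hh₁ : ∀ x ∈ KB z r, h₁ (X x) = 0)
    (hlap : ∀ x, H31.lap f x = h₁ x + h₂ x) (hh₂ : Continuous h₂) :
    (P.E (u - T) (u - T)).re =
      ∫ x in HB z r, |(Jac X x).det| *
        (h₂ (X x) * (om (X x) * cu (n := n) p e (u - T) x)) := by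
  obtain ⟨f1, f2, f3, f4, f5⟩ := TM.fForm n N M P
  have sT : SmS n T := ht.sT
  have sD : SmS n (u - T) := smS_sub hs.smooth sT
  have hDt : HB z r ⊆ tg n p := h.HBr.trans h.sub
  obtain ⟨hrel, hOk, hbd, hlu⟩ := TM.fLoc n N M
  have hok : (P.loc p).Ok (HB z r) := cRungeB_ok_mono h.okP h.HBr
  have sct : ContDiffOn ℝ ∞ (fun y => f (X y) / om (X y)) (HB z r) := h.tsm ht.sm
  have hpe : Pe (P.loc p) (HB z r) (ec (n := n) p e) := h.peP.mono (HB_rel z r) h.HBr
  -- the energy is an integral in the chart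
  have hts : tsupport T ⊆ (xc n p).symm '' HB z r :=
    ht.st.trans (image_mono fun x hx => h.geo.SR_HB ⟨hx.1, ht.ts hx.2⟩)
  have e1 := (TM.fEn n N M P p (HB z r) (HB_rel z r) hDt).1 _ _ sT sD (Or.inl hts)
  have e2 := aGreen n N (P.loc p) z r h.geo.rpos hok (lu (𝓡∂ n) p T)
    (lu (𝓡∂ n) p (u - T))
    (((hlu _ sT p).mono hDt).of_le (WithTop.coe_le_coe.2 (le_top (a := (2 : ℕ∞)))))
    (((hlu _ sD p).mono hDt).of_le (WithTop.coe_le_coe.2 (le_top (a := (1 : ℕ∞)))))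
    ⟨r / 2, by linarith [h.geo.rpos], fun x hx hxb => by
      have h1 : f (X x) = 0 := by
        by_contra h2
        refine hxb (h.geo.far x (HB_sub_KB hx) ?_)
        by_contra h3
        exact h2 (ht.f0 h3)
      rw [ht.cT x hx, h1, zero_div, zero_smul]⟩
    (fun x hx hx0 => by
      have hxt := hDt hx
      have h2 : (xc n p).symm x ∈ (𝓡∂ n).boundary M := by
        rw [hbd p _ ((xc n p).map_target hxt), (xc n p).right_inv hxt]
        exact hx0
      show u ((xc n p).symm x) - T ((xc n p).symm x) = 0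
      rw [hs.boundary _ h2, sub_self])
  rw [← e1] at e2
  -- the operator
  have e3 : ∀ x ∈ HB z r, Ls (P.loc p).g (fun y => f (X y) / om (X y)) x =
      |(Jac X x).det| * (om (X x) * h₂ (X x)) := by
    intro x hx
    rw [h.LP sct hx]
    congr 2
    have h1 : Lx X (fun x => om (X x) * (f (X x) / om (X x))) x = Lx X (fun x => f (X x)) x := by
      refine Lx_congr (fun y hy => ?_) hx
      show om (X y) * (f (X y) / om (X y)) = f (X y)
      have := (h.pw y (h.HBr hy)).ne'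
      field_simp
    rw [h1]
    have h2 : ∀ x ∈ HB z r, Lx X (fun x => f (X x)) x = h₂ (X x) := by
      refine eq_of_OB (h.geo.Lx_sm (ht.sm.comp_contDiffOn h.geo.smH)).continuousOn
        ((h.geo.comp_c hh₂).mono h.HBr) fun x hx => ?_
      rw [h.geo.Lx_comp ht.sm hx, hlap, hh₁ x (OB_sub_KB hx), zero_add]
    exact h2 x hx
  have eL : ∀ x ∈ HB z r, Lop (P.loc p) (lu (𝓡∂ n) p T) x =
      (|(Jac X x).det| * (om (X x) * h₂ (X x))) • ec (n := n) p e x := by
    intro x hx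
    rw [Lop_congr' (HB_rel z r) ht.cT hx, hpe.Lop_smul_e sct hx, e3 x hx]
  -- integrability
  have hLc : ContinuousOn (fun x => (inner ℂ (Lop (P.loc p) (lu (𝓡∂ n) p T) x)
      ((P.loc p).h x (lu (𝓡∂ n) p (u - T) x)) : ℂ)) (HB z r') :=
    ContinuousOn.inner (CHarm_Lop_smooth (HB_rel z r') h.okP (h.lu_sm sT)).continuousOn
      (h.lu_sm sD).continuousOn
  have hLi : IntegrableOn (fun x => (inner ℂ (Lop (P.loc p) (lu (𝓡∂ n) p T) x)
      ((P.loc p).h x (lu (𝓡∂ n) p (u - T) x)) : ℂ)) (HB z r) :=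
    ((hLc.mono h.geo.KB_sub).integrableOn_compact KB_compact).mono_set HB_sub_KB
  have e4 : (∫ x in HB z r, (inner ℂ (Lop (P.loc p) (lu (𝓡∂ n) p T) x)
      ((P.loc p).h x (lu (𝓡∂ n) p (u - T) x)) : ℂ)).re =
      ∫ x in HB z r, |(Jac X x).det| * (h₂ (X x) * (om (X x) * cu (n := n) p e (u - T) x)) := by
    refine Eq.trans (integral_re (𝕜 := ℂ) hLi).symm ?_
    refine setIntegral_congr_fun (HB_meas z r) fun x hx => ?_
    show (inner ℂ (Lop (P.loc p) (lu (𝓡∂ n) p T) x) (lu (𝓡∂ n) p (u - T) x) : ℂ).re = _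
    have h2 : (inner ℂ ((|(Jac X x).det| * (om (X x) * h₂ (X x))) • ec (n := n) p e x)
        (lu (𝓡∂ n) p (u - T) x) : ℂ).re = (|(Jac X x).det| * (om (X x) * h₂ (X x))) *
          cu (n := n) p e (u - T) x := by
      rw [inner_smul_left_eq_smul, Complex.real_smul, Complex.re_ofReal_mul]
      rfl
    rw [eL x hx, h2]
    ring
  rw [eDD sT hs, Complex.neg_re, f3 _ _ sT sD, Complex.conj_re, e2, Complex.neg_re, neg_neg]
  exact e4

/-- The distance of the solution to the test function. -/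
theorem SuL.e_bound (h : SuL P Q Γ W c e p X om z r r' R) :
    ∃ C > 0, ∀ (f h₁ h₂ : E n → ℝ) (T u : M → Fib N), TTL e p X om z r R f T → P.Harm T u →
      (∀ x ∈ KB z r, h₁ (X x) = 0) → (∀ x, H31.lap f x = h₁ x + h₂ x) → Continuous h₂ →
      HasCompactSupport h₂ →
      ∫ x in HB z r, |(Jac X x).det| * (om (X x) * cu (n := n) p e (u - T) x) ^ 2 ≤
        C * ∫ x, h₂ x ^ 2 := by
  have hΓn : ((𝓡∂ n).boundary M).Nonempty := by
    obtain ⟨O, hO, rfl⟩ := h.hy.bd
    exact ⟨_, (h.Γs z ⟨mem_ball_self (h.geo.rpos.trans h.geo.rr), h.geo.z0.ge⟩ h.geo.z0).2⟩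
  obtain ⟨C3, hC3, hp⟩ := TM.fPoinc n N M P hΓn
  obtain ⟨C2, hC2, hl2⟩ := chart_L2L P h.geo.rr h.se
  obtain ⟨C1, hC1, hb⟩ := bound_pos (KB_compact (z := z) (r := r))
    ((h.geo.det_c.mul (h.smw.continuousOn.pow 2)).mono h.geo.KB_sub)
  set K := C1 * (C2 * C3) with hK
  have hKp : 0 < K := by positivity
  refine ⟨K * K, by positivity, fun f h₁ h₂ T u ht hs hh₁ hlap hh₂ hc₂ => ?_⟩
  have sD : SmS n (u - T) := smS_sub hs.smooth ht.sT
  have hDc : ContinuousOn (cu (n := n) p e (u - T)) (HB z r') := (h.cu_sm sD).continuousOn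
  have hwc := h.smw.continuousOn
  have hdc := h.geo.det_c
  have hE := h.e_eq ht hs hh₁ hlap hh₂
  set En' := (P.E (u - T) (u - T)).re with hEn
  -- the weighted norm of `D`
  have i1 : IntegrableOn (fun x => |(Jac X x).det| *
      (om (X x) * cu (n := n) p e (u - T) x) ^ 2) (HB z r) :=
    int_HB h.geo.rr (hdc.mul ((hwc.mul hDc).pow 2))
  have i2 : IntegrableOn (fun x => cu (n := n) p e (u - T) x ^ 2) (HB z r) :=
    int_HB h.geo.rr (hDc.pow 2)
  have b1 : ∫ x in HB z r, |(Jac X x).det| * (om (X x) * cu (n := n) p e (u - T) x) ^ 2 ≤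
      K * En' := by
    have h1 : ∫ x in HB z r, |(Jac X x).det| * (om (X x) * cu (n := n) p e (u - T) x) ^ 2 ≤
        C1 * ∫ x in HB z r, cu (n := n) p e (u - T) x ^ 2 := by
      rw [← integral_const_mul]
      refine setIntegral_mono_on i1 (i2.const_mul C1) (HB_meas z r) fun x hx => ?_
      have h2 := (le_abs_self _).trans (hb x (HB_sub_KB hx))
      have h3 := mul_le_mul_of_nonneg_right h2 (sq_nonneg (cu (n := n) p e (u - T) x))
      calc _ = |(Jac X x).det| * (om (X x)) ^ 2 * cu (n := n) p e (u - T) x ^ 2 := by ring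
        _ ≤ _ := h3
    have h4 := (hl2 (u - T) sD).2
    have h5 := hp (u - T) sD fun x hx => by
      show u x - T x = 0
      rw [hs.boundary x hx, sub_self]
    calc _ ≤ C1 * ∫ x in HB z r, cu (n := n) p e (u - T) x ^ 2 := h1
      _ ≤ C1 * (C2 * ∫ x, ‖(u - T) x‖ ^ 2 ∂P.μ) := mul_le_mul_of_nonneg_left h4 hC1.le
      _ ≤ C1 * (C2 * (C3 * En')) :=
        mul_le_mul_of_nonneg_left (mul_le_mul_of_nonneg_left h5 hC2.le) hC1.le
      _ = K * En' := by rw [hK]; ring
  -- the norm of `h₂`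
  have i3 : IntegrableOn (fun x => |(Jac X x).det| * h₂ (X x) ^ 2) (HB z r) :=
    int_HB h.geo.rr (hdc.mul ((h.geo.comp_c hh₂).pow 2))
  have b2 : ∫ x in HB z r, |(Jac X x).det| * h₂ (X x) ^ 2 ≤ ∫ x, h₂ x ^ 2 := by
    rw [← h.geo.cov HB_sub_KB (HB_meas z r) (fun y => h₂ y ^ 2)]
    exact setIntegral_le_integral (sq_int hh₂ hc₂) (Eventually.of_forall fun x => sq_nonneg _)
  have i4 : IntegrableOn (fun x => |(Jac X x).det| *
      (h₂ (X x) * (om (X x) * cu (n := n) p e (u - T) x))) (HB z r) :=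
    int_HB h.geo.rr (hdc.mul ((h.geo.comp_c hh₂).mul (hwc.mul hDc)))
  have b3 : En' ≤ K / 2 * (∫ x in HB z r, |(Jac X x).det| * h₂ (X x) ^ 2) +
      (2 * K)⁻¹ * ∫ x in HB z r, |(Jac X x).det| * (om (X x) * cu (n := n) p e (u - T) x) ^ 2 := by
    rw [hE]
    exact amgm (HB_meas z r) hKp (fun x => abs_nonneg _) i3 i1 i4
  have b4 : (2 * K)⁻¹ * ∫ x in HB z r, |(Jac X x).det| *
      (om (X x) * cu (n := n) p e (u - T) x) ^ 2 ≤ En' / 2 := by
    calc _ ≤ (2 * K)⁻¹ * (K * En') := mul_le_mul_of_nonneg_left b1 (by positivity)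
      _ = En' / 2 := by field_simp
  have b5 : K / 2 * (∫ x in HB z r, |(Jac X x).det| * h₂ (X x) ^ 2) ≤ K / 2 * ∫ x, h₂ x ^ 2 :=
    mul_le_mul_of_nonneg_left b2 (by positivity)
  have b6 : En' ≤ K * ∫ x, h₂ x ^ 2 := by linarith
  calc _ ≤ K * En' := b1
    _ ≤ K * (K * ∫ x, h₂ x ^ 2) := mul_le_mul_of_nonneg_left b6 hKp.le
    _ = _ := by ring

end

end Vale.Agent.P088.R2.H338
end
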