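import Vale.Agent.P088.R2.H509.Ch
import Vale.Agent.P088.R2.H509.GeoEx
import Vale.Agent.P088.R2.H509.CF
import Vale.Agent.P088.R2.H850.Iso

/-!
# P088, Theorem S, boundary step: existence of the setup at a boundary point
-/

set_option linter.all false

open Bundle Manifold MeasureTheory Set Filter Topology Metric
open scoped ContDiff Matrix

noncomputable section

namespace Vale.Agent.P088.R2.H509

open Vale.Agent.P088 Vale.Agent.P088.EYM Vale.Agent.P088.EYM.O

universe u

section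

variable {n : ℕ} [NeZero n]

/-- `Jᵀ J` is invariant under Euclidean motions of the target. -/
theorem jtj_iso (T : E n ≃ₗᵢ[ℝ] E n) (a : E n) {D : Set (E n)} (hD : RelOpen D) {X : E n → E n}
    (hX : ContDiffOn ℝ ∞ X D) {x : E n} (hx : x ∈ D) :
    (Jac (fun x => T (X x - a)) x).transpose * Jac (fun x => T (X x - a)) x =
      (Jac X x).transpose * Jac X x := by
  have hX' : ContDiffOn ℝ ∞ (fun x => T (X x - a)) D :=
    T.toContinuousLinearEquiv.contDiff.comp_contDiffOn (hX.sub contDiffOn_const)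
  have h1 : HasFDerivWithinAt (fun x => T (X x - a))
      ((T.toContinuousLinearEquiv : E n →L[ℝ] E n).comp (fderivWithin ℝ X (Hs n) x)) (Hs n) x :=
    T.toContinuousLinearEquiv.hasFDerivAt.comp_hasFDerivWithinAt x
      ((hD.hasD hx hX (by simp)).sub_const a)
  have h2 : fderivWithin ℝ (fun x => T (X x - a)) (Hs n) x =
      (T.toContinuousLinearEquiv : E n →L[ℝ] E n).comp (fderivWithin ℝ X (Hs n) x) :=
    h1.fderivWithin (uniqueDiffOn_Hs x (hD.subset hx))
  have key : ∀ Y : E n → E n, ContDiffOn ℝ ∞ Y D → ∀ i j,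
      ((Jac Y x).transpose * Jac Y x) i j = inner ℝ (fderivWithin ℝ Y (Hs n) x (ev i))
        (fderivWithin ℝ Y (Hs n) x (ev j)) := by
    intro Y hY i j
    rw [Matrix.mul_apply, PiLp.inner_apply]
    refine Finset.sum_congr rfl fun k _ => ?_
    rw [Matrix.transpose_apply, energy_jac_apply hD hY hx, energy_jac_apply hD hY hx]
    simp [mul_comm]
  ext i j
  rw [key _ hX', key _ hX, h2]
  exact T.inner_map_map _ _

/-- `om` is smooth near `X x`, if `om ∘ X` is and `X` is a local diffeomorphism. -/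
theorem om_smooth {X : E n → E n} {om : E n → ℝ} {x : E n} (hX : ContDiffAt ℝ ∞ X x)
    (hd : (fderiv ℝ X x).det ≠ 0) (ho : ContDiffAt ℝ ∞ (fun x => om (X x)) x) :
    ContDiffAt ℝ 2 om (X x) := by
  obtain ⟨L, hL⟩ := equiv_of_det hd
  have hX1 : HasFDerivAt X (L : E n →L[ℝ] E n) x := by
    rw [hL]
    exact (hX.differentiableAt (by simp)).hasFDerivAt
  have hn : (∞ : WithTop ℕ∞) ≠ 0 := by simp
  have h1 : ContDiffAt ℝ ∞ (hX.localInverse hX1 hn) (X x) := hX.to_localInverse hX1 hn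
  have h2 : ∀ᶠ y in 𝓝 (X x), X (hX.localInverse hX1 hn y) = y :=
    (hX.hasStrictFDerivAt' hX1 hn).eventually_right_inverse
  have h3 : hX.localInverse hX1 hn (X x) = x := hX.localInverse_apply_image hX1 hn
  have h4 : ContDiffAt ℝ ∞ (fun y => om (X (hX.localInverse hX1 hn y))) (X x) := by
    have h5 : ContDiffAt ℝ ∞ (fun x => om (X x)) (hX.localInverse hX1 hn (X x)) := by rwa [h3]
    exact h5.comp (X x) h1
  have h6 : (2 : WithTop ℕ∞) ≤ ∞ := WithTop.coe_le_coe.2 (le_top : (2 : ℕ∞) ≤ ⊤)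
  refine (h4.congr_of_eventuallyEq ?_).of_le h6
  filter_upwards [h2] with y hy
  rw [hy]

end

section

variable {n N : ℕ} [NeZero n] {M : Type u} [TopologicalSpace M]
  [ChartedSpace (EuclideanHalfSpace n) M] [IsManifold (𝓡∂ n) ∞ M] [T2Space M] [CompactSpace M]
  [ConnectedSpace M] [MeasurableSpace M] [BorelSpace M] {P Q : One n N M} {Γ : Set M} {c : M → ℝ}
  {p : M} {D : Set (E n)} {X : E n → E n} {om : E n → ℝ}

omit [T2Space M] [CompactSpace M] [ConnectedSpace M] [BorelSpace M] in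
theorem CF.det (hcf : CF P p D X om) (hOk : (P.loc p).Ok (tg n p)) {x : E n} (hx : x ∈ D) :
    (Jac X x).det ≠ 0 := by
  intro h0
  have h1 := (hOk.g_pos x (hcf.sub hx)).det_pos
  rw [hcf.met x hx, Matrix.det_smul, Matrix.det_mul, h0, mul_zero, mul_zero] at h1
  exact lt_irrefl _ h1

/-- Existence of the setup at a boundary point, with an exterior ball in a given direction. -/
theorem su_ex (hy : Hy P Q Γ c) (hp : p ∈ Γ) (hcf : CF P p D X om) (i : Fin n) :
    ∃ (X' : E n → E n) (om' : E n → ℝ) (r r' R ρ : ℝ), 0 < ρ ∧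
      Su P Q Γ c p X' om' (xc n p p) r r' R ∧
      ball (ρ • (EuclideanSpace.single i (1 : ℝ) : E n)) ρ ⊆ (X' '' KB (xc n p p) r)ᶜ := by
  obtain ⟨hrel, hOk, hbd, -⟩ := TM.fLoc n N M
  obtain ⟨U, hU, hΓ⟩ := hy.bd
  have hps : p ∈ (xc n p).source := mem_extChartAt_source p
  have hpb : p ∈ (𝓡∂ n).boundary M := by
    rw [hΓ] at hp
    exact hp.2
  have hpU : p ∈ U := by
    rw [hΓ] at hp
    exact hp.1
  set z : E n := xc n p p with hz
  have hz0 : z 0 = 0 := (hbd p _ hps).1 hpb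
  have hzD : z ∈ D := hcf.mem
  have hDdet : ∀ x ∈ D, (Jac X x).det ≠ 0 := fun x hx => hcf.det (hOk P p) hx
  -- a small half ball
  obtain ⟨r0, hr0, hr0s⟩ : ∃ r0 > 0, ∀ y ∈ HB z r0, y ∈ D ∧ (xc n p).symm y ∈ U := by
    have h1 : ContinuousWithinAt (xc n p).symm D z :=
      ((continuousOn_extChartAt_symm p) z (hcf.sub hzD)).mono hcf.sub
    have h2 : (xc n p).symm ⁻¹' U ∈ 𝓝[D] z := by
      refine h1.preimage_mem_nhdsWithin ?_
      refine hU.mem_nhds ?_
      rw [hz, (xc n p).left_inv hps]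
      exact hpU
    rw [hcf.rel.nhdsWithin hzD] at h2
    have h3 := Filter.inter_mem (hcf.rel.mem_nhds hzD) h2
    obtain ⟨ρ, hρ, hρs⟩ := Metric.mem_nhdsWithin_iff.1 h3
    exact ⟨ρ, hρ, fun y hy => hρs hy⟩
  have hsub : HB z r0 ⊆ D := fun y hy => (hr0s y hy).1
  obtain ⟨T, r, r', R, ρ, hr', hgeo, hρ, hball⟩ := geo_ex hr0 hz0 (hcf.smX.mono hsub)
    (hDdet z hzD) (EuclideanSpace.single i (1 : ℝ) : E n) (by simp)
  have hHB : HB z r' ⊆ D :=
    (inter_subset_inter_left _ (ball_subset_ball hr')).trans hsub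
  have hHB0 : HB z r' ⊆ HB z r0 := inter_subset_inter_left _ (ball_subset_ball hr')
  have hom : ∀ x, om (T.symm (T (X x - X z)) + X z) = om (X x) := fun x => by
    rw [T.symm_apply_apply, sub_add_cancel]
  refine ⟨fun x => T (X x - X z), fun y => om (T.symm y + X z), r, r', R, ρ, hρ, ?_, hball⟩
  refine ⟨hy, hgeo, hHB.trans hcf.sub, ?_, ?_, ?_, ?_, ?_⟩
  · intro y hyr hy0
    rw [hΓ]
    have hyt : y ∈ tg n p := hcf.sub (hHB hyr)
    refine ⟨(hr0s y (hHB0 hyr)).2, ?_⟩
    rw [hbd p _ ((xc n p).map_target hyt), (xc n p).right_inv hyt]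
    exact hy0
  · simp only [hom]
    exact hcf.smom.mono hHB
  · intro x hx
    simp only [hom]
    exact hcf.pos x (hHB hx)
  · intro x hx hx0
    have hxD := hHB hx
    have hDn : D ∈ 𝓝 x := by
      have h1 := hcf.rel.mem_nhds hxD
      have h2 : Hs n ∈ 𝓝 x := by
        have h3 : {y : E n | 0 < y 0} ∈ 𝓝 x :=
          (isOpen_lt continuous_const (EuclideanSpace.proj (𝕜 := ℝ) (0 : Fin n)).continuous).mem_nhds
            hx0
        exact Filter.mem_of_superset h3 fun y (hy : 0 < y 0) => (le_of_lt hy : 0 ≤ y 0)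
      rwa [nhdsWithin_eq_nhds.2 h2] at h1
    have hXat : ContDiffAt ℝ ∞ X x := hcf.smX.contDiffAt hDn
    have hd : (fderiv ℝ X x).det ≠ 0 := by
      have h1 := hDdet x hxD
      rw [← energy_det hcf.rel hcf.smX hxD] at h1
      have h2 : Hs n ∈ 𝓝 x := Filter.mem_of_superset hDn hcf.rel.subset
      rwa [fderivWithin_of_mem_nhds h2] at h1
    have hsm : ContDiffAt ℝ 2 om (X x) := om_smooth hXat hd (hcf.smom.contDiffAt hDn)
    have e : T.symm (T (X x - X z)) + X z = X x := by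
      rw [T.symm_apply_apply, sub_add_cancel]
    have h3 := H850.lap_iso (f := om) T.symm (X z) (x := T (X x - X z)) (by rw [e]; exact hsm)
    rw [h3, e]
    exact hcf.harm x hxD hx0
  · intro x hx
    simp only [hom]
    rw [hcf.met x (hHB hx), jtj_iso T (X z) hcf.rel hcf.smX (hHB hx)]

end

end Vale.Agent.P088.R2.H509
end
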