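import Vale.Agent.P088.R2.H338.BD
import Vale.Agent.P088.R2.H338.SuEx
import Vale.Agent.P088.R2.H509.StepAbs
import Vale.Agent.P088.R2.H850.BSpec

/-!
# P088, Theorem S: the boundary step, local form
-/

set_option linter.all false

open Bundle Manifold MeasureTheory Set Filter Topology Metric
open scoped ContDiff Matrix

noncomputable section

namespace Vale.Agent.P088.R2.H338

open Vale.Agent.P088 Vale.Agent.P088.EYM Vale.Agent.P088.EYM.O Vale.Agent.P088.R2.H509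

universe u

section

variable {n N : ℕ} [NeZero n] {M : Type u} [TopologicalSpace M]
  [ChartedSpace (EuclideanHalfSpace n) M] [IsManifold (𝓡∂ n) ∞ M] [T2Space M] [CompactSpace M]
  [ConnectedSpace M] [MeasurableSpace M] [BorelSpace M] {P Q : One n N M} {Γ W : Set M} {c : M → ℝ}
  {e : M → Fib N} {p : M} {X : E n → E n} {om : E n → ℝ} {z : E n} {r r' R : ℝ}

theorem SuL.Γn (h : SuL P Q Γ W c e p X om z r r' R) : Γ.Nonempty :=
  ⟨_, h.Γs z ⟨mem_ball_self (h.geo.rpos.trans h.geo.rr), h.geo.z0.ge⟩ h.geo.z0⟩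

theorem SuL.bdn (h : SuL P Q Γ W c e p X om z r r' R) : ((𝓡∂ n).boundary M).Nonempty := by
  obtain ⟨x, hx⟩ := h.Γn
  obtain ⟨O, hO, hΓ⟩ := h.hy.bd
  rw [hΓ] at hx
  exact ⟨_, hx.2⟩

/-- The norm of a solution in the chart, in terms of the test function. -/
theorem SuL.sol_chart (h : SuL P Q Γ W c e p X om z r r' R) (P' : One n N M) :
    ∃ C > 0, ∀ (f : E n → ℝ) (T u : M → Fib N), TTL e p X om z r R f T → P'.Harm T u →
      ∫ y in HB z r, q1 (cu (n := n) p e u) y ≤ C * ∫ y in ball 0 R \ (X '' KB z r)ᶜ, qf f y := by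
  obtain ⟨C1, hC1, h1⟩ := chart_lowL P' h.geo.rr h.se
  obtain ⟨C2, hC2, h2⟩ := sol_boundL P' h.bdn
  obtain ⟨C3, hC3, h3⟩ := chart_upL P' h.geo.rr h.se
  obtain ⟨C4, hC4, h4⟩ := h.geo.qt_bound' h.smw h.pw
  refine ⟨C1 * (C2 * (C3 * C4)), by positivity, fun f T u ht hs => ?_⟩
  have e1 := h1 u hs.smooth
  have e2 := h2 T u ht.sT hs
  have e3 := h3 T ht.sT (ht.st.trans (image_mono fun x hx => h.geo.SR_HB ⟨hx.1, ht.ts hx.2⟩))
    fun y hy => by rw [h.cuT ht hy]; exact ht.cT y hy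
  have e4 := (h4 f (cu (n := n) p e T) ht.sm ht.ts fun y hy => h.cuT ht hy).2
  calc _ ≤ C1 * _ := e1
    _ ≤ C1 * (C2 * _) := mul_le_mul_of_nonneg_left e2 hC1.le
    _ ≤ C1 * (C2 * (C3 * _)) :=
      mul_le_mul_of_nonneg_left (mul_le_mul_of_nonneg_left e3 hC2.le) hC1.le
    _ ≤ C1 * (C2 * (C3 * (C4 * _))) := mul_le_mul_of_nonneg_left (mul_le_mul_of_nonneg_left
      (mul_le_mul_of_nonneg_left e4 hC3.le) hC2.le) hC1.le
    _ = _ := by ring

theorem cu_sub (p : M) (e u T : M → Fib N) (y : E n) :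
    cu (n := n) p e (u - T) y = cu (n := n) p e u y - cu (n := n) p e T y :=
  rb_sub _ (lu (𝓡∂ n) p u) (lu (𝓡∂ n) p T) y

/-- The input of the core. -/
theorem SuL.step (h : SuL P Q Γ W c e p X om z r r' R) :
    H31.Step n R (X '' KB z r)ᶜ (qq c p X om z r) := by
  obtain ⟨⟨hsP, hsQ, -⟩, -⟩ := cData TM.fUniq TM.fForm n N M P Q Γ h.hy.bd h.Γn h.hy.data
  obtain ⟨C1, hC1, h1⟩ := h.e_bound
  obtain ⟨C2, hC2, h2⟩ := h.sol_chart P
  obtain ⟨C3, hC3, h3⟩ := h.sol_chart Q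
  refine step_abs h.geo h.smw h.w2s' h.w2p ⟨C1 + C2 + C3, by positivity, ?_⟩
  intro f h₁ h₂ hf hfc hft hh₂ hc₂ hh0 hlap
  obtain ⟨T, hT, hTb⟩ := h.T_ex hf hfc hft
  obtain ⟨u₁, hu₁⟩ := hsP T hTb
  obtain ⟨u₂, hu₂⟩ := hsQ T hTb
  have hpair : ((u₁, u₂) : (M → Fib N) × (M → Fib N)) ∈ PP P Q Γ := ⟨T, hTb, hu₁, hu₂⟩
  obtain ⟨hW, hLW⟩ := h.W_main hpair
  have bD := h1 f h₁ h₂ T u₁ hT hu₁ hh0 hlap hh₂ hc₂
  have b1 := h2 f T u₁ hT hu₁
  have b2 := h3 f T u₂ hT hu₂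
  have hh2n : 0 ≤ ∫ x, h₂ x ^ 2 := integral_nonneg fun _ => sq_nonneg _
  have hqfn : 0 ≤ ∫ x in ball 0 R \ (X '' KB z r)ᶜ, qf f x :=
    integral_nonneg fun _ => qf_nonneg _ _
  refine ⟨cu (n := n) p e u₁, cu (n := n) p e u₂, h.cu_sm hu₁.smooth, h.cu_sm hu₂.smooth, hW, hLW,
    ?_, ?_, ?_⟩
  · have e1 : ∫ x in HB z r, |(Jac X x).det| * (om (X x) * cu (n := n) p e u₁ x - f (X x)) ^ 2 =
        ∫ x in HB z r, |(Jac X x).det| * (om (X x) * cu (n := n) p e (u₁ - T) x) ^ 2 := by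
      refine setIntegral_congr_fun (HB_meas z r) fun x hx => ?_
      have h3 : f (X x) = om (X x) * cu (n := n) p e T x := by
        rw [h.cuT hT hx]
        have := (h.pw x (h.HBr hx)).ne'
        field_simp
      show |(Jac X x).det| * (om (X x) * cu (n := n) p e u₁ x - f (X x)) ^ 2 =
        |(Jac X x).det| * (om (X x) * cu (n := n) p e (u₁ - T) x) ^ 2
      rw [h3, cu_sub]
      ring
    rw [e1]
    have h4 : 0 ≤ (C2 + C3) * ∫ x, h₂ x ^ 2 := mul_nonneg (by positivity) hh2n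
    linarith
  · have h4 : 0 ≤ (C1 + C3) * ∫ x in ball 0 R \ (X '' KB z r)ᶜ, qf f x :=
      mul_nonneg (by positivity) hqfn
    linarith
  · have h4 : 0 ≤ (C1 + C2) * ∫ x in ball 0 R \ (X '' KB z r)ᶜ, qf f x :=
      mul_nonneg (by positivity) hqfn
    linarith

theorem SuL.q_cont (h : SuL P Q Γ W c e p X om z r r' R) :
    ContinuousOn (qq c p X om z r) (ball 0 R) := by
  refine h.geo.cont_ext0 ?_ fun x hx hx0 => ?_
  · exact (h.geo.Lx_sm h.w2s).continuousOn.div h.w2s.continuousOn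
      fun x hx => (h.w2p x (h.HBr hx)).ne'
  · rw [h.Lw2 x hx hx0, zero_div]

/-- The end of the proof of the boundary step. -/
theorem SuL.fin (h : SuL P Q Γ W c e p X om z r r' R) (hz : z = xc n p p)
    (hq : ∃ δ > 0, ∀ y ∈ ball (0 : E n) δ,
      ext0 X z r (fun x => Lx X (w2 c p X om) x / w2 c p X om x) y = 0) :
    ∀ᶠ x in 𝓝 p, c x = 1 := by
  obtain ⟨δ, hδ, hq⟩ := hq
  have hzH : z ∈ HB z r' := ⟨mem_ball_self (h.geo.rpos.trans h.geo.rr), h.geo.z0.ge⟩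
  -- a small half ball
  obtain ⟨ρ, hρ, hρr, hρδ⟩ : ∃ ρ > 0, ρ ≤ r ∧ ∀ x ∈ HB z ρ, X x ∈ ball (0 : E n) δ := by
    have h1 : ContinuousWithinAt X (HB z r') z := h.geo.sm.continuousOn z hzH
    have h2 : X ⁻¹' ball (0 : E n) δ ∈ 𝓝[HB z r'] z := h1.preimage_mem_nhdsWithin (by
      rw [h.geo.Xz]; exact ball_mem_nhds _ hδ)
    obtain ⟨ρ, hρ, hb⟩ := Metric.mem_nhdsWithin_iff.1 h2
    refine ⟨min ρ r, lt_min hρ h.geo.rpos, min_le_right _ _, fun x hx => hb ⟨?_, ?_⟩⟩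
    · exact ball_subset_ball (min_le_left _ _) hx.1
    · exact h.HBr ⟨ball_subset_ball (min_le_right _ _) hx.1, hx.2⟩
  have hs : HB z ρ ⊆ HB z r := inter_subset_inter_left _ (ball_subset_ball hρr)
  have hs' : HB z ρ ⊆ HB z r' := hs.trans h.HBr
  -- `ω₂` is harmonic there
  have hL2 : ∀ x ∈ HB z ρ, Lx X (w2 c p X om) x = 0 := by
    intro x hx
    have h1 := hq (X x) (hρδ x hx)
    rw [h.geo.ext0_X (HB_sub_KB (hs hx))] at h1
    exact (div_eq_zero_iff.1 h1).resolve_right (h.w2p x (hs' hx)).ne'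
  set F : E n → ℝ := fun x => (c ((xc n p).symm x)) ^ (((n : ℝ) - 2) / 4) - 1 with hF
  have vF : Van2 z r' F := h.Tvan
  have sF : ContDiffOn ℝ ∞ F (HB z r) := vF.sm.mono h.HBr
  have hLs : ∀ x ∈ HB z ρ, Ls (P.loc p).g F x = 0 := by
    intro x hx
    rw [h.LP sF (hs hx)]
    have e : (fun x => om (X x) * F x) = fun x => w2 c p X om x - om (X x) := by
      funext x
      simp only [hF, w2]
      ring
    rw [e, h.geo.Lx_sub h.w2s h.w1s (hs hx), hL2 x hx, h.Lw1 x (hs hx)]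
    ring
  have hpe : Pe (P.loc p) (HB z ρ) (ec (n := n) p e) := h.peP.mono (HB_rel z ρ) hs'
  have sFρ : ContDiffOn ℝ ∞ F (HB z ρ) := sF.mono hs
  have hsol : Sol (P.loc p) (HB z ρ) (fun y => F y • ec (n := n) p e y) := by
    refine ⟨sFρ.smul hpe.sm, fun x hx => ?_⟩
    rw [hpe.Lop_smul_e sFρ hx, hLs x hx, zero_smul]
  have h0 : ∀ x ∈ HB z ρ, x 0 = 0 → F x • ec (n := n) p e x = 0 ∧
      flux (P.loc p) 0 (fun y => F y • ec (n := n) p e y) x = 0 := by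
    intro x hx hx0
    refine ⟨by rw [vF.v0 x (hs' hx) hx0, zero_smul], ?_⟩
    rw [hpe.flux_smul_e sFρ hx 0]
    have h2 : ∑ k, gg (P.loc p).g 0 k x * pd k F x = 0 :=
      Finset.sum_eq_zero fun k _ => by rw [vF.v1 x (hs' hx) hx0 k, mul_zero]
    rw [h2, zero_smul]
  have hfin : ∀ x ∈ HB z ρ, F x • ec (n := n) p e x = 0 :=
    TM.fLinBd n N (P.loc p) z ρ hρ h.geo.z0 hpe.ok _ hsol h0
  have hc1 : ∀ x ∈ HB z ρ, c ((xc n p).symm x) = 1 := by
    intro x hx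
    have h1 : F x = 0 := by
      rcases smul_eq_zero.1 (hfin x hx) with h5 | h5
      · exact h5
      · exfalso
        have h6 := hpe.unit x hx
        rw [h5, norm_zero] at h6
        exact zero_ne_one h6
    have h2 : (c ((xc n p).symm x)) ^ (((n : ℝ) - 2) / 4) = 1 := by
      simp only [hF] at h1
      linarith
    have h3 : ((n : ℝ) - 2) / 4 ≠ 0 := by
      have := h.n2
      positivity
    have h4 := h.cp x (hs' hx)
    have h5 := Real.rpow_left_injOn h3 (show (0 : ℝ) ≤ c ((xc n p).symm x) from h4.le)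
      (show (0 : ℝ) ≤ 1 from zero_le_one) (by simpa using h2)
    exact h5
  have hop : IsOpen ((xc n p).symm '' HB z ρ) :=
    TM.xc_image_open p (HB_rel z ρ) (hs'.trans h.sub)
  have hmem : p ∈ (xc n p).symm '' HB z ρ := by
    refine ⟨z, ⟨mem_ball_self hρ, h.geo.z0.ge⟩, ?_⟩
    rw [hz]
    exact extChartAt_to_inv p
  filter_upwards [hop.mem_nhds hmem] with x hx
  obtain ⟨y, hy, rfl⟩ := hx
  exact hc1 y hy

/-- Existence of the setup at a boundary point, with an exterior ball in a given direction. -/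
theorem HyL.su_ex (hy : HyL P Q Γ W c e) (hp : p ∈ Γ) (hpW : p ∈ W) {D : Set (E n)}
    (hcf : CF P p D X om) (i : Fin n) :
    ∃ (X' : E n → E n) (om' : E n → ℝ) (r r' R ρ : ℝ), 0 < ρ ∧
      SuL P Q Γ W c e p X' om' (xc n p p) r r' R ∧
      ball (ρ • (EuclideanSpace.single i (1 : ℝ) : E n)) ρ ⊆ (X' '' KB (xc n p p) r)ᶜ := by
  obtain ⟨hrel, hOk, hbd, -⟩ := TM.fLoc n N M
  obtain ⟨U, hU, hΓ⟩ := hy.bd
  have hps : p ∈ (xc n p).source := mem_extChartAt_source p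
  have hpb : p ∈ (𝓡∂ n).boundary M := by
    rw [hΓ] at hp
    exact hp.2
  have hpU : p ∈ U := by
    rw [hΓ] at hp
    exact hp.1
  set z : E n := xc n p p with hz
  have hz0 : z 0 = 0 := (hbd p _ hps).1 hpb
  have hzD : z ∈ D := hcf.mem
  have hDdet : ∀ x ∈ D, (Jac X x).det ≠ 0 := fun x hx => hcf.det (hOk P p) hx
  -- a small half ball
  obtain ⟨r0, hr0, hr0s⟩ : ∃ r0 > 0, ∀ y ∈ HB z r0, y ∈ D ∧ (xc n p).symm y ∈ U ∩ W := by
    have h1 : ContinuousWithinAt (xc n p).symm D z :=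
      ((continuousOn_extChartAt_symm p) z (hcf.sub hzD)).mono hcf.sub
    have h2 : (xc n p).symm ⁻¹' (U ∩ W) ∈ 𝓝[D] z := by
      refine h1.preimage_mem_nhdsWithin ?_
      refine (hU.inter hy.op).mem_nhds ?_
      rw [hz, (xc n p).left_inv hps]
      exact ⟨hpU, hpW⟩
    rw [hcf.rel.nhdsWithin hzD] at h2
    have h3 := Filter.inter_mem (hcf.rel.mem_nhds hzD) h2
    obtain ⟨ρ, hρ, hρs⟩ := Metric.mem_nhdsWithin_iff.1 h3
    exact ⟨ρ, hρ, fun y hy => hρs hy⟩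
  have hsub : HB z r0 ⊆ D := fun y hy => (hr0s y hy).1
  obtain ⟨T, r, r', R, ρ, hr', hgeo, hρ, hball⟩ := geo_ex hr0 hz0 (hcf.smX.mono hsub)
    (hDdet z hzD) (EuclideanSpace.single i (1 : ℝ) : E n) (by simp)
  have hHB : HB z r' ⊆ D :=
    (inter_subset_inter_left _ (ball_subset_ball hr')).trans hsub
  have hHB0 : HB z r' ⊆ HB z r0 := inter_subset_inter_left _ (ball_subset_ball hr')
  have hom : ∀ x, om (T.symm (T (X x - X z)) + X z) = om (X x) := fun x => by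
    rw [T.symm_apply_apply, sub_add_cancel]
  refine ⟨fun x => T (X x - X z), fun y => om (T.symm y + X z), r, r', R, ρ, hρ, ?_, hball⟩
  refine ⟨hy, hgeo, hHB.trans hcf.sub, fun y hy => (hr0s y (hHB0 hy)).2.2, ?_, ?_, ?_, ?_, ?_⟩
  · intro y hyr hy0
    rw [hΓ]
    have hyt : y ∈ tg n p := hcf.sub (hHB hyr)
    refine ⟨(hr0s y (hHB0 hyr)).2.1, ?_⟩
    rw [hbd p _ ((xc n p).map_target hyt), (xc n p).right_inv hyt]
    exact hy0
  · simp only [hom]
    exact hcf.smom.mono hHB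
  · intro x hx
    simp only [hom]
    exact hcf.pos x (hHB hx)
  · intro x hx hx0
    have hxD := hHB hx
    have hDn : D ∈ 𝓝 x := by
      have h1 := hcf.rel.mem_nhds hxD
      have h2 : Hs n ∈ 𝓝 x := by
        have h3 : {y : E n | 0 < y 0} ∈ 𝓝 x :=
          (isOpen_lt continuous_const (EuclideanSpace.proj (𝕜 := ℝ) (0 : Fin n)).continuous).mem_nhds
            hx0
        exact Filter.mem_of_superset h3 fun y (hy : 0 < y 0) => (le_of_lt hy : 0 ≤ y 0)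
      rwa [nhdsWithin_eq_nhds.2 h2] at h1
    have hXat : ContDiffAt ℝ ∞ X x := hcf.smX.contDiffAt hDn
    have hd : (fderiv ℝ X x).det ≠ 0 := by
      have h1 := hDdet x hxD
      rw [← energy_det hcf.rel hcf.smX hxD] at h1
      have h2 : Hs n ∈ 𝓝 x := Filter.mem_of_superset hDn hcf.rel.subset
      rwa [fderivWithin_of_mem_nhds h2] at h1
    have hsm : ContDiffAt ℝ 2 om (X x) := om_smooth hXat hd (hcf.smom.contDiffAt hDn)
    have e : T.symm (T (X x - X z)) + X z = X x := by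
      rw [T.symm_apply_apply, sub_add_cancel]
    have h3 := H850.lap_iso (f := om) T.symm (X z) (x := T (X x - X z)) (by rw [e]; exact hsm)
    rw [h3, e]
    exact hcf.harm x hxD hx0
  · intro x hx
    simp only [hom]
    rw [hcf.met x (hHB hx), jtj_iso T (X z) hcf.rel hcf.smX (hHB hx)]

end

/-- The boundary step, local form. -/
theorem bdl (hCore : H31.Core_statement) : H850.BDL_statement.{u} := by
  intro n N _ M _ _ _ _ _ _ _ _ P Q Γ W c e hn hΓ hS hW hcs hcp hconf he he1 hep hAA p D X om hp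
    hpW hcf
  have hy : HyL P Q Γ W c e := ⟨hn, hΓ, hS, hW, hcs, hcp, hconf, he, he1, hep, hAA⟩
  obtain ⟨k, rfl⟩ : ∃ k, n = k + 3 := ⟨n - 3, by omega⟩
  obtain ⟨X', om', r, r', R, ρ, hρ, hsu, hb⟩ := hy.su_ex hp hpW hcf 1
  obtain ⟨δ, hδ, hq⟩ := hCore k R ρ (X' '' KB (xc (k + 3) p p) r)ᶜ (qq c p X' om' (xc (k + 3) p p) r)
    hsu.geo.Rpos hρ hsu.geo.compX.isClosed.isOpen_compl hsu.q_cont
    (fun x hx => ext0_of_not hx.1) (fun x hx => hb hx.1) hsu.step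
  exact hsu.fin rfl ⟨δ, hδ, hq⟩

end Vale.Agent.P088.R2.H338
end
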