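import Vale.Agent.P088.R2.H338.Tr
import Vale.Agent.P088.R2.H31.Spec

/-!
# P088, Theorem S, block GI: conformally flat local data
-/

set_option linter.all false

open Bundle Manifold MeasureTheory Set Filter Topology
open scoped ContDiff Matrix

noncomputable section

namespace Vale.Agent.P088.R2.H338

open Vale.Agent.P088 Vale.Agent.P088.EYM Vale.Agent.P088.EYM.O
open Vale.Agent.P088.R2.H31 (dj lap dj_congr dj_congr_ev lap_congr dj_mul lap_mul)

variable {n N : ℕ} [NeZero n]

/-- Conformally flat local data, with the trivial connection. -/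
def cE (κ : E n → ℝ) : LD n N where
  g := fun x => κ x • (1 : Matrix (Fin n) (Fin n) ℝ)
  B := fun _ _ => 0
  h := fun _ => 1

/-- The weight `√(κⁿ) / κ`. -/
def wt (κ : E n → ℝ) (x : E n) : ℝ := √((κ x) ^ n) / κ x

theorem cE_ok {D : Set (E n)} {κ : E n → ℝ} (hκ : ContDiffOn ℝ ∞ κ D) (hp : ∀ x ∈ D, 0 < κ x) :
    (cE κ : LD n N).Ok D where
  g_smooth := fun i j => by
    show ContDiffOn ℝ ∞ (fun x => (κ x • (1 : Matrix (Fin n) (Fin n) ℝ)) i j) D
    simp only [Matrix.smul_apply, smul_eq_mul]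
    exact hκ.mul contDiffOn_const
  g_pos := fun x hx => Matrix.PosDef.one.smul (hp x hx)
  B_smooth := fun _ => contDiffOn_const
  h_smooth := contDiffOn_const
  h_adj := fun x _ => ContinuousLinearMap.adjoint_id
  h_pos := fun x _ v hv => by
    show 0 < (inner ℂ v ((1 : EndF N) v) : ℂ).re
    have h2 : (inner ℂ v v : ℂ).re = ‖v‖ ^ 2 := inner_self_eq_norm_sq (𝕜 := ℂ) v
    rw [ContinuousLinearMap.one_apply, h2]
    have := norm_pos_iff.2 hv
    positivity
  compat := fun x _ j => by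
    show pd j (fun _ => (1 : EndF N)) x = ContinuousLinearMap.adjoint 0 * 1 + 1 * 0
    rw [pd_const, map_zero, zero_mul, mul_zero, add_zero]

theorem det_smul_one (c : ℝ) : (c • (1 : Matrix (Fin n) (Fin n) ℝ)).det = c ^ n := by
  rw [Matrix.det_smul, Matrix.det_one, mul_one, Fintype.card_fin]

theorem gg_cE {κ : E n → ℝ} {x : E n} (hp : 0 < κ x) (j k : Fin n) :
    gg (cE κ : LD n N).g j k x = if j = k then wt κ x else 0 := by
  have h1 : (κ x • (1 : Matrix (Fin n) (Fin n) ℝ))⁻¹ = (κ x)⁻¹ • 1 := by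
    refine Matrix.inv_eq_right_inv ?_
    rw [smul_mul_smul_comm, mul_one, mul_inv_cancel₀ hp.ne', one_smul]
  unfold gg wt
  show √((κ x • (1 : Matrix (Fin n) (Fin n) ℝ)).det) * (κ x • (1 : Matrix (Fin n) (Fin n) ℝ))⁻¹ j k = _
  rw [det_smul_one, h1, Matrix.smul_apply, Matrix.one_apply, smul_eq_mul]
  split_ifs <;> ring

theorem nab_cE (κ : E n → ℝ) (j : Fin n) (c : E n → Fib N) (x : E n) :
    nab (cE κ) j c x = pd j c x := by
  unfold nab
  show pd j c x + (0 : EndF N) (c x) = _
  rw [ContinuousLinearMap.zero_apply, add_zero]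

theorem flux_cE {κ : E n → ℝ} {x : E n} (hp : 0 < κ x) (j : Fin n) (c : E n → Fib N) :
    flux (cE κ) j c x = wt κ x • pd j c x := by
  unfold flux
  simp only [gg_cE (N := N) hp, nab_cE, ite_smul, zero_smul, Finset.sum_ite_eq, Finset.mem_univ,
    if_true]

theorem ed_cE {κ : E n → ℝ} {x : E n} (hp : 0 < κ x) (c d : E n → Fib N) :
    ed (cE κ) c d x = ∑ j, (wt κ x : ℂ) * inner ℂ (pd j c x) (pd j d x) := by
  unfold ed
  refine Finset.sum_congr rfl fun j _ => ?_
  have h1 : ∀ w : Fib N, (cE κ : LD n N).h x w = w := fun w => rfl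
  simp only [gg_cE (N := N) hp, nab_cE, h1]
  rw [Finset.sum_eq_single j]
  · rw [if_pos rfl]
  · intro k _ hk
    rw [if_neg (Ne.symm hk), Complex.ofReal_zero, zero_mul]
  · intro h
    exact absurd (Finset.mem_univ _) h

theorem Lop_cE {D : Set (E n)} (hD : RelOpen D) {κ : E n → ℝ} (hp : ∀ x ∈ D, 0 < κ x)
    (c : E n → Fib N) {x : E n} (hx : x ∈ D) :
    Lop (cE κ) c x = ∑ j, pd j (fun y => wt κ y • pd j c y) x := by
  unfold Lop
  refine Finset.sum_congr rfl fun j _ => ?_
  have h1 : (cE κ : LD n N).B j x (flux (cE κ) j c x) = 0 := rfl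
  rw [h1, add_zero]
  exact hD.pd_congr (fun y hy => flux_cE (hp y hy) j c) hx j

/-! ### Translation and passage from `pd` to `fderiv` -/

section

variable {V : Type*} [NormedAddCommGroup V] [NormedSpace ℝ V]

theorem pd_interior (f : E n → V) {x : E n} (hx : 0 < x 0) (j : Fin n) :
    pd j f x = fderiv ℝ f x (ev j) := by
  unfold pd
  rw [fderivWithin_of_mem_nhds (mem_interior_iff_mem_nhds.1 (open_pos_subset hx))]

theorem pd_tr (F : E n → V) (z : E n) {y : E n} (hy : 0 < (y + z) 0) (j : Fin n) :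
    pd j (fun x => F (x - z)) (y + z) = fderiv ℝ F y (ev j) := by
  rw [pd_interior _ hy, fderiv_comp_sub, add_sub_cancel_right]

/-- A translated set in the open half space. -/
def trS (B : Set (E n)) (z : E n) : Set (E n) := {x | x - z ∈ B}

theorem trS_open {B : Set (E n)} (hB : IsOpen B) (z : E n) : IsOpen (trS B z) :=
  hB.preimage (continuous_id.sub continuous_const)

theorem add_mem_trS {B : Set (E n)} {z y : E n} (hy : y ∈ B) : y + z ∈ trS B z := by
  show y + z - z ∈ B
  rwa [add_sub_cancel_right]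

theorem trS_rel {B : Set (E n)} (hB : IsOpen B) {z : E n} (hz : trS B z ⊆ {x | 0 < x 0}) :
    RelOpen (trS B z) :=
  CHarm_relOpen_of_open (trS_open hB z) (hz.trans fun x hx => le_of_lt (show 0 < x 0 from hx))

theorem tr_smooth {B : Set (E n)} {z : E n} {m : WithTop ℕ∞} {F : E n → V}
    (hF : ContDiffOn ℝ m F B) : ContDiffOn ℝ m (fun x => F (x - z)) (trS B z) :=
  hF.comp (contDiff_id.sub contDiff_const).contDiffOn fun x hx => hx

end

/-- The operator in translated coordinates. -/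
theorem Lop_tr {B : Set (E n)} (hB : IsOpen B) {z : E n} (hz : trS B z ⊆ {x | 0 < x 0})
    {κ : E n → ℝ} (hp : ∀ x ∈ B, 0 < κ x) (F : E n → Fib N) {y : E n} (hy : y ∈ B) :
    Lop (cE fun x => κ (x - z)) (fun x => F (x - z)) (y + z) =
      ∑ j, fderiv ℝ (fun y => wt κ y • fderiv ℝ F y (ev j)) y (ev j) := by
  rw [Lop_cE (trS_rel hB hz) (fun x hx => hp _ hx) _ (add_mem_trS hy)]
  refine Finset.sum_congr rfl fun j _ => ?_
  have h1 : EqOn (fun x => wt (fun x => κ (x - z)) x • pd j (fun x => F (x - z)) x)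
      (fun x => (fun y => wt κ y • fderiv ℝ F y (ev j)) (x - z)) (trS B z) := by
    intro x hx
    have h2 := pd_tr F z (y := x - z) (by rw [sub_add_cancel]; exact hz hx) j
    rw [sub_add_cancel] at h2
    simp only [h2]
    rfl
  rw [(trS_rel hB hz).pd_congr h1 (add_mem_trS hy)]
  exact pd_tr (fun y => wt κ y • fderiv ℝ F y (ev j)) z (hz (add_mem_trS hy)) j

/-- The energy density in translated coordinates. -/
theorem ed_tr {B : Set (E n)} {z : E n} (hz : trS B z ⊆ {x | 0 < x 0})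
    {κ : E n → ℝ} (hp : ∀ x ∈ B, 0 < κ x) (F F' : E n → Fib N) {y : E n} (hy : y ∈ B) :
    ed (cE fun x => κ (x - z)) (fun x => F (x - z)) (fun x => F' (x - z)) (y + z) =
      ∑ j, (wt κ y : ℂ) * inner ℂ (fderiv ℝ F y (ev j)) (fderiv ℝ F' y (ev j)) := by
  have h0 := hz (add_mem_trS (z := z) hy)
  have h1 : wt (fun x => κ (x - z)) (y + z) = wt κ y := by
    unfold wt
    simp only [add_sub_cancel_right]
  rw [ed_cE (by simpa only [add_sub_cancel_right] using hp y hy), h1]
  simp only [pd_tr F z h0, pd_tr F' z h0]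

/-! ### The operator for a conformal factor `ω²` -/

theorem divω {ω' b : E n → ℝ} {y : E n} (h1 : ContDiffAt ℝ 2 ω' y) (h2 : ContDiffAt ℝ 2 b y) :
    ∑ j, dj j (fun x => ω' x ^ 2 * dj j b x) y =
      ω' y * (lap (fun x => ω' x * b x) y - b y * lap ω' y) := by
  have e1 : ∀ j, dj j (fun x => ω' x ^ 2 * dj j b x) y =
      2 * ω' y * dj j ω' y * dj j b y + ω' y ^ 2 * dj j (dj j b) y := by
    intro j
    have h3 : DifferentiableAt ℝ (fun x => ω' x ^ 2) y := (H31.c2_diff h1).pow 2
    rw [dj_mul h3 (H31.c2_djd h2 j)]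
    congr 1
    have h4 : dj j (fun x => ω' x ^ 2) y = 2 * ω' y * dj j ω' y := by
      have h5 : (fun x => ω' x ^ 2) = fun x => ω' x * ω' x := by
        funext x
        ring
      rw [h5, dj_mul (H31.c2_diff h1) (H31.c2_diff h1)]
      ring
    rw [h4]
  simp only [e1]
  rw [lap_mul h1 h2, Finset.sum_add_distrib, ← Finset.mul_sum]
  unfold lap
  have h6 : ∑ x, 2 * ω' y * dj x ω' y * dj x b y = 2 * ω' y * ∑ x, dj x ω' y * dj x b y := by
    rw [Finset.mul_sum]
    exact Finset.sum_congr rfl fun x _ => by ring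
  rw [h6]
  ring

end Vale.Agent.P088.R2.H338

end
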