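import Vale.Agent.P088.R2.H338.GA

/-!
# P088, Theorem S, block GI: conformally flat interior coordinates
-/

set_option linter.all false

open Bundle Manifold MeasureTheory Set Filter Topology
open scoped ContDiff Matrix

noncomputable section

namespace Vale.Agent.P088.R2.H338

open Vale.Agent.P088 Vale.Agent.P088.EYM Vale.Agent.P088.EYM.O
open Vale.Agent.P088.R2.H31 (dj lap dj_congr dj_congr_ev lap_congr dj_mul lap_mul)

universe u

/-- Interior coordinates in which `P.g = κ |dy|²`. -/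
structure CIn {n N : ℕ} [NeZero n] {M : Type u} [TopologicalSpace M]
    [ChartedSpace (EuclideanHalfSpace n) M] [IsManifold (𝓡∂ n) ∞ M] [MeasurableSpace M]
    (P : One n N M) (p : M) (D : Set (E n)) (X Y : E n → E n) (κ : E n → ℝ) (B : Set (E n)) :
    Prop where
  opD : IsOpen D
  sub : D ⊆ tg n p
  opB : IsOpen B
  mapsX : MapsTo X D B
  mapsY : MapsTo Y B D
  inv1 : ∀ x ∈ D, Y (X x) = x
  inv2 : ∀ y ∈ B, X (Y y) = y
  smX : ContDiffOn ℝ ∞ X D
  smY : ContDiffOn ℝ ∞ Y B
  smκ : ContDiffOn ℝ ∞ κ B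
  posκ : ∀ y ∈ B, 0 < κ y
  met : ∀ y ∈ B, ∀ v w : E n,
    ∑ i, ∑ j, (P.loc p).g (Y y) i j * (fderiv ℝ Y y v i * fderiv ℝ Y y w j) =
      κ y * inner ℝ v w

section

variable {n N : ℕ} [NeZero n] {M : Type u} [TopologicalSpace M]
  [ChartedSpace (EuclideanHalfSpace n) M] [IsManifold (𝓡∂ n) ∞ M]

/-- The parametrization of the coordinate domain. -/
def thP (n : ℕ) [NeZero n] {M : Type u} [TopologicalSpace M]
    [ChartedSpace (EuclideanHalfSpace n) M] (p : M) (Y : E n → E n) (y : E n) : M :=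
  (xc n p).symm (Y y)

/-- The Jacobian matrix of `Y`. -/
def jm (Y : E n → E n) (y : E n) : Matrix (Fin n) (Fin n) ℝ :=
  Matrix.of fun i j => fderiv ℝ Y y (ev j) i

omit [NeZero n] in
theorem jm_det (Y : E n → E n) (y : E n) : (fderiv ℝ Y y).det = (jm Y y).det := by
  rw [ContinuousLinearMap.det, ← LinearMap.det_toMatrix (EuclideanSpace.basisFun (Fin n) ℝ).toBasis]
  congr 1

variable [MeasurableSpace M] {P : One n N M} {p : M} {D : Set (E n)} {X Y : E n → E n}
  {κ : E n → ℝ} {B : Set (E n)}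

theorem CIn.metM (h : CIn P p D X Y κ B) {y : E n} (hy : y ∈ B) :
    κ y • (1 : Matrix (Fin n) (Fin n) ℝ) = (jm Y y).transpose * (P.loc p).g (Y y) * jm Y y := by
  ext a b
  have h1 := h.met y hy (ev a) (ev b)
  rw [Matrix.smul_apply, Matrix.one_apply, smul_eq_mul]
  have h2 : (inner ℝ (ev a : E n) (ev b) : ℝ) = if a = b then 1 else 0 := by
    rw [EuclideanSpace.inner_single_left]
    simp [Pi.single_apply]
  rw [h2] at h1
  rw [← h1, Matrix.mul_apply]
  simp only [Matrix.mul_apply, Matrix.transpose_apply, jm, Matrix.of_apply, Finset.sum_mul]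
  rw [Finset.sum_comm]
  refine Finset.sum_congr rfl fun j _ => Finset.sum_congr rfl fun i _ => ?_
  ring

theorem CIn.detE (h : CIn P p D X Y κ B) {y : E n} (hy : y ∈ B) :
    |(jm Y y).det| * √((P.loc p).g (Y y)).det = √((κ y) ^ n) := by
  have h1 := congrArg Matrix.det (h.metM hy)
  rw [det_smul_one, Matrix.det_mul, Matrix.det_mul, Matrix.det_transpose] at h1
  rw [h1, mul_right_comm, Real.sqrt_mul (mul_self_nonneg _), Real.sqrt_mul_self_eq_abs]

theorem CIn.diffY (h : CIn P p D X Y κ B) {y : E n} (hy : y ∈ B) :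
    HasFDerivAt Y (fderiv ℝ Y y) y :=
  ((h.smY.contDiffAt (h.opB.mem_nhds hy)).differentiableAt (by simp)).hasFDerivAt

/-- A pull back to the translated set. -/
theorem CIn.pull (h : CIn P p D X Y κ B) (hA : ∀ x X, P.A.form x X = 0) {z : E n}
    (hz : trS B z ⊆ {x | 0 < x 0}) :
    IsPull (cE fun x => κ (x - z)) (P.loc p) (trS B z) D (fun x => Y (x - z))
      (fun x => X x + z) (fun _ => 1) where
  diffeo :=
    { mapsX := fun x hx => h.mapsY hx
      mapsY := fun x hx => add_mem_trS (h.mapsX hx)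
      inv1 := fun x hx => by
        show X (Y (x - z)) + z = x
        rw [h.inv2 _ hx, sub_add_cancel]
      inv2 := fun x hx => by
        show Y (X x + z - z) = x
        rw [add_sub_cancel_right, h.inv1 x hx]
      smX := tr_smooth h.smY
      smY := h.smX.add contDiffOn_const }
  smS := contDiffOn_const
  unit := fun _ _ => isUnit_one
  g_eq := fun x hx => by
    have hx' : x - z ∈ B := hx
    have h1 : Jac (fun x => Y (x - z)) x = jm Y (x - z) := by
      ext i j
      have h3 : 0 < ((x - z) + z) 0 := by rw [sub_add_cancel]; exact hz hx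
      have h2 := pd_tr (fun y => Y y i) z h3 j
      rw [sub_add_cancel] at h2
      unfold Jac jm
      simp only [Matrix.of_apply]
      rw [h2]
      have h4 : HasFDerivAt (fun y => Y y i)
          ((EuclideanSpace.proj (𝕜 := ℝ) i).comp (fderiv ℝ Y (x - z))) (x - z) :=
        (EuclideanSpace.proj (𝕜 := ℝ) i).hasFDerivAt.comp (x - z) (h.diffY hx')
      rw [h4.fderiv]
      rfl
    rw [h1]
    exact h.metM hx'
  B_eq := fun x hx j => by
    have h1 : ∀ k, (P.loc p).B k (Y (x - z)) = 0 := fun k => hA _ _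
    show pd j (fun _ => (1 : EndF N)) x + 0 * 1 = 1 * ∑ k, Jac _ x k j • (P.loc p).B k (Y (x - z))
    simp only [h1, pd_const, smul_zero, Finset.sum_const_zero, mul_zero, zero_mul, add_zero]
  h_eq := fun x hx => by
    show ContinuousLinearMap.adjoint (1 : EndF N) * 1 * 1 = 1
    rw [mul_one, mul_one]
    exact ContinuousLinearMap.adjoint_id

theorem CIn.smU (h : CIn P p D X Y κ B) {u : M → Fib N} (hu : SmS n u) :
    ContDiffOn ℝ ∞ (fun y => u (thP n p Y y)) B := by
  have h1 : ContDiffOn ℝ ∞ (lu (𝓡∂ n) p u) (tg n p) := (TM.fLoc n N M).2.2.2 u hu p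
  exact h1.comp h.smY fun y hy => h.sub (h.mapsY hy)

theorem CIn.smL (h : CIn P p D X Y κ B) {u : M → Fib N} (hu : SmS n u) :
    ContDiffOn ℝ 1 (lu (𝓡∂ n) p u) D :=
  (((TM.fLoc n N M).2.2.2 u hu p).mono h.sub).of_le (by simp)

theorem CIn.relD (h : CIn P p D X Y κ B) : RelOpen D :=
  CHarm_relOpen_of_open h.opD (h.sub.trans ((TM.fLoc n N M).1 p).subset)

theorem CIn.okL (h : CIn P p D X Y κ B) : (P.loc p).Ok D :=
  CHarm_ok_mono ((TM.fLoc n N M).2.1 P p) h.sub

theorem CIn.okE (h : CIn P p D X Y κ B) (z : E n) :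
    (cE (fun x => κ (x - z)) : LD n N).Ok (trS B z) :=
  cE_ok (tr_smooth h.smκ) fun x hx => h.posκ _ hx

/-- Points of the coordinate domain are interior points. -/
theorem CIn.int (h : CIn P p D X Y κ B) {y : E n} (hy : y ∈ B) : 0 < (Y y) 0 := by
  by_contra hc
  push Not at hc
  have hD := h.mapsY hy
  have ht : Tendsto (fun t : ℝ => Y y - t • (ev 0 : E n)) (𝓝[>] 0) (𝓝 (Y y)) := by
    have h1 : Continuous (fun t : ℝ => Y y - t • (ev 0 : E n)) := by fun_prop
    have h2 := h1.tendsto 0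
    simp only [zero_smul, sub_zero] at h2
    exact h2.mono_left nhdsWithin_le_nhds
  obtain ⟨t, h1, h2⟩ := ((ht.eventually (h.opD.mem_nhds hD)).and self_mem_nhdsWithin).exists
  have h3 : 0 < t := h2
  have h4 : 0 ≤ (Y y - t • (ev 0 : E n)) 0 :=
    ((TM.fLoc n N M).1 p).subset (h.sub h1)
  simp only [PiLp.sub_apply, PiLp.smul_apply, ev_apply, if_true, smul_eq_mul, mul_one] at h4
  linarith

theorem CIn.mem_int (h : CIn P p D X Y κ B) {y : E n} (hy : y ∈ B) : thP n p Y y ∈ Mi n M := by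
  have h1 : thP n p Y y ∈ (xc n p).source := (xc n p).map_target (h.sub (h.mapsY hy))
  have h2 := (TM.fLoc n N M).2.2.1 p _ h1
  have h3 : xc n p (thP n p Y y) = Y y := (xc n p).right_inv (h.sub (h.mapsY hy))
  rw [h3] at h2
  have h4 : thP n p Y y ∉ (𝓡∂ n).boundary M := fun h5 => (h.int hy).ne' (h2.1 h5)
  rwa [← ModelWithCorners.compl_interior, mem_compl_iff, not_not] at h4

theorem CIn.inj (h : CIn P p D X Y κ B) : InjOn (thP n p Y) B := by
  intro y hy y' hy' he
  have h1 : Y y = Y y' := (xc n p).symm.injOn (h.sub (h.mapsY hy)) (h.sub (h.mapsY hy')) he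
  rw [← h.inv2 y hy, h1, h.inv2 y' hy']

theorem CIn.contTh (h : CIn P p D X Y κ B) : ContinuousOn (thP n p Y) B :=
  (continuousOn_extChartAt_symm p).comp h.smY.continuousOn fun y hy => h.sub (h.mapsY hy)

/-- The energy density. -/
theorem CIn.pairing (h : CIn P p D X Y κ B) (hA : ∀ x X, P.A.form x X = 0) {z : E n}
    (hz : trS B z ⊆ {x | 0 < x 0}) {u v : M → Fib N} (hu : SmS n u) (hv : SmS n v) {y : E n}
    (hy : y ∈ B) :
    (√((κ y) ^ n) : ℂ) * Vale.Agent.P088.pairing P.g P.A u v (thP n p Y y) =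
      ∑ j, (wt κ y : ℂ) * inner ℂ (fderiv ℝ (fun y => u (thP n p Y y)) y (ev j))
        (fderiv ℝ (fun y => v (thP n p Y y)) y (ev j)) := by
  have h1 := ed_pull (trS_rel h.opB hz) h.relD (h.okE z) h.okL (h.pull hA hz) (h.smL hu)
    (h.smL hv) (add_mem_trS (z := z) hy)
  have h2 := ed_tr (N := N) hz (κ := κ) h.posκ (fun y => u (thP n p Y y))
    (fun y => v (thP n p Y y)) hy
  have h3 : (fun x : E n => (1 : EndF N) (lu (𝓡∂ n) p u (Y (x - z)))) =
    fun x => u (thP n p Y (x - z)) := rfl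
  have h4 : (fun x : E n => (1 : EndF N) (lu (𝓡∂ n) p v (Y (x - z)))) =
    fun x => v (thP n p Y (x - z)) := rfl
  rw [h3, h4, h2] at h1
  have h5 := CEnergy_ed P p hu hv (h.sub (h.mapsY hy))
  rw [h1]
  simp only [add_sub_cancel_right]
  rw [h5]
  have h6 : Jac (fun x => Y (x - z)) (y + z) = jm Y y := by
    ext i j
    have h2 := pd_tr (fun y => Y y i) z (hz (add_mem_trS hy)) j
    unfold Jac jm
    simp only [Matrix.of_apply]
    rw [h2]
    have h4 : HasFDerivAt (fun y => Y y i)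
        ((EuclideanSpace.proj (𝕜 := ℝ) i).comp (fderiv ℝ Y y)) y :=
      (EuclideanSpace.proj (𝕜 := ℝ) i).hasFDerivAt.comp y (h.diffY hy)
    rw [h4.fderiv]
    rfl
  rw [h6, ← mul_assoc, ← h.detE hy]
  push_cast
  rfl

theorem CIn.pairing_re (h : CIn P p D X Y κ B) (hA : ∀ x X, P.A.form x X = 0) {z : E n}
    (hz : trS B z ⊆ {x | 0 < x 0}) {u : M → Fib N} (hu : SmS n u) {y : E n}
    (hy : y ∈ B) :
    √((κ y) ^ n) * (Vale.Agent.P088.pairing P.g P.A u u (thP n p Y y)).re =
      wt κ y * ∑ j, ‖fderiv ℝ (fun y => u (thP n p Y y)) y (ev j)‖ ^ 2 := by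
  have h1 := congrArg Complex.re (h.pairing hA hz hu hu hy)
  rw [Complex.re_ofReal_mul, Complex.re_sum] at h1
  rw [h1, Finset.mul_sum]
  refine Finset.sum_congr rfl fun j _ => ?_
  rw [Complex.re_ofReal_mul]
  congr 1
  exact inner_self_eq_norm_sq (𝕜 := ℂ) _

/-- Solutions in the coordinates. -/
theorem CIn.harm [T2Space M] [CompactSpace M] [BorelSpace M] (h : CIn P p D X Y κ B)
    (hA : ∀ x X, P.A.form x X = 0) {z : E n}
    (hz : trS B z ⊆ {x | 0 < x 0}) {f u : M → Fib N} (hu : P.Harm f u) {y : E n} (hy : y ∈ B) :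
    ∑ j, fderiv ℝ (fun y => wt κ y • fderiv ℝ (fun y => u (thP n p Y y)) y (ev j)) y (ev j) =
      0 := by
  have h1 : Sol (P.loc p) D (lu (𝓡∂ n) p u) := by
    have := TM.fHarm n N M P f u hu p
    exact ⟨this.1.mono h.sub, fun x hx => this.2 x (h.sub hx)⟩
  have h2 := bSymm n N _ _ _ _ _ _ _ (trS_rel h.opB hz) h.relD (h.pull hA hz)
  have h3 : EqOn (lu (𝓡∂ n) p u) (fun x => Ring.inverse ((fun _ : E n => (1 : EndF N)) (X x + z))
      ((fun x => u (thP n p Y (x - z))) (X x + z))) D := by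
    intro x hx
    simp only [Ring.inverse_one]
    show lu (𝓡∂ n) p u x = u (thP n p Y (X x + z - z))
    rw [add_sub_cancel_right]
    unfold thP
    rw [h.inv1 x hx]
    rfl
  have h4 := bSol n N _ _ _ _ _ _ _ h.relD (trS_rel h.opB hz) h.okL (h.okE z) h2
    (fun x => u (thP n p Y (x - z))) (cERel_sol_congr _ h.relD h3 h1)
    (tr_smooth (h.smU hu.smooth))
  have h5 := h4.2 (y + z) (add_mem_trS hy)
  rw [Lop_tr h.opB hz h.posκ (fun y => u (thP n p Y y)) hy] at h5
  exact h5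

/-- Integrals in the coordinates. -/
theorem CIn.integral [T2Space M] [CompactSpace M] [BorelSpace M] (h : CIn P p D X Y κ B)
    {S : Set (E n)} (hS : MeasurableSet S) (hSB : S ⊆ B) {G : M → ℝ} (hG : Continuous G) :
    MeasurableSet (thP n p Y '' S) ∧ ∫ x in thP n p Y '' S, G x ∂P.μ =
      ∫ y in S, √((κ y) ^ n) * G (thP n p Y y) := by
  have hinj : InjOn Y S := fun y hy y' hy' he => by
    rw [← h.inv2 y (hSB hy), he, h.inv2 y' (hSB hy')]
  have hDm : MeasurableSet (Y '' S) :=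
    hS.image_of_continuousOn_injOn (h.smY.continuousOn.mono hSB) hinj
  have hDs : Y '' S ⊆ tg n p := by
    rintro _ ⟨y, hy, rfl⟩
    exact h.sub (h.mapsY (hSB hy))
  obtain ⟨hm, hI⟩ := (TM.fInt n N M P).2.2 p (Y '' S) hDm hDs
  have him : thP n p Y '' S = (xc n p).symm '' (Y '' S) := by
    rw [image_image]
    rfl
  rw [him]
  refine ⟨hm, ?_⟩
  have h1 := hI (fun x => (G x : ℂ)) (Complex.continuous_ofReal.comp hG).aestronglyMeasurable
  rw [integral_image_eq_integral_abs_det_fderiv_smul volume hS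
    (fun y hy => (h.diffY (hSB hy)).hasFDerivWithinAt) hinj] at h1
  have h2 : ∫ y in S, |(fderiv ℝ Y y).det| •
      ((√((P.loc p).g (Y y)).det : ℂ) * (G ((xc n p).symm (Y y)) : ℂ)) =
      ∫ y in S, ((√((κ y) ^ n) * G (thP n p Y y) : ℝ) : ℂ) := by
    refine setIntegral_congr_fun hS fun y hy => ?_
    show |(fderiv ℝ Y y).det| • _ = _
    rw [jm_det, ← h.detE (hSB hy), Complex.real_smul]
    push_cast
    rw [mul_assoc]
    rfl
  rw [h2, integral_complex_ofReal, integral_complex_ofReal] at h1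
  exact_mod_cast h1

end

end Vale.Agent.P088.R2.H338

end
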