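import Vale.Agent.P088.R2.H338.GB

/-!
# P088, Theorem S, block GI: extension by zero, energies, real components
-/

set_option linter.all false

open Bundle Manifold MeasureTheory Set Filter Topology Metric
open scoped ContDiff Matrix

noncomputable section

namespace Vale.Agent.P088.R2.H338

open Vale.Agent.P088 Vale.Agent.P088.EYM Vale.Agent.P088.EYM.O
open Vale.Agent.P088.R2.H31 (dj lap dj_congr dj_congr_ev lap_congr dj_mul lap_mul)

universe u

section

variable {n N : ℕ} [NeZero n] {M : Type u} [TopologicalSpace M]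
  [ChartedSpace (EuclideanHalfSpace n) M] [IsManifold (𝓡∂ n) ∞ M]
variable [MeasurableSpace M] {P : One n N M} {p : M} {D : Set (E n)} {X Y : E n → E n}
  {κ : E n → ℝ} {B : Set (E n)}

/-- Extension by zero. -/
theorem CIn.ext [T2Space M] (h : CIn P p D X Y κ B) {b : E n → Fib N} (hb : ContDiff ℝ ∞ b)
    (hc : HasCompactSupport b) (hs : tsupport b ⊆ B) :
    ∃ T : M → Fib N, SmS n T ∧ (∀ y ∈ B, T (thP n p Y y) = b y) ∧
      (∀ x, x ∉ thP n p Y '' tsupport b → T x = 0) ∧ tsupport T ⊆ thP n p Y '' tsupport b ∧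
      ∀ x ∈ (𝓡∂ n).boundary M, T x = 0 := by
  have hK : IsCompact (Y '' tsupport b) := hc.isCompact.image_of_continuousOn
    (h.smY.continuousOn.mono hs)
  have hKD : Y '' tsupport b ⊆ D := by
    rintro _ ⟨y, hy, rfl⟩
    exact h.mapsY (hs hy)
  have hcs : ContDiffOn ℝ ∞ (fun x => b (X x)) D := hb.comp_contDiffOn h.smX
  have hz : ∀ x ∈ D, x ∉ Y '' tsupport b → b (X x) = 0 := by
    intro x hx hxn
    refine image_eq_zero_of_notMem_tsupport fun hX => hxn ⟨X x, hX, h.inv1 x hx⟩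
  obtain ⟨T, h1, h2, h3, h4⟩ := TM.fExt n N M p (fun x => b (X x)) D (Y '' tsupport b) h.relD
    h.sub hcs hK hKD hz
  have him : (xc n p).symm '' (Y '' tsupport b) = thP n p Y '' tsupport b := by
    rw [image_image]
    rfl
  rw [him] at h3 h4
  refine ⟨T, h1, fun y hy => ?_, h3, h4, fun x hx => h3 x ?_⟩
  · show T ((xc n p).symm (Y y)) = b y
    rw [h2 _ (h.mapsY hy), h.inv2 y hy]
  · rintro ⟨y, hy, rfl⟩
    have h5 : thP n p Y y ∈ (𝓡∂ n).interior M := h.mem_int (hs hy)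
    rw [← ModelWithCorners.compl_interior] at hx
    exact hx h5

theorem trS_ball {z : E n} {r : ℝ} (hz : trS (ball 0 r) z ⊆ {x | 0 < x 0}) :
    trS (ball 0 r) z = HB z r := by
  ext x
  have h1 : x ∈ trS (ball 0 r) z ↔ x ∈ ball z r := by
    unfold trS
    rw [mem_ofPred_eq, mem_ball_zero_iff, mem_ball_iff_norm]
  constructor
  · intro hx
    exact ⟨h1.1 hx, le_of_lt (show 0 < x 0 from hz hx)⟩
  · intro hx
    exact h1.2 hx.1

theorem setIntegral_tr {V : Type*} [NormedAddCommGroup V] [NormedSpace ℝ V] (B : Set (E n))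
    (z : E n) (F : E n → V) : ∫ x in trS B z, F x = ∫ y in B, F (y + z) := by
  have h1 := (measurePreserving_add_right (volume : Measure (E n)) z).setIntegral_preimage_emb
    (measurableEmbedding_addRight z) F (trS B z)
  rw [← h1]
  congr 2
  ext y
  show y + z - z ∈ B ↔ y ∈ B
  rw [add_sub_cancel_right]

/-- The energy of an extension by zero. -/
theorem CIn.energyT [T2Space M] [CompactSpace M] [BorelSpace M] {r r' : ℝ} (hr : 0 < r)
    (hr' : r' < r) (h : CIn P p D X Y κ (ball 0 r)) (hA : ∀ x X, P.A.form x X = 0) {z : E n}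
    (hz : trS (ball 0 r) z ⊆ {x | 0 < x 0}) {b : E n → Fib N}
    (hs : tsupport b ⊆ ball 0 r') {T : M → Fib N} (hT : SmS n T)
    (hTb : ∀ y ∈ ball (0 : E n) r, T (thP n p Y y) = b y)
    (hTs : tsupport T ⊆ thP n p Y '' tsupport b) {φ : M → Fib N} (hφ : SmS n φ) :
    P.E T φ = -∫ y in ball (0 : E n) r,
      inner ℂ (∑ j, fderiv ℝ (fun y => wt κ y • fderiv ℝ b y (ev j)) y (ev j))
        (φ (thP n p Y y)) := by
  have hsr : tsupport b ⊆ ball 0 r := hs.trans (ball_subset_ball hr'.le)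
  have h1 : P.E T φ = En (P.loc p) D (lu (𝓡∂ n) p T) (lu (𝓡∂ n) p φ) := by
    refine (TM.fEn n N M P p D h.relD h.sub).1 T φ hT hφ (Or.inl (hTs.trans ?_))
    rintro _ ⟨y, hy, rfl⟩
    exact ⟨Y y, h.mapsY (hsr hy), rfl⟩
  have h2 := bEnergy n N _ _ _ _ _ _ _ (trS_rel h.opB hz) h.relD (h.okE z) h.okL (h.pull hA hz)
    (lu (𝓡∂ n) p T) (lu (𝓡∂ n) p φ) (h.smL hT) (h.smL hφ)
  rw [← h1] at h2
  have h3 : (fun x : E n => (1 : EndF N) (lu (𝓡∂ n) p T (Y (x - z)))) =
    fun x => T (thP n p Y (x - z)) := rfl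
  have h4 : (fun x : E n => (1 : EndF N) (lu (𝓡∂ n) p φ (Y (x - z)))) =
    fun x => φ (thP n p Y (x - z)) := rfl
  rw [h3, h4] at h2
  have hok := h.okE (N := N) z
  have sT : ContDiffOn ℝ 2 (fun x => T (thP n p Y (x - z))) (trS (ball 0 r) z) :=
    (tr_smooth (h.smU hT)).of_le (WithTop.coe_le_coe.2 (le_top (a := (2 : ℕ∞))))
  have sφ : ContDiffOn ℝ 1 (fun x => φ (thP n p Y (x - z))) (trS (ball 0 r) z) :=
    (tr_smooth (h.smU hφ)).of_le (by simp)
  have h5 : En (cE fun x => κ (x - z)) (trS (ball 0 r) z) (fun x => T (thP n p Y (x - z)))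
      (fun x => φ (thP n p Y (x - z))) = - ∫ x in trS (ball 0 r) z,
        inner ℂ (Lop (cE fun x => κ (x - z)) (fun x => T (thP n p Y (x - z))) x)
          (φ (thP n p Y (x - z))) := by
    rw [trS_ball hz] at hok sT sφ ⊢
    refine aGreen n N _ z r hr hok _ _ sT sφ ⟨r', hr', fun x hx hxn => ?_⟩ fun x hx hx0 => ?_
    · have hx1 : x - z ∈ ball (0 : E n) r := by
        rw [mem_ball_zero_iff, ← mem_ball_iff_norm]
        exact hx.1
      show T (thP n p Y (x - z)) = 0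
      rw [hTb _ hx1]
      refine image_eq_zero_of_notMem_tsupport fun h6 => hxn ?_
      have := hs h6
      rwa [mem_ball_zero_iff, ← mem_ball_iff_norm] at this
    · rw [← trS_ball hz] at hx
      exact absurd hx0 (ne_of_gt (hz hx))
  rw [h5, setIntegral_tr] at h2
  rw [← h2]
  congr 1
  refine setIntegral_congr_fun measurableSet_ball fun y hy => ?_
  have h7 : EqOn (fun y => T (thP n p Y y)) b (ball 0 r) := fun y hy => hTb y hy
  have h8 : Lop (cE fun x => κ (x - z)) (fun x => T (thP n p Y (x - z))) (y + z) =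
      ∑ j, fderiv ℝ (fun y => wt κ y • fderiv ℝ b y (ev j)) y (ev j) := by
    rw [Lop_tr isOpen_ball hz h.posκ (fun y => T (thP n p Y y)) hy]
    refine Finset.sum_congr rfl fun j _ => ?_
    have h9 : (fun y => wt κ y • fderiv ℝ (fun y => T (thP n p Y y)) y (ev j)) =ᶠ[𝓝 y]
        fun y => wt κ y • fderiv ℝ b y (ev j) := by
      filter_upwards [isOpen_ball.mem_nhds hy] with y' hy'
      have h10 : (fun y => T (thP n p Y y)) =ᶠ[𝓝 y'] b :=
        Filter.eventuallyEq_of_mem (isOpen_ball.mem_nhds hy') h7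
      rw [h10.fderiv_eq]
    rw [h9.fderiv_eq]
  show inner ℂ (Lop _ _ (y + z)) (φ (thP n p Y (y + z - z))) = _
  rw [h8, add_sub_cancel_right]

/-! ### Real components -/

/-- The real part of the component `j0`. -/
def cmp (j0 : Fin N) : Fib N →L[ℝ] ℝ :=
  Complex.reCLM.comp ((EuclideanSpace.proj (𝕜 := ℂ) j0 : Fib N →L[ℂ] ℂ).restrictScalars ℝ)

theorem cmp_apply (j0 : Fin N) (v : Fib N) : cmp j0 v = (v j0).re := rfl

omit [NeZero n] in
theorem cmp_le (j0 : Fin N) (v : Fib N) : |cmp j0 v| ≤ ‖v‖ := by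
  rw [cmp_apply]
  exact (Complex.abs_re_le_norm _).trans (PiLp.norm_apply_le v j0)

theorem cmp_eN (j0 : Fin N) (t : ℝ) : cmp j0 (t • eN N j0) = t := by
  rw [map_smul]
  have h1 : cmp j0 (eN N j0) = 1 := by
    rw [cmp_apply]
    simp [eN]
  rw [h1, smul_eq_mul, mul_one]

theorem dj_cmp (j0 : Fin N) {F : E n → Fib N} {y : E n} (hF : DifferentiableAt ℝ F y)
    (j : Fin n) : dj j (fun y => cmp j0 (F y)) y = cmp j0 (fderiv ℝ F y (ev j)) := by
  have h1 := (cmp j0).hasFDerivAt.comp y hF.hasFDerivAt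
  have h2 : fderiv ℝ (fun y => cmp j0 (F y)) y = (cmp j0).comp (fderiv ℝ F y) := h1.fderiv
  unfold H31.dj
  rw [h2]
  rfl

theorem wt_smooth (h : CIn P p D X Y κ B) : ContDiffOn ℝ ∞ (wt κ) B := by
  have h1 : ContDiffOn ℝ ∞ (fun y => √((κ y) ^ n)) B :=
    (h.smκ.pow n).sqrt fun y hy => (pow_pos (h.posκ y hy) n).ne'
  exact h1.div h.smκ fun y hy => (h.posκ y hy).ne'

theorem fd_smooth {F : E n → Fib N} (hB : IsOpen B) (hF : ContDiffOn ℝ ∞ F B) (j : Fin n) :
    ContDiffOn ℝ ∞ (fun y => fderiv ℝ F y (ev j)) B :=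
  (hF.fderiv_of_isOpen hB (m := ∞) (by simp)).clm_apply contDiffOn_const

/-- The equation for the real part of a component. -/
theorem CIn.harmR [T2Space M] [CompactSpace M] [BorelSpace M] (h : CIn P p D X Y κ B)
    (hA : ∀ x X, P.A.form x X = 0) {z : E n}
    (hz : trS B z ⊆ {x | 0 < x 0}) {ω' : E n → ℝ} (hω : ContDiffOn ℝ ∞ ω' B)
    (hp : ∀ y ∈ B, 0 < ω' y) (hw : ∀ y ∈ B, wt κ y = ω' y ^ 2) (j0 : Fin N)
    {f u : M → Fib N} (hu : P.Harm f u) {y : E n} (hy : y ∈ B) :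
    lap (fun y => ω' y * cmp j0 (u (thP n p Y y))) y =
      cmp j0 (u (thP n p Y y)) * lap ω' y := by
  have h1 := congrArg (cmp j0) (h.harm hA hz hu hy)
  rw [map_sum, map_zero] at h1
  have hF := h.smU hu.smooth
  have h2 : ∀ j, cmp j0 (fderiv ℝ (fun y => wt κ y • fderiv ℝ (fun y => u (thP n p Y y)) y
      (ev j)) y (ev j)) = dj j (fun x => ω' x ^ 2 * dj j (fun y => cmp j0 (u (thP n p Y y))) x)
        y := by
    intro j
    have h3 : ContDiffOn ℝ ∞ (fun y => wt κ y • fderiv ℝ (fun y => u (thP n p Y y)) y (ev j)) B :=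
      (wt_smooth h).smul (fd_smooth h.opB hF j)
    rw [← dj_cmp j0 ((h3.contDiffAt (h.opB.mem_nhds hy)).differentiableAt (by simp)) j]
    refine dj_congr ?_ j
    filter_upwards [h.opB.mem_nhds hy] with y' hy'
    rw [map_smul, smul_eq_mul, hw y' hy',
      dj_cmp j0 ((hF.contDiffAt (h.opB.mem_nhds hy')).differentiableAt (by simp)) j]
  simp only [h2] at h1
  have c2 : (2 : WithTop ℕ∞) ≤ ∞ := WithTop.coe_le_coe.2 (le_top (a := (2 : ℕ∞)))
  have s2 : ContDiffAt ℝ 2 (fun y => cmp j0 (u (thP n p Y y))) y :=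
    (((cmp j0).contDiff.comp_contDiffOn hF).contDiffAt (h.opB.mem_nhds hy)).of_le c2
  rw [divω ((hω.contDiffAt (h.opB.mem_nhds hy)).of_le c2) s2] at h1
  have h3 := (mul_eq_zero.1 h1).resolve_left (hp y hy).ne'
  linarith

end

end Vale.Agent.P088.R2.H338

end
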