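import Vale.Agent.P088.R2.H338.GC

/-!
# P088, Theorem S, block GI: estimates in the coordinates
-/

set_option linter.all false

open Bundle Manifold MeasureTheory Set Filter Topology Metric
open scoped ContDiff Matrix

noncomputable section

namespace Vale.Agent.P088.R2.H338

open Vale.Agent.P088 Vale.Agent.P088.EYM Vale.Agent.P088.EYM.O
open Vale.Agent.P088.R2.H31 (dj lap dj_congr dj_congr_ev lap_congr dj_mul lap_mul)

universe u

/-- Cauchy-Schwarz. -/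
theorem cs_int {α : Type*} [MeasurableSpace α] {μ : Measure α} {f g : α → ℝ}
    (hf : Integrable (fun x => f x ^ 2) μ) (hg : Integrable (fun x => g x ^ 2) μ)
    (hfg : Integrable (fun x => f x * g x) μ) :
    ∫ x, f x * g x ∂μ ≤ √(∫ x, f x ^ 2 ∂μ) * √(∫ x, g x ^ 2 ∂μ) := by
  set A := ∫ x, f x ^ 2 ∂μ with hA
  set C := ∫ x, g x ^ 2 ∂μ with hC
  set B := ∫ x, f x * g x ∂μ with hB
  have hA0 : 0 ≤ A := integral_nonneg fun x => sq_nonneg _
  have hC0 : 0 ≤ C := integral_nonneg fun x => sq_nonneg _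
  have key : ∀ t : ℝ, 0 ≤ A * (t * t) + (-2 * B) * t + C := by
    intro t
    have h1 : 0 ≤ ∫ x, (t * f x - g x) ^ 2 ∂μ := integral_nonneg fun x => sq_nonneg _
    have h2 : ∀ x, (t * f x - g x) ^ 2 = t ^ 2 * f x ^ 2 - (2 * t) * (f x * g x) + g x ^ 2 := by
      intro x
      ring
    simp only [h2] at h1
    have i1 : Integrable (fun x => t ^ 2 * f x ^ 2 - 2 * t * (f x * g x)) μ :=
      (hf.const_mul _).sub (hfg.const_mul _)
    rw [integral_add i1 hg,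
      integral_sub (hf.const_mul _) (hfg.const_mul _), integral_const_mul,
      integral_const_mul] at h1
    linarith
  have h3 := discrim_le_zero key
  unfold discrim at h3
  rw [← Real.sqrt_mul hA0]
  refine Real.le_sqrt_of_sq_le ?_
  nlinarith

section

variable {n N : ℕ} [NeZero n]

/-- The `H¹` density. -/
def hd (a : E n → ℝ) (y : E n) : ℝ := a y ^ 2 + ∑ j, dj j a y ^ 2

theorem hd_nonneg (a : E n → ℝ) (y : E n) : 0 ≤ hd a y :=
  add_nonneg (sq_nonneg _) (Finset.sum_nonneg fun j _ => sq_nonneg _)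

theorem dj_cont {B : Set (E n)} (hB : IsOpen B) {a : E n → ℝ} (ha : ContDiffOn ℝ ∞ a B)
    (j : Fin n) : ContinuousOn (dj j a) B :=
  (((ha.fderiv_of_isOpen hB (m := ∞) (by simp)).clm_apply contDiffOn_const).continuousOn)

theorem hd_cont {B : Set (E n)} (hB : IsOpen B) {a : E n → ℝ} (ha : ContDiffOn ℝ ∞ a B) :
    ContinuousOn (hd a) B := by
  unfold hd
  exact (ha.continuousOn.pow 2).add (continuousOn_finsetSum _ fun j _ => (dj_cont hB ha j).pow 2)

theorem bdd_abs {K : Set (E n)} (hK : IsCompact K) {g : E n → ℝ} (hg : ContinuousOn g K) :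
    ∃ C : ℝ, 0 ≤ C ∧ ∀ y ∈ K, |g y| ≤ C := by
  obtain ⟨C, hC⟩ := hK.exists_bound_of_continuousOn hg
  exact ⟨max C 0, le_max_right _ _, fun y hy => (hC y hy).trans (le_max_left _ _)⟩

/-- Multiplication by a smooth function is bounded in `H¹`. -/
theorem mulH1 {B K : Set (E n)} (hB : IsOpen B) (hK : IsCompact K) (hKB : K ⊆ B) {g : E n → ℝ}
    (hg : ContDiffOn ℝ ∞ g B) : ∃ C : ℝ, 0 ≤ C ∧ ∀ a : E n → ℝ, ∀ y ∈ K,
      DifferentiableAt ℝ a y → hd (fun x => g x * a x) y ≤ C * hd a y := by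
  obtain ⟨C0, hC0, h0⟩ := bdd_abs hK (hg.continuousOn.mono hKB)
  have h1 : ∀ j : Fin n, ∃ C : ℝ, 0 ≤ C ∧ ∀ y ∈ K, |dj j g y| ≤ C := fun j =>
    bdd_abs hK ((dj_cont hB hg j).mono hKB)
  choose C1 hC1 h1 using h1
  refine ⟨C0 ^ 2 + 2 * ∑ j, C1 j ^ 2 + 2 * C0 ^ 2, by positivity, fun a y hy ha => ?_⟩
  have hgd : DifferentiableAt ℝ g y :=
    (hg.contDiffAt (hB.mem_nhds (hKB hy))).differentiableAt (by simp)
  have e1 : (g y) ^ 2 ≤ C0 ^ 2 := by
    rw [← sq_abs]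
    exact pow_le_pow_left₀ (abs_nonneg _) (h0 y hy) 2
  have e2 : ∀ j, (dj j g y) ^ 2 ≤ C1 j ^ 2 := fun j => by
    rw [← sq_abs]
    exact pow_le_pow_left₀ (abs_nonneg _) (h1 j y hy) 2
  have e3 : ∀ j, dj j (fun x => g x * a x) y ^ 2 ≤
      2 * C1 j ^ 2 * a y ^ 2 + 2 * C0 ^ 2 * dj j a y ^ 2 := by
    intro j
    rw [dj_mul hgd ha j]
    nlinarith [sq_nonneg (dj j g y * a y - g y * dj j a y), mul_le_mul_of_nonneg_right (e2 j)
      (sq_nonneg (a y)), mul_le_mul_of_nonneg_right e1 (sq_nonneg (dj j a y))]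
  have e4 : ∑ j, dj j (fun x => g x * a x) y ^ 2 ≤
      2 * (∑ j, C1 j ^ 2) * a y ^ 2 + 2 * C0 ^ 2 * ∑ j, dj j a y ^ 2 := by
    refine (Finset.sum_le_sum fun j _ => e3 j).trans (le_of_eq ?_)
    rw [Finset.sum_add_distrib, Finset.mul_sum, Finset.mul_sum, Finset.sum_mul]
  have e5 : (g y * a y) ^ 2 ≤ C0 ^ 2 * a y ^ 2 := by
    rw [mul_pow]
    exact mul_le_mul_of_nonneg_right e1 (sq_nonneg _)
  have e6 : 0 ≤ ∑ j, dj j a y ^ 2 := Finset.sum_nonneg fun j _ => sq_nonneg _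
  have e7 : 0 ≤ ∑ j, C1 j ^ 2 := Finset.sum_nonneg fun j _ => sq_nonneg _
  unfold hd
  nlinarith [sq_nonneg (a y), mul_nonneg (sq_nonneg C0) e6, mul_nonneg e7 e6,
    mul_nonneg (sq_nonneg C0) (sq_nonneg (a y))]

/-- `f / ω` is smooth. -/
theorem quot_smooth {B : Set (E n)} (hB : IsOpen B) {f ω' : E n → ℝ} (hf : ContDiff ℝ ∞ f)
    (hs : tsupport f ⊆ B) (hω : ContDiffOn ℝ ∞ ω' B) (hp : ∀ y ∈ B, 0 < ω' y) :
    ContDiff ℝ ∞ (fun y => f y / ω' y) := by
  rw [contDiff_iff_contDiffAt]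
  intro y
  by_cases hy : y ∈ tsupport f
  · exact (hf.contDiffAt).div (hω.contDiffAt (hB.mem_nhds (hs hy))) (hp y (hs hy)).ne'
  · have h1 : f =ᶠ[𝓝 y] fun _ => 0 := notMem_tsupport_iff_eventuallyEq.1 hy
    have h2 : (fun y => f y / ω' y) =ᶠ[𝓝 y] fun _ => 0 := by
      filter_upwards [h1] with x hx
      rw [hx, zero_div]
    exact contDiffAt_const.congr_of_eventuallyEq h2

theorem quot_supp (f ω' : E n → ℝ) : tsupport (fun y => f y / ω' y) ⊆ tsupport f := by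
  refine closure_mono fun y hy => ?_
  rw [Function.mem_support] at hy ⊢
  intro h
  exact hy (by rw [h, zero_div])

theorem fderiv_smul_e (β : E n → ℝ) (e : Fib N) {y : E n} (h : DifferentiableAt ℝ β y)
    (j : Fin n) : fderiv ℝ (fun y => β y • e) y (ev j) = dj j β y • e := by
  have h1 := (h.hasFDerivAt.smul_const e).fderiv
  rw [h1]
  rfl

/-- The operator applied to `(f / ω) e`. -/
theorem lam_eq {B : Set (E n)} (hB : IsOpen B) {f ω' wt' : E n → ℝ} (hf : ContDiff ℝ ∞ f)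
    (hs : tsupport f ⊆ B) (hω : ContDiffOn ℝ ∞ ω' B) (hp : ∀ y ∈ B, 0 < ω' y)
    (hl : ∀ y ∈ B, lap ω' y = 0) (hw : ∀ y ∈ B, wt' y = ω' y ^ 2) (e : Fib N) {y : E n}
    (hy : y ∈ B) :
    ∑ j, fderiv ℝ (fun y => wt' y • fderiv ℝ (fun y => (f y / ω' y) • e) y (ev j)) y (ev j) =
      (ω' y * lap f y) • e := by
  have hβ := quot_smooth hB hf hs hω hp
  have c2 : (2 : WithTop ℕ∞) ≤ ∞ := WithTop.coe_le_coe.2 (le_top (a := (2 : ℕ∞)))
  have h1 : ∀ j, fderiv ℝ (fun y => wt' y • fderiv ℝ (fun y => (f y / ω' y) • e) y (ev j)) y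
      (ev j) = dj j (fun x => ω' x ^ 2 * dj j (fun y => f y / ω' y) x) y • e := by
    intro j
    have h2 : (fun y => wt' y • fderiv ℝ (fun y => (f y / ω' y) • e) y (ev j)) =ᶠ[𝓝 y]
        fun y => (ω' y ^ 2 * dj j (fun y => f y / ω' y) y) • e := by
      filter_upwards [hB.mem_nhds hy] with x hx
      rw [fderiv_smul_e _ e (hβ.differentiable (by simp) x) j, hw x hx, smul_smul]
    rw [h2.fderiv_eq]
    refine fderiv_smul_e _ e ?_ j
    have h3 : DifferentiableAt ℝ (fun y => ω' y ^ 2) y :=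
      (((hω.contDiffAt (hB.mem_nhds hy)).differentiableAt (by simp))).pow 2
    exact h3.fun_mul (H31.c2_djd (hβ.contDiffAt.of_le c2) j)
  simp only [h1]
  rw [← Finset.sum_smul, divω ((hω.contDiffAt (hB.mem_nhds hy)).of_le c2)
    (hβ.contDiffAt.of_le c2), hl y hy, mul_zero, sub_zero]
  congr 2
  refine lap_congr ?_
  filter_upwards [hB.mem_nhds hy] with x hx
  rw [mul_div_cancel₀ _ (hp x hx).ne']

end

end Vale.Agent.P088.R2.H338

end
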