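import Vale.Agent.P088.R2.H338.GD

/-!
# P088, Theorem S, block GI: comparison of the norms in the coordinates and on `M`
-/

set_option linter.all false

open Bundle Manifold MeasureTheory Set Filter Topology Metric
open scoped ContDiff Matrix

noncomputable section

namespace Vale.Agent.P088.R2.H338

open Vale.Agent.P088 Vale.Agent.P088.EYM Vale.Agent.P088.EYM.O
open Vale.Agent.P088.R2.H31 (dj lap dj_congr dj_congr_ev lap_congr dj_mul lap_mul)

universe u

section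

variable {n N : ℕ} [NeZero n] {M : Type u} [TopologicalSpace M]
  [ChartedSpace (EuclideanHalfSpace n) M] [IsManifold (𝓡∂ n) ∞ M]
variable [MeasurableSpace M] {P : One n N M} {p : M} {D : Set (E n)} {X Y : E n → E n}
  {κ : E n → ℝ} {B : Set (E n)}

/-- The density `√(κⁿ)`. -/
def ds (κ : E n → ℝ) (y : E n) : ℝ := √((κ y) ^ n)

theorem CIn.ds_smooth (h : CIn P p D X Y κ B) : ContDiffOn ℝ ∞ (ds κ) B :=
  (h.smκ.pow n).sqrt fun y hy => (pow_pos (h.posκ y hy) n).ne'

theorem CIn.ds_pos (h : CIn P p D X Y κ B) {y : E n} (hy : y ∈ B) : 0 < ds κ y :=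
  Real.sqrt_pos.2 (pow_pos (h.posκ y hy) n)

theorem CIn.wt_pos (h : CIn P p D X Y κ B) {y : E n} (hy : y ∈ B) : 0 < wt κ y :=
  div_pos (h.ds_pos hy) (h.posκ y hy)

omit [NeZero n] in
theorem low_bd {K : Set (E n)} (hK : IsCompact K) {g : E n → ℝ} (hg : ContinuousOn g K)
    (hp : ∀ y ∈ K, 0 < g y) : ∃ m : ℝ, 0 < m ∧ ∀ y ∈ K, m ≤ g y := by
  rcases K.eq_empty_or_nonempty with rfl | hne
  · exact ⟨1, one_pos, fun y hy => absurd hy (notMem_empty y)⟩
  · obtain ⟨y0, hy0, hmin⟩ := hK.exists_isMinOn hne hg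
    exact ⟨g y0, hp y0 hy0, fun y hy => hmin hy⟩

/-- The `H¹` density of a section at a point of `M`. -/
def hM (P : One n N M) (u : M → Fib N) (x : M) : ℝ := (pairing P.g P.A u u x).re + ‖u x‖ ^ 2

theorem hM_nonneg (P : One n N M) (u : M → Fib N) (x : M) : 0 ≤ hM P u x :=
  add_nonneg (cForm_pairing_nonneg P.g P.A u x) (sq_nonneg _)

theorem hM_cont (P : One n N M) {u : M → Fib N} (hu : SmS n u) : Continuous (hM P u) :=
  (Complex.continuous_re.comp (continuous_pairing P.g P.A hu hu)).add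
    (hu.continuous.norm.pow 2)

/-- The `H¹` density in the coordinates. -/
theorem CIn.hM_eq (h : CIn P p D X Y κ B) (hA : ∀ x X, P.A.form x X = 0) {z : E n}
    (hz : trS B z ⊆ {x | 0 < x 0}) {u : M → Fib N} (hu : SmS n u) {y : E n} (hy : y ∈ B) :
    ds κ y * hM P u (thP n p Y y) =
      wt κ y * ∑ j, ‖fderiv ℝ (fun y => u (thP n p Y y)) y (ev j)‖ ^ 2 +
        ds κ y * ‖u (thP n p Y y)‖ ^ 2 := by
  unfold hM
  rw [mul_add, ← h.pairing_re hA hz hu hy]
  rfl

theorem CIn.hd_le (h : CIn P p D X Y κ B) (j0 : Fin N) {u : M → Fib N} (hu : SmS n u) {y : E n}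
    (hy : y ∈ B) : hd (fun y => cmp j0 (u (thP n p Y y))) y ≤
      (∑ j, ‖fderiv ℝ (fun y => u (thP n p Y y)) y (ev j)‖ ^ 2) + ‖u (thP n p Y y)‖ ^ 2 := by
  have hF := ((h.smU hu).contDiffAt (h.opB.mem_nhds hy)).differentiableAt (by simp)
  unfold hd
  rw [add_comm]
  refine add_le_add (Finset.sum_le_sum fun j _ => ?_) ?_
  · rw [dj_cmp j0 hF j, ← sq_abs]
    exact pow_le_pow_left₀ (abs_nonneg _) (cmp_le j0 _) 2
  · rw [← sq_abs]
    exact pow_le_pow_left₀ (abs_nonneg _) (cmp_le j0 _) 2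

variable [T2Space M] [CompactSpace M] [BorelSpace M]

theorem fk_hM (P : One n N M) (K : Set M) {u : M → Fib N} (hu : SmS n u) :
    (FK P K u u).re = ∫ x in K, hM P u x ∂P.μ := fk_re P K hu

theorem int_mono_hM (P : One n N M) {K S : Set M} (hSK : S ⊆ K) {u : M → Fib N} (hu : SmS n u) :
    ∫ x in S, hM P u x ∂P.μ ≤ (FK P K u u).re := by
  haveI := (TM.fInt n N M P).1
  rw [fk_hM P K hu]
  exact setIntegral_mono_set (integrable_of_continuous (hM_cont P hu)).integrableOn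
    (Eventually.of_forall fun x => hM_nonneg P u x) (HasSubset.Subset.eventuallyLE hSK)

/-- The `H¹` norm in the coordinates is bounded by the `H¹` norm on `M`. -/
theorem CIn.H1_le (h : CIn P p D X Y κ B) (hA : ∀ x X, P.A.form x X = 0) {z : E n}
    (hz : trS B z ⊆ {x | 0 < x 0}) (j0 : Fin N) {C : Set (E n)} (hC : IsCompact C) (hCB : C ⊆ B) :
    ∃ c : ℝ, 0 ≤ c ∧ ∀ (u : M → Fib N) (S : Set (E n)) (K : Set M), SmS n u → MeasurableSet S →
      S ⊆ C → thP n p Y '' S ⊆ K →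
      ∫ y in S, hd (fun y => cmp j0 (u (thP n p Y y))) y ≤ c * (FK P K u u).re := by
  obtain ⟨m1, hm1, h1⟩ := low_bd hC (h.ds_smooth.continuousOn.mono hCB) fun y hy =>
    h.ds_pos (hCB hy)
  obtain ⟨m2, hm2, h2⟩ := low_bd hC ((wt_smooth h).continuousOn.mono hCB) fun y hy =>
    h.wt_pos (hCB hy)
  set m := min m1 m2 with hm
  have hm0 : 0 < m := lt_min hm1 hm2
  refine ⟨m⁻¹, by positivity, fun u S K hu hS hSC hSK => ?_⟩
  have hSB : S ⊆ B := hSC.trans hCB
  have hcd : ContinuousOn (hd (fun y => cmp j0 (u (thP n p Y y)))) C :=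
    (hd_cont h.opB ((cmp j0).contDiff.comp_contDiffOn (h.smU hu))).mono hCB
  have hcM : ContinuousOn (fun y => ds κ y * hM P u (thP n p Y y)) C :=
    (h.ds_smooth.continuousOn.mono hCB).mul
      ((hM_cont P hu).comp_continuousOn (h.contTh.mono hCB))
  have hpt : ∀ y ∈ S, hd (fun y => cmp j0 (u (thP n p Y y))) y ≤
      m⁻¹ * (ds κ y * hM P u (thP n p Y y)) := by
    intro y hy
    have e1 := h.hd_le j0 hu (hSB hy)
    have e2 := h.hM_eq hA hz hu (hSB hy)
    have e3 : 0 ≤ ∑ j, ‖fderiv ℝ (fun y => u (thP n p Y y)) y (ev j)‖ ^ 2 :=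
      Finset.sum_nonneg fun j _ => sq_nonneg _
    have e4 : m ≤ wt κ y := (min_le_right _ _).trans (h2 y (hSC hy))
    have e5 : m ≤ ds κ y := (min_le_left _ _).trans (h1 y (hSC hy))
    rw [e2, ← div_eq_inv_mul, le_div_iff₀ hm0]
    nlinarith [mul_le_mul_of_nonneg_right e4 e3,
      mul_le_mul_of_nonneg_right e5 (sq_nonneg ‖u (thP n p Y y)‖)]
  obtain ⟨-, hint⟩ := h.integral hS hSB (hM_cont P hu)
  calc ∫ y in S, hd (fun y => cmp j0 (u (thP n p Y y))) y
      ≤ ∫ y in S, m⁻¹ * (ds κ y * hM P u (thP n p Y y)) :=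
        setIntegral_mono_on ((hcd.integrableOn_compact hC).mono_set hSC)
          (((hcM.integrableOn_compact hC).mono_set hSC).const_mul _) hS hpt
    _ = m⁻¹ * ∫ x in thP n p Y '' S, hM P u x ∂P.μ := by
        rw [integral_const_mul, hint]
        rfl
    _ ≤ _ := mul_le_mul_of_nonneg_left (int_mono_hM P hSK hu) (by positivity)

/-- The `H¹` norm on `M` of an extension by zero of `(f / ω) e`. -/
theorem CIn.FKT (h : CIn P p D X Y κ B) (hA : ∀ x X, P.A.form x X = 0) {z : E n}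
    (hz : trS B z ⊆ {x | 0 < x 0}) (j0 : Fin N) {C U : Set (E n)} (hC : IsCompact C) (hCB : C ⊆ B)
    (hU : MeasurableSet U) (hUC : U ⊆ C) {ω' : E n → ℝ} (hω : ContDiffOn ℝ ∞ ω' B)
    (hp : ∀ y ∈ B, 0 < ω' y) :
    ∃ c : ℝ, 0 ≤ c ∧ ∀ (f : E n → ℝ) (T : M → Fib N) (V : Set M), ContDiff ℝ ∞ f →
      tsupport f ⊆ U → SmS n T → IsOpen V →
      (∀ y ∈ B, T (thP n p Y y) = (f y / ω' y) • eN N j0) →
      tsupport T ⊆ thP n p Y '' tsupport f →
      (FK P Vᶜ T T).re ≤ c * ∫ y in U \ {y | y ∈ B ∧ thP n p Y y ∈ V}, hd f y := by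
  obtain ⟨m1, hm1, h1⟩ := bdd_abs hC (h.ds_smooth.continuousOn.mono hCB)
  obtain ⟨m2, hm2, h2⟩ := bdd_abs hC ((wt_smooth h).continuousOn.mono hCB)
  have hinv : ContDiffOn ℝ ∞ (fun y => (ω' y)⁻¹) B := hω.inv fun y hy => (hp y hy).ne'
  obtain ⟨c1, hc1, h3⟩ := mulH1 h.opB hC hCB hinv
  refine ⟨(m1 + m2) * c1, by positivity, fun f T V hf hfs hT hV hTe hTs => ?_⟩
  set G : Set (E n) := {y | y ∈ B ∧ thP n p Y y ∈ V} with hG
  have hGo : IsOpen G := h.contTh.isOpen_inter_preimage h.opB hV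
  have hUG : MeasurableSet (U \ G) := hU.diff hGo.measurableSet
  have hUB : U ⊆ B := hUC.trans hCB
  have hsub : U \ G ⊆ C := diff_subset.trans hUC
  -- restriction to the coordinate domain
  have hzero : ∀ x ∈ Vᶜ, x ∉ thP n p Y '' (U \ G) → hM P T x = 0 := by
    intro x hx hxn
    have hxt : x ∉ tsupport T := by
      intro hxt
      obtain ⟨y, hy, rfl⟩ := hTs hxt
      exact hxn ⟨y, ⟨hfs hy, fun hyG => hx hyG.2⟩, rfl⟩
    unfold hM
    rw [CEnergy_pairing_zero P T hxt, image_eq_zero_of_notMem_tsupport hxt]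
    simp
  have him : thP n p Y '' (U \ G) ⊆ Vᶜ := by
    rintro _ ⟨y, hy, rfl⟩ hyV
    exact hy.2 ⟨hUB hy.1, hyV⟩
  obtain ⟨hmeas, hint⟩ := h.integral hUG (diff_subset.trans hUB) (hM_cont P hT)
  have e1 : (FK P Vᶜ T T).re = ∫ x in thP n p Y '' (U \ G), hM P T x ∂P.μ := by
    rw [fk_hM P Vᶜ hT]
    exact setIntegral_eq_of_subset_of_forall_diff_eq_zero hV.measurableSet.compl him
      fun x hx => hzero x hx.1 hx.2
  rw [e1, hint, ← integral_const_mul]
  have hβ : ∀ y ∈ B, DifferentiableAt ℝ (fun y => f y / ω' y) y := fun y hy =>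
    (hf.contDiffAt.div (hω.contDiffAt (h.opB.mem_nhds hy))
      (hp y hy).ne').differentiableAt (by simp)
  have hpt : ∀ y ∈ U \ G, √((κ y) ^ n) * hM P T (thP n p Y y) ≤ (m1 + m2) * c1 * hd f y := by
    intro y hy
    have hyC : y ∈ C := hsub hy
    have hyB : y ∈ B := hCB hyC
    have e2 := h.hM_eq hA hz hT hyB
    have e3 : ∀ j, fderiv ℝ (fun y => T (thP n p Y y)) y (ev j) =
        dj j (fun y => f y / ω' y) y • eN N j0 := by
      intro j
      have e4 : (fun y => T (thP n p Y y)) =ᶠ[𝓝 y] fun y => (f y / ω' y) • eN N j0 :=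
        Filter.eventuallyEq_of_mem (h.opB.mem_nhds hyB) fun x hx => hTe x hx
      rw [e4.fderiv_eq, fderiv_smul_e _ _ (hβ y hyB) j]
    have e5 : ‖eN N j0‖ = 1 := by
      simp [eN]
    have e6 : ∀ j, ‖fderiv ℝ (fun y => T (thP n p Y y)) y (ev j)‖ ^ 2 =
        dj j (fun y => f y / ω' y) y ^ 2 := by
      intro j
      rw [e3 j, norm_smul, e5, mul_one, Real.norm_eq_abs, sq_abs]
    have e7 : ‖T (thP n p Y y)‖ ^ 2 = (f y / ω' y) ^ 2 := by
      rw [hTe y hyB, norm_smul, e5, mul_one, Real.norm_eq_abs, sq_abs]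
    simp only [e6] at e2
    rw [e7] at e2
    have e8 := h3 f y hyC (hf.differentiable (by simp) y)
    have e9 : hd (fun x => (ω' x)⁻¹ * f x) y = hd (fun y => f y / ω' y) y := by
      have : (fun x => (ω' x)⁻¹ * f x) = fun y => f y / ω' y := by
        funext x
        rw [div_eq_inv_mul]
      rw [this]
    rw [e9] at e8
    have e10 : ds κ y ≤ m1 := (le_abs_self _).trans (h1 y hyC)
    have e11 : wt κ y ≤ m2 := (le_abs_self _).trans (h2 y hyC)
    have e12 : 0 ≤ ∑ j, dj j (fun y => f y / ω' y) y ^ 2 :=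
      Finset.sum_nonneg fun j _ => sq_nonneg _
    have e13 : √((κ y) ^ n) * hM P T (thP n p Y y) ≤
        (m1 + m2) * hd (fun y => f y / ω' y) y := by
      show ds κ y * _ ≤ _
      rw [e2]
      unfold hd
      nlinarith [mul_le_mul_of_nonneg_right e11 e12,
        mul_le_mul_of_nonneg_right e10 (sq_nonneg (f y / ω' y)), mul_nonneg hm1 e12,
        mul_nonneg hm2 (sq_nonneg (f y / ω' y))]
    calc _ ≤ (m1 + m2) * hd (fun y => f y / ω' y) y := e13
      _ ≤ (m1 + m2) * (c1 * hd f y) := mul_le_mul_of_nonneg_left e8 (by positivity)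
      _ = _ := by ring
  have hc1' : ContinuousOn (fun y => √((κ y) ^ n) * hM P T (thP n p Y y)) C :=
    (h.ds_smooth.continuousOn.mono hCB).mul
      ((hM_cont P hT).comp_continuousOn (h.contTh.mono hCB))
  have hc2' : ContinuousOn (fun y => (m1 + m2) * c1 * hd f y) C :=
    continuousOn_const.mul ((hd_cont isOpen_univ hf.contDiffOn).mono (subset_univ _))
  exact setIntegral_mono_on ((hc1'.integrableOn_compact hC).mono_set hsub)
    ((hc2'.integrableOn_compact hC).mono_set hsub) hUG hpt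

end

end Vale.Agent.P088.R2.H338

end
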