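import Vale.Agent.P088.R2.H338.GE

/-!
# P088, Theorem S, block GI: the functional `E(·, T)`, comparison of `P` and `Q`
-/

set_option linter.all false

open Bundle Manifold MeasureTheory Set Filter Topology Metric
open scoped ContDiff Matrix

noncomputable section

namespace Vale.Agent.P088.R2.H338

open Vale.Agent.P088 Vale.Agent.P088.EYM Vale.Agent.P088.EYM.O
open Vale.Agent.P088.R2.H31 (dj lap dj_congr dj_congr_ev lap_congr dj_mul lap_mul)

universe u

section

variable {n N : ℕ} [NeZero n] {M : Type u} [TopologicalSpace M]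
  [ChartedSpace (EuclideanHalfSpace n) M] [IsManifold (𝓡∂ n) ∞ M]
variable [MeasurableSpace M] {P : One n N M} {p : M} {D : Set (E n)} {X Y : E n → E n}
  {κ : E n → ℝ} {B : Set (E n)}
variable [T2Space M] [CompactSpace M] [BorelSpace M]

theorem lap_cont {f : E n → ℝ} (hf : ContDiff ℝ ∞ f) : Continuous (lap f) := by
  unfold H31.lap
  refine continuous_finsetSum _ fun j _ => ?_
  have h1 : ContDiff ℝ ∞ (dj j f) := (hf.fderiv_right (m := ∞) (by simp)).clm_apply contDiff_const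
  exact ((h1.fderiv_right (m := ∞) (by simp)).clm_apply contDiff_const).continuous

theorem lap_supp {f : E n → ℝ} {y : E n} (hy : y ∉ tsupport f) : lap f y = 0 := by
  have h1 : f =ᶠ[𝓝 y] fun _ => 0 := notMem_tsupport_iff_eventuallyEq.1 hy
  rw [lap_congr h1]
  unfold H31.lap
  refine Finset.sum_eq_zero fun j _ => ?_
  have h2 : dj j (fun _ : E n => (0 : ℝ)) = fun _ => 0 := by
    funext x
    exact H31.dj_const 0 j x
  rw [h2]
  exact H31.dj_const 0 j y

/-- A weighted integral over a compact set of coordinates. -/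
theorem CIn.cs (h : CIn P p D X Y κ B) {C : Set (E n)} (hC : IsCompact C) (hCB : C ⊆ B)
    {g : E n → ℝ} (hg : ContinuousOn g C) {φ : M → Fib N} (hφ : SmS n φ) :
    ∫ y in C, |g y| * ‖φ (thP n p Y y)‖ ≤
      √(∫ y in C, g y ^ 2 / ds κ y) * √(∫ x in thP n p Y '' C, ‖φ x‖ ^ 2 ∂P.μ) := by
  have hd0 : ∀ y ∈ C, 0 < ds κ y := fun y hy => h.ds_pos (hCB hy)
  have hdc : ContinuousOn (ds κ) C := h.ds_smooth.continuousOn.mono hCB
  have hsc : ContinuousOn (fun y => √(ds κ y)) C := hdc.sqrt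
  have hφc : ContinuousOn (fun y => ‖φ (thP n p Y y)‖) C :=
    (hφ.continuous.norm).comp_continuousOn (h.contTh.mono hCB)
  have hCm : MeasurableSet C := hC.isClosed.measurableSet
  have e0 : ∀ y ∈ C, √(ds κ y) ≠ 0 := fun y hy => (Real.sqrt_pos.2 (hd0 y hy)).ne'
  have c1 : ContinuousOn (fun y => |g y| / √(ds κ y)) C := hg.abs.div hsc e0
  have c2 : ContinuousOn (fun y => √(ds κ y) * ‖φ (thP n p Y y)‖) C := hsc.mul hφc
  have h1 := cs_int (μ := volume.restrict C) (f := fun y => |g y| / √(ds κ y))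
    (g := fun y => √(ds κ y) * ‖φ (thP n p Y y)‖) ((c1.pow 2).integrableOn_compact hC)
    ((c2.pow 2).integrableOn_compact hC) ((c1.mul c2).integrableOn_compact hC)
  have e1 : ∫ y in C, |g y| / √(ds κ y) * (√(ds κ y) * ‖φ (thP n p Y y)‖) =
      ∫ y in C, |g y| * ‖φ (thP n p Y y)‖ := by
    refine setIntegral_congr_fun hCm fun y hy => ?_
    have := e0 y hy
    show |g y| / √(ds κ y) * (√(ds κ y) * ‖φ (thP n p Y y)‖) = |g y| * ‖φ (thP n p Y y)‖
    field_simp
  have e2 : ∫ y in C, (|g y| / √(ds κ y)) ^ 2 = ∫ y in C, g y ^ 2 / ds κ y := by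
    refine setIntegral_congr_fun hCm fun y hy => ?_
    show (|g y| / √(ds κ y)) ^ 2 = g y ^ 2 / ds κ y
    rw [div_pow, sq_abs, Real.sq_sqrt (hd0 y hy).le]
  have e3 : ∫ y in C, (√(ds κ y) * ‖φ (thP n p Y y)‖) ^ 2 =
      ∫ x in thP n p Y '' C, ‖φ x‖ ^ 2 ∂P.μ := by
    have hG : Continuous fun x => ‖φ x‖ ^ 2 := hφ.continuous.norm.pow 2
    rw [(h.integral hCm hCB hG).2]
    refine setIntegral_congr_fun hCm fun y hy => ?_
    show (√(ds κ y) * ‖φ (thP n p Y y)‖) ^ 2 = ds κ y * ‖φ (thP n p Y y)‖ ^ 2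
    rw [mul_pow, Real.sq_sqrt (hd0 y hy).le]
  rw [e1, e2, e3] at h1
  exact h1

omit [CompactSpace M] [BorelSpace M] [T2Space M] in
theorem norm_eN (j0 : Fin N) : ‖eN N j0‖ = 1 := by simp [eN]

omit [NeZero n] [CompactSpace M] [BorelSpace M] [T2Space M] in
theorem supp_e {B : Set (E n)} (j0 : Fin N) {f ω' : E n → ℝ} (hp : ∀ y ∈ B, 0 < ω' y)
    (hf : tsupport f ⊆ B) :
    tsupport (fun y => (f y / ω' y) • eN N j0) = tsupport f := by
  refine Subset.antisymm (closure_mono fun y hy => ?_) (closure_mono fun y hy => ?_)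
  · rw [Function.mem_support] at hy ⊢
    intro h0
    exact hy (by rw [h0, zero_div, zero_smul])
  · have hyB : y ∈ B := hf (subset_tsupport _ hy)
    rw [Function.mem_support] at hy ⊢
    intro h0
    rcases smul_eq_zero.1 h0 with h1 | h1
    · exact hy ((div_eq_zero_iff.1 h1).resolve_right (hp y hyB).ne')
    · have h2 := norm_eN (N := N) j0
      rw [h1, norm_zero] at h2
      exact zero_ne_one h2

/-- The functional `E(·, T)`, `T` the extension by zero of `(f / ω) e`. -/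
theorem CIn.func1 {r r' : ℝ} (hr : 0 < r) (hr' : r' < r)
    (h : CIn P p D X Y κ (ball 0 r)) (hA : ∀ x X, P.A.form x X = 0) {z : E n}
    (hz : trS (ball 0 r) z ⊆ {x | 0 < x 0}) (j0 : Fin N) {ω' : E n → ℝ}
    (hω : ContDiffOn ℝ ∞ ω' (ball 0 r)) (hp : ∀ y ∈ ball (0 : E n) r, 0 < ω' y)
    (hw : ∀ y ∈ ball (0 : E n) r, wt κ y = ω' y ^ 2)
    (hl : ∀ y ∈ ball (0 : E n) r, lap ω' y = 0) {f : E n → ℝ} {T : M → Fib N}
    (hf : ContDiff ℝ ∞ f) (hfs : tsupport f ⊆ ball 0 r') (hT : SmS n T)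
    (hTe : ∀ y ∈ ball (0 : E n) r, T (thP n p Y y) = (f y / ω' y) • eN N j0)
    (hTs : tsupport T ⊆ thP n p Y '' tsupport f) {φ : M → Fib N} (hφ : SmS n φ) :
    ‖P.E φ T‖ ≤ ∫ y in closedBall (0 : E n) r', |ω' y * lap f y| * ‖φ (thP n p Y y)‖ := by
  have hKc : IsCompact (closedBall (0 : E n) r') := isCompact_closedBall _ _
  have hKB : closedBall (0 : E n) r' ⊆ ball 0 r := closedBall_subset_ball hr'
  have hfB : tsupport f ⊆ ball 0 r := hfs.trans (ball_subset_ball hr'.le)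
  have hse := supp_e (N := N) j0 hp hfB
  have hE := h.energyT hr hr' hA hz (b := fun y => (f y / ω' y) • eN N j0)
    (by rw [hse]; exact hfs) hT hTe (by rw [hse]; exact hTs) hφ
  have hnorm : ‖P.E φ T‖ = ‖P.E T φ‖ := by
    obtain ⟨-, -, f3, -, -⟩ := TM.fForm n N M P
    rw [f3 T φ hT hφ, RCLike.norm_conj]
  have hF : ∫ y in ball (0 : E n) r, inner ℂ (∑ j, fderiv ℝ (fun y => wt κ y •
      fderiv ℝ (fun y => (f y / ω' y) • eN N j0) y (ev j)) y (ev j)) (φ (thP n p Y y)) =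
      ∫ y in ball (0 : E n) r, inner ℂ ((ω' y * lap f y) • eN N j0) (φ (thP n p Y y)) := by
    refine setIntegral_congr_fun measurableSet_ball fun y hy => ?_
    show inner ℂ (∑ j, fderiv ℝ (fun y => wt κ y •
      fderiv ℝ (fun y => (f y / ω' y) • eN N j0) y (ev j)) y (ev j)) (φ (thP n p Y y)) = _
    rw [lam_eq isOpen_ball hf hfB hω hp hl hw (eN N j0) hy]
  have hF2 : ∫ y in ball (0 : E n) r, inner ℂ ((ω' y * lap f y) • eN N j0) (φ (thP n p Y y)) =
      ∫ y in closedBall (0 : E n) r', inner ℂ ((ω' y * lap f y) • eN N j0)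
        (φ (thP n p Y y)) := by
    refine setIntegral_eq_of_subset_of_forall_diff_eq_zero measurableSet_ball hKB ?_
    intro y hy
    have hyn : y ∉ tsupport f := fun h0 => hy.2 (ball_subset_closedBall (hfs h0))
    rw [lap_supp hyn, mul_zero, zero_smul, inner_zero_left]
  have hφc : ContinuousOn (fun y => ‖φ (thP n p Y y)‖) (closedBall (0 : E n) r') :=
    (hφ.continuous.norm).comp_continuousOn (h.contTh.mono hKB)
  have c1 : ContinuousOn (fun y => |ω' y * lap f y| * ‖φ (thP n p Y y)‖)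
      (closedBall (0 : E n) r') :=
    ((hω.continuousOn.mono hKB).mul (lap_cont hf).continuousOn).abs.mul hφc
  have i1 := c1.integrableOn_compact (μ := volume) hKc
  rw [hnorm, hE, norm_neg, hF, hF2]
  refine norm_integral_le_of_norm_le i1 (Eventually.of_forall fun y => ?_)
  refine (norm_inner_le_norm _ _).trans (le_of_eq ?_)
  rw [norm_smul, norm_eN, mul_one, Real.norm_eq_abs]

omit [CompactSpace M] [BorelSpace M] [T2Space M] in
/-- The weighted norm of `h₂`. -/
theorem CIn.wb {C : Set (E n)} (h : CIn P p D X Y κ B) (hC : IsCompact C) (hCB : C ⊆ B)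
    {ω' : E n → ℝ} (hω : ContinuousOn ω' B) :
    ∃ c : ℝ, 0 ≤ c ∧ ∀ h₂ : E n → ℝ, Continuous h₂ → HasCompactSupport h₂ →
      ∫ y in C, (ω' y * h₂ y) ^ 2 / ds κ y ≤ c * ∫ x, h₂ x ^ 2 := by
  have hdc : ContinuousOn (ds κ) B := h.ds_smooth.continuousOn
  have hwc : ContinuousOn (fun y => ω' y ^ 2 / ds κ y) B :=
    (hω.pow 2).div hdc fun y hy => (h.ds_pos hy).ne'
  obtain ⟨c, hc, hcb⟩ := bdd_abs hC (hwc.mono hCB)
  refine ⟨c, hc, fun h₂ h2c h2k => ?_⟩
  have hCm : MeasurableSet C := hC.isClosed.measurableSet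
  have hc2 : Continuous fun y => h₂ y ^ 2 := h2c.pow 2
  have hk2 : HasCompactSupport fun y => h₂ y ^ 2 := h2k.mono fun y hy => by
    rw [Function.mem_support] at hy ⊢
    intro h0
    exact hy (by rw [h0]; simp)
  have i3 : Integrable (fun y => h₂ y ^ 2) := hc2.integrable_of_hasCompactSupport hk2
  have c3 : ContinuousOn (fun y => (ω' y * h₂ y) ^ 2 / ds κ y) C :=
    (((hω.mono hCB).mul h2c.continuousOn).pow 2).div (hdc.mono hCB)
      fun y hy => (h.ds_pos (hCB hy)).ne'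
  have e1 : ∫ y in C, (ω' y * h₂ y) ^ 2 / ds κ y ≤ ∫ y in C, c * h₂ y ^ 2 := by
    refine setIntegral_mono_on (c3.integrableOn_compact hC) (i3.const_mul c).integrableOn
      hCm fun y hy => ?_
    have h3 := (le_abs_self _).trans (hcb y hy)
    have h4 : (ω' y * h₂ y) ^ 2 / ds κ y = ω' y ^ 2 / ds κ y * h₂ y ^ 2 := by ring
    rw [h4]
    exact mul_le_mul_of_nonneg_right h3 (sq_nonneg _)
  rw [integral_const_mul] at e1
  exact e1.trans (mul_le_mul_of_nonneg_left
    (setIntegral_le_integral i3 (Eventually.of_forall fun y => sq_nonneg _)) hc)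

omit [NeZero n] in
theorem h2_supp {C : Set (E n)} (hC : IsCompact C) {f h₁ h₂ : E n → ℝ} (hf : tsupport f ⊆ C)
    (h1 : tsupport h₁ ⊆ C) (hlap : ∀ x, lap f x = h₁ x + h₂ x)
    (hl : ∀ y, y ∉ tsupport f → lap f y = 0) : HasCompactSupport h₂ := by
  refine HasCompactSupport.of_support_subset_isCompact hC fun y hy => ?_
  by_contra hyK
  rw [Function.mem_support] at hy
  have hyf : y ∉ tsupport f := fun h0 => hyK (hf h0)
  have hy1 : h₁ y = 0 := image_eq_zero_of_notMem_tsupport fun h0 => hyK (h1 h0)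
  have := hlap y
  rw [hl y hyf, hy1, zero_add] at this
  exact hy this.symm

/-- Splitting. -/
theorem CIn.split {C : Set (E n)} (h : CIn P p D X Y κ B) (hC : IsCompact C) (hCB : C ⊆ B)
    {ω' f h₁ h₂ : E n → ℝ} (hω : ContinuousOn ω' B) (hf : ContDiff ℝ ∞ f)
    (h1c : Continuous h₁) (h1s : tsupport h₁ ⊆ C)
    (h2c : Continuous h₂) (hlap : ∀ x, lap f x = h₁ x + h₂ x) {φ : M → Fib N} (hφ : SmS n φ) :
    ∫ y in C, |ω' y * lap f y| * ‖φ (thP n p Y y)‖ ≤
      (∫ y in tsupport h₁, |ω' y * h₁ y| * ‖φ (thP n p Y y)‖) +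
        ∫ y in C, |ω' y * h₂ y| * ‖φ (thP n p Y y)‖ := by
  have hCm : MeasurableSet C := hC.isClosed.measurableSet
  have hφc : ContinuousOn (fun y => ‖φ (thP n p Y y)‖) C :=
    (hφ.continuous.norm).comp_continuousOn (h.contTh.mono hCB)
  have hωc : ContinuousOn ω' C := hω.mono hCB
  have c1 : ContinuousOn (fun y => |ω' y * h₁ y| * ‖φ (thP n p Y y)‖) C :=
    (hωc.mul h1c.continuousOn).abs.mul hφc
  have c2 : ContinuousOn (fun y => |ω' y * h₂ y| * ‖φ (thP n p Y y)‖) C :=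
    (hωc.mul h2c.continuousOn).abs.mul hφc
  have i1 := c1.integrableOn_compact (μ := volume) hC
  have i2 := c2.integrableOn_compact (μ := volume) hC
  have c0 : ContinuousOn (fun y => |ω' y * lap f y| * ‖φ (thP n p Y y)‖) C :=
    (hωc.mul (lap_cont hf).continuousOn).abs.mul hφc
  have b2 : ∫ y in C, |ω' y * h₁ y| * ‖φ (thP n p Y y)‖ =
      ∫ y in tsupport h₁, |ω' y * h₁ y| * ‖φ (thP n p Y y)‖ := by
    refine setIntegral_eq_of_subset_of_forall_diff_eq_zero hCm h1s ?_
    intro y hy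
    rw [image_eq_zero_of_notMem_tsupport hy.2, mul_zero, abs_zero, zero_mul]
  rw [← b2, ← integral_add i1 i2]
  refine setIntegral_mono_on (c0.integrableOn_compact hC) (i1.add i2) hCm fun y hy => ?_
  rw [← add_mul]
  refine mul_le_mul_of_nonneg_right ?_ (norm_nonneg _)
  rw [hlap y, mul_add]
  exact abs_add_le _ _

/-- The functional `E(·, T)`, `T` the extension by zero of `(f / ω) e`. -/
theorem CIn.func {r r' : ℝ} (hr : 0 < r) (hr' : r' < r)
    (h : CIn P p D X Y κ (ball 0 r)) (hA : ∀ x X, P.A.form x X = 0) {z : E n}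
    (hz : trS (ball 0 r) z ⊆ {x | 0 < x 0}) (j0 : Fin N) {ω' : E n → ℝ}
    (hω : ContDiffOn ℝ ∞ ω' (ball 0 r)) (hp : ∀ y ∈ ball (0 : E n) r, 0 < ω' y)
    (hw : ∀ y ∈ ball (0 : E n) r, wt κ y = ω' y ^ 2)
    (hl : ∀ y ∈ ball (0 : E n) r, lap ω' y = 0) :
    ∃ c : ℝ, 0 ≤ c ∧ ∀ (f h₁ h₂ : E n → ℝ) (T : M → Fib N), ContDiff ℝ ∞ f →
      tsupport f ⊆ ball 0 r' → Continuous h₁ → HasCompactSupport h₁ → tsupport h₁ ⊆ ball 0 r' →
      Continuous h₂ → (∀ x, lap f x = h₁ x + h₂ x) → SmS n T →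
      (∀ y ∈ ball (0 : E n) r, T (thP n p Y y) = (f y / ω' y) • eN N j0) →
      tsupport T ⊆ thP n p Y '' tsupport f →
      ∃ a : ℝ, 0 ≤ a ∧ ∀ φ : M → Fib N, SmS n φ →
        ‖P.E φ T‖ ≤ a * √(∫ x in thP n p Y '' tsupport h₁, ‖φ x‖ ^ 2 ∂P.μ) +
          √(c * ∫ x, h₂ x ^ 2) * √(∫ x, ‖φ x‖ ^ 2 ∂P.μ) := by
  haveI := (TM.fInt n N M P).1
  have hKc : IsCompact (closedBall (0 : E n) r') := isCompact_closedBall _ _
  have hKB : closedBall (0 : E n) r' ⊆ ball 0 r := closedBall_subset_ball hr'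
  obtain ⟨c, hc, hcb⟩ := h.wb hKc hKB hω.continuousOn
  refine ⟨c, hc, fun f h₁ h₂ T hf hfs h1c h1k h1s h2c hlap hT hTe hTs => ?_⟩
  have hK1K : tsupport h₁ ⊆ closedBall (0 : E n) r' := h1s.trans ball_subset_closedBall
  have h2k := h2_supp hKc (hfs.trans ball_subset_closedBall) hK1K hlap fun y hy => lap_supp hy
  refine ⟨√(∫ y in tsupport h₁, (ω' y * h₁ y) ^ 2 / ds κ y), Real.sqrt_nonneg _,
    fun φ hφ => ?_⟩
  have b1 := h.func1 hr hr' hA hz j0 hω hp hw hl hf hfs hT hTe hTs hφ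
  have b2 := h.split hKc hKB hω.continuousOn hf h1c hK1K h2c hlap hφ
  have hωc : ContinuousOn ω' (closedBall (0 : E n) r') := hω.continuousOn.mono hKB
  have b3 := h.cs h1k.isCompact (hK1K.trans hKB) (g := fun y => ω' y * h₁ y)
    ((hωc.mono hK1K).mul h1c.continuousOn) hφ
  have b4 := h.cs hKc hKB (g := fun y => ω' y * h₂ y) (hωc.mul h2c.continuousOn) hφ
  have b5 := hcb h₂ h2c h2k
  have hG : Continuous fun x => ‖φ x‖ ^ 2 := hφ.continuous.norm.pow 2
  have b6 : ∫ x in thP n p Y '' closedBall (0 : E n) r', ‖φ x‖ ^ 2 ∂P.μ ≤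
      ∫ x, ‖φ x‖ ^ 2 ∂P.μ :=
    setIntegral_le_integral (integrable_of_continuous hG)
      (Eventually.of_forall fun y => sq_nonneg _)
  refine (b1.trans b2).trans (add_le_add b3 (b4.trans ?_))
  exact mul_le_mul (Real.sqrt_le_sqrt b5) (Real.sqrt_le_sqrt b6)
    (Real.sqrt_nonneg _) (Real.sqrt_nonneg _)

/-! ### Conformal metrics -/

theorem gram_conf {P Q : One n N M} {c : M → ℝ}
    (hc : ∀ (x : M) (v w : TangentSpace (𝓡∂ n) x), Q.g.inner x v w = c x * P.g.inner x v w)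
    (p x : M) : gram Q.g p x = c x • gram P.g p x := by
  ext i j
  exact hc x _ _

/-- The energy of `Q` is bounded by the energy of `P`. -/
theorem ek_comp {P Q : One n N M} {c : M → ℝ} (hcc : Continuous c) (hcp : ∀ x, 0 < c x)
    (hPA : ∀ x X, P.A.form x X = 0) (hQA : ∀ x X, Q.A.form x X = 0)
    (hc : ∀ (x : M) (v w : TangentSpace (𝓡∂ n) x), Q.g.inner x v w = c x * P.g.inner x v w) :
    ∃ C : ℝ, 0 ≤ C ∧ ∀ (u : M → Fib N) (K : Set M), SmS n u → MeasurableSet K →
      (EK Q K u u).re ≤ C * (EK P K u u).re := by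
  have hrc := continuous_rho P.g Q.g
  have h1 : Continuous fun x => rho P.g Q.g x * (c x)⁻¹ :=
    hrc.mul (hcc.inv₀ fun x => (hcp x).ne')
  obtain ⟨C, hC⟩ := isCompact_univ.exists_bound_of_continuousOn h1.continuousOn
  have hpair : ∀ (u : M → Fib N) (x : M), (pairing Q.g Q.A u u x).re =
      (c x)⁻¹ * (pairing P.g P.A u u x).re := by
    intro u x
    have e1 : ∀ X : TangentSpace (𝓡∂ n) x, cov Q.A u x X = cov P.A u x X := by
      intro X
      unfold cov
      rw [hPA, hQA]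
    have e2 : (gram Q.g x x)⁻¹ = (c x)⁻¹ • (gram P.g x x)⁻¹ := by
      rw [gram_conf hc]
      refine Matrix.inv_eq_right_inv ?_
      rw [smul_mul_smul_comm, mul_inv_cancel₀ (hcp x).ne', one_smul,
        Matrix.mul_nonsing_inv _ (isUnit_iff_ne_zero.2
          (gram_det_pos P.g (mem_extChartAt_source x)).ne')]
    have e3 : pairing Q.g Q.A u u x = ((c x)⁻¹ : ℝ) * pairing P.g P.A u u x := by
      unfold pairing
      simp only [e1, e2, Matrix.smul_apply, smul_eq_mul]
      rw [Finset.mul_sum]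
      refine Finset.sum_congr rfl fun i _ => ?_
      rw [Finset.mul_sum]
      refine Finset.sum_congr rfl fun j _ => ?_
      push_cast
      ring
    rw [e3, Complex.re_ofReal_mul]
  refine ⟨max C 0, le_max_right _ _, fun u K hu hK => ?_⟩
  haveI := (TM.fInt n N M P).1
  have hPc : Continuous fun x => (pairing P.g P.A u u x).re :=
    Complex.continuous_re.comp (continuous_pairing P.g P.A hu hu)
  rw [ek_re Q K hu, ek_re P K hu, withDensity_rho P Q, restrict_withDensity hK,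
    integral_withDensity_eq_integral_toReal_smul₀, ← integral_const_mul]
  · refine integral_mono ?_ ?_ fun x => ?_
    · have h2 : Continuous fun x => (ENNReal.ofReal (rho P.g Q.g x)).toReal •
          (pairing Q.g Q.A u u x).re := by
        have h3 : (fun x => (ENNReal.ofReal (rho P.g Q.g x)).toReal •
          (pairing Q.g Q.A u u x).re) = fun x => rho P.g Q.g x •
          (pairing Q.g Q.A u u x).re := by
          funext x
          rw [ENNReal.toReal_ofReal (rho_pos P.g Q.g x).le]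
        rw [h3]
        exact hrc.smul (Complex.continuous_re.comp (continuous_pairing Q.g Q.A hu hu))
      exact (integrable_of_continuous h2).integrableOn
    · exact ((integrable_of_continuous hPc).integrableOn).const_mul _
    · show (ENNReal.ofReal (rho P.g Q.g x)).toReal • (pairing Q.g Q.A u u x).re ≤
        max C 0 * (pairing P.g P.A u u x).re
      rw [ENNReal.toReal_ofReal (rho_pos P.g Q.g x).le, hpair u x, smul_eq_mul, ← mul_assoc]
      refine mul_le_mul_of_nonneg_right ?_ (cForm_pairing_nonneg P.g P.A u x)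
      exact ((le_abs_self _).trans (hC x (mem_univ x))).trans (le_max_left _ _)
  · exact hrc.measurable.ennreal_ofReal.aemeasurable
  · exact Eventually.of_forall fun x => ENNReal.ofReal_lt_top

end

end Vale.Agent.P088.R2.H338

end
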