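import Vale.Agent.P088.R2.H338.GF

/-!
# P088, Theorem S, block GI: the interior step
-/

set_option linter.all false

open Bundle Manifold MeasureTheory Set Filter Topology Metric
open scoped ContDiff Matrix

noncomputable section

namespace Vale.Agent.P088.R2.H338

open Vale.Agent.P088 Vale.Agent.P088.EYM Vale.Agent.P088.EYM.O
open Vale.Agent.P088.R2.H31 (dj lap dj_congr dj_congr_ev lap_congr dj_mul lap_mul)

universe u

section

variable {n N : ℕ} [NeZero n] {M : Type u} [TopologicalSpace M]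
  [ChartedSpace (EuclideanHalfSpace n) M] [IsManifold (𝓡∂ n) ∞ M]
variable [MeasurableSpace M] {P Q : One n N M} {p : M} {D : Set (E n)} {X Y : E n → E n}
  {κ κ' : E n → ℝ} {B : Set (E n)}
variable [T2Space M] [CompactSpace M] [BorelSpace M]

/-- The parallelogram inequality. -/
theorem fk_para (P : One n N M) (K : Set M) {a b : M → Fib N} (ha : SmS n a) (hb : SmS n b) :
    (FK P K (a - b) (a - b)).re ≤ 2 * (FK P K a a).re + 2 * (FK P K b b).re := by
  have hb' : SmS n ((-1 : ℂ) • b) := crungea_smul hb (-1)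
  have key : ∀ (s : ℂ) (hs : s = 1 ∨ s = -1), (FK P K (a + s • b) (a + s • b)).re =
      (FK P K a a).re + 2 * (s * FK P K a b).re + (FK P K b b).re := by
    intro s hs
    have hsb : SmS n (s • b) := crungea_smul hb s
    have hab : SmS n (a + s • b) := ha.add hsb
    have e1 : FK P K (a + s • b) a = (starRingEnd ℂ) (FK P K a a + s * FK P K a b) := by
      rw [fk_conj P K a (a + s • b), fk_add P K ha ha hsb, fk_smul P K s ha hb]
    have e2 : FK P K (a + s • b) b = (starRingEnd ℂ) (FK P K b a + s * FK P K b b) := by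
      rw [fk_conj P K b (a + s • b), fk_add P K hb ha hsb, fk_smul P K s hb hb]
    rw [fk_add P K hab ha hsb, fk_smul P K s hab hb, e1, e2, fk_conj P K a b]
    rcases hs with rfl | rfl
    · simp only [one_mul, map_add, Complex.add_re, Complex.conj_re, Complex.conj_conj]
      ring
    · simp only [map_add, map_mul, map_neg, map_one, neg_mul, one_mul, Complex.add_re,
        Complex.neg_re, Complex.conj_re, Complex.conj_conj, mul_add, mul_neg, neg_neg]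
      ring
  have h1 := key 1 (Or.inl rfl)
  have h2 := key (-1) (Or.inr rfl)
  have e3 : a + (-1 : ℂ) • b = a - b := by
    rw [neg_smul, one_smul, sub_eq_add_neg]
  rw [e3] at h2
  have h3 : 0 ≤ (FK P K (a + (1 : ℂ) • b) (a + (1 : ℂ) • b)).re :=
    fk_nonneg P K (ha.add (crungea_smul hb 1))
  rw [h1] at h3
  rw [h2]
  simp only [one_mul, neg_mul, Complex.neg_re] at h3 ⊢
  linarith

theorem ek_le_fk (P : One n N M) (K : Set M) {a : M → Fib N} (ha : SmS n a) :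
    (EK P K a a).re ≤ (FK P K a a).re := by
  haveI := (TM.fInt n N M P).1
  rw [ek_re P K ha, fk_hM P K ha]
  have h1 : Continuous fun x => (pairing P.g P.A a a x).re :=
    Complex.continuous_re.comp (continuous_pairing P.g P.A ha ha)
  exact integral_mono (integrable_of_continuous h1).integrableOn
    (integrable_of_continuous (hM_cont P ha)).integrableOn
    fun x => le_add_of_nonneg_right (sq_nonneg _)

omit [CompactSpace M] [BorelSpace M] [T2Space M] in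
theorem hd_add_le {a b : E n → ℝ} {y : E n} (ha : DifferentiableAt ℝ a y)
    (hb : DifferentiableAt ℝ b y) :
    hd (fun x => a x - b x) y ≤ 2 * hd a y + 2 * hd b y := by
  unfold hd
  have e1 : ∑ j, dj j (fun x => a x - b x) y ^ 2 ≤
      2 * ∑ j, dj j a y ^ 2 + 2 * ∑ j, dj j b y ^ 2 := by
    rw [Finset.mul_sum, Finset.mul_sum, ← Finset.sum_add_distrib]
    refine Finset.sum_le_sum fun j _ => ?_
    rw [H31.dj_sub ha hb]
    nlinarith [sq_nonneg (dj j a y + dj j b y)]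
  nlinarith [sq_nonneg (a y + b y)]

theorem hd_zero {w : E n → ℝ} {y : E n} (h : w =ᶠ[𝓝 y] fun _ => 0) : hd w y = 0 := by
  unfold hd
  rw [h.self_of_nhds]
  have e1 : ∀ j, dj j w y = 0 := fun j => by
    rw [dj_congr h j]
    exact H31.dj_const 0 j y
  simp [e1]

/-- `v - f`. -/
theorem CIn.close (h : CIn P p D X Y κ B) (hA : ∀ x X, P.A.form x X = 0) {z : E n}
    (hz : trS B z ⊆ {x | 0 < x 0}) (j0 : Fin N) {C : Set (E n)} (hC : IsCompact C) (hCB : C ⊆ B)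
    {ω' : E n → ℝ} (hω : ContDiffOn ℝ ∞ ω' B) (hp : ∀ y ∈ B, 0 < ω' y) :
    ∃ c : ℝ, 0 ≤ c ∧ ∀ (f : E n → ℝ) (T u : M → Fib N) (S : Set (E n)) (K : Set M),
      ContDiff ℝ ∞ f → SmS n T → SmS n u → MeasurableSet S → S ⊆ C → thP n p Y '' S ⊆ K →
      (∀ y ∈ B, T (thP n p Y y) = (f y / ω' y) • eN N j0) →
      ∫ y in S, (ω' y * cmp j0 (u (thP n p Y y)) - f y) ^ 2 ≤
        c * (FK P K (T - u) (T - u)).re := by
  obtain ⟨c1, hc1, h1⟩ := h.H1_le hA hz j0 hC hCB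
  obtain ⟨c2, hc2, h2⟩ := bdd_abs hC (hω.continuousOn.mono hCB)
  refine ⟨c2 ^ 2 * c1, by positivity, fun f T u S K hf hT hu hS hSC hSK hTe => ?_⟩
  have hTu : SmS n (T - u) := hT.sub hu
  have h3 := h1 (T - u) S K hTu hS hSC hSK
  have hcd : ContinuousOn (hd (fun y => cmp j0 ((T - u) (thP n p Y y)))) C :=
    (hd_cont h.opB ((cmp j0).contDiff.comp_contDiffOn (h.smU hTu))).mono hCB
  have hcv : ContinuousOn (fun y => (ω' y * cmp j0 (u (thP n p Y y)) - f y) ^ 2) C :=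
    (((hω.continuousOn.mono hCB).mul ((cmp j0).continuous.comp_continuousOn
      ((h.smU hu).continuousOn.mono hCB))).sub hf.continuous.continuousOn).pow 2
  have h4 : ∀ y ∈ S, (ω' y * cmp j0 (u (thP n p Y y)) - f y) ^ 2 ≤
      c2 ^ 2 * hd (fun y => cmp j0 ((T - u) (thP n p Y y))) y := by
    intro y hy
    have hyB : y ∈ B := hCB (hSC hy)
    have e1 : cmp j0 ((T - u) (thP n p Y y)) = f y / ω' y - cmp j0 (u (thP n p Y y)) := by
      show cmp j0 (T (thP n p Y y) - u (thP n p Y y)) = _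
      rw [map_sub, hTe y hyB, cmp_eN]
    have e2 : (ω' y * cmp j0 (u (thP n p Y y)) - f y) ^ 2 =
        ω' y ^ 2 * (cmp j0 ((T - u) (thP n p Y y))) ^ 2 := by
      rw [e1, ← mul_pow, mul_sub, mul_div_cancel₀ _ (hp y hyB).ne']
      ring
    rw [e2]
    have e3 : ω' y ^ 2 ≤ c2 ^ 2 := by
      rw [← sq_abs]
      exact pow_le_pow_left₀ (abs_nonneg _) (h2 y (hSC hy)) 2
    have e4 : (cmp j0 ((T - u) (thP n p Y y))) ^ 2 ≤
        hd (fun y => cmp j0 ((T - u) (thP n p Y y))) y :=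
      le_add_of_nonneg_right (Finset.sum_nonneg fun j _ => sq_nonneg _)
    exact mul_le_mul e3 e4 (sq_nonneg _) (sq_nonneg _)
  calc ∫ y in S, (ω' y * cmp j0 (u (thP n p Y y)) - f y) ^ 2
      ≤ ∫ y in S, c2 ^ 2 * hd (fun y => cmp j0 ((T - u) (thP n p Y y))) y :=
        setIntegral_mono_on ((hcv.integrableOn_compact hC).mono_set hSC)
          (((hcd.integrableOn_compact hC).mono_set hSC).const_mul _) hS h4
    _ = c2 ^ 2 * ∫ y in S, hd (fun y => cmp j0 ((T - u) (thP n p Y y))) y :=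
        integral_const_mul _ _
    _ ≤ c2 ^ 2 * (c1 * (FK P K (T - u) (T - u)).re) :=
        mul_le_mul_of_nonneg_left h3 (sq_nonneg _)
    _ = _ := by ring

/-- The `H¹` norm of `w = ω₂ u₂ - ω₁ u₁`. -/
theorem CIn.wbound [ConnectedSpace M] (h : CIn P p D X Y κ B) (h' : CIn Q p D X Y κ' B)
    (hA : ∀ x X, P.A.form x X = 0) (hA' : ∀ x X, Q.A.form x X = 0) {z : E n}
    (hz : trS B z ⊆ {x | 0 < x 0}) (j0 : Fin N) {C U : Set (E n)} (hC : IsCompact C) (hCB : C ⊆ B)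
    (hU : IsOpen U) (hUC : U ⊆ C) {ω₁ ω₂ : E n → ℝ} (hω₁ : ContDiffOn ℝ ∞ ω₁ B)
    (hω₂ : ContDiffOn ℝ ∞ ω₂ B) {c : M → ℝ} (hcc : Continuous c) (hcp : ∀ x, 0 < c x)
    (hc : ∀ (x : M) (v w : TangentSpace (𝓡∂ n) x), Q.g.inner x v w = c x * P.g.inner x v w)
    {V : Set M} (hV : IsOpen V) (hωV : ∀ y ∈ B, thP n p Y y ∈ V → ω₂ y = ω₁ y)
    (hb : ((𝓡∂ n).boundary M).Nonempty) :
    ∃ k : ℝ, 0 ≤ k ∧ ∀ f u₁ u₂ : M → Fib N, P.Harm f u₁ → Q.Harm f u₂ →
      (∀ x ∈ V, u₁ x = u₂ x) →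
      ∫ y in U, hd (fun y => ω₂ y * cmp j0 (u₂ (thP n p Y y)) -
        ω₁ y * cmp j0 (u₁ (thP n p Y y))) y ≤ k * (FK P Vᶜ u₁ u₁).re := by
  obtain ⟨c1, hc1, h1⟩ := h.H1_le hA hz j0 hC hCB
  obtain ⟨c2, hc2, h2⟩ := h'.H1_le hA' hz j0 hC hCB
  obtain ⟨c3, hc3, h3⟩ := mulH1 h.opB hC hCB hω₂
  obtain ⟨c4, hc4, h4⟩ := mulH1 h.opB hC hCB (hω₂.sub hω₁)
  obtain ⟨c5, hc5, h5⟩ := trL2 Q hb
  obtain ⟨c6, hc6, h6⟩ := ek_comp hcc hcp hA hA' hc
  refine ⟨2 * c4 * c1 + 2 * c3 * (c2 * ((1 + c5) * c6)), by positivity,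
    fun f u₁ u₂ hu₁ hu₂ hu => ?_⟩
  set G : Set (E n) := {y | y ∈ B ∧ thP n p Y y ∈ V} with hG
  have hGo : IsOpen G := h.contTh.isOpen_inter_preimage h.opB hV
  have hUB : U ⊆ B := hUC.trans hCB
  have hs1 : SmS n u₁ := hu₁.smooth
  have hs2 : SmS n u₂ := hu₂.smooth
  have hs3 : SmS n (u₁ - u₂) := hs1.sub hs2
  set w : E n → ℝ := fun y => ω₂ y * cmp j0 (u₂ (thP n p Y y)) -
    ω₁ y * cmp j0 (u₁ (thP n p Y y)) with hw
  set a₁ : E n → ℝ := fun y => cmp j0 (u₁ (thP n p Y y)) with ha₁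
  set az : E n → ℝ := fun y => cmp j0 ((u₁ - u₂) (thP n p Y y)) with haz
  have sm1 : ContDiffOn ℝ ∞ a₁ B := (cmp j0).contDiff.comp_contDiffOn (h.smU hs1)
  have sm2 : ContDiffOn ℝ ∞ (fun y => cmp j0 (u₂ (thP n p Y y))) B :=
    (cmp j0).contDiff.comp_contDiffOn (h.smU hs2)
  have smz : ContDiffOn ℝ ∞ az B := (cmp j0).contDiff.comp_contDiffOn (h.smU hs3)
  have smw : ContDiffOn ℝ ∞ w B := (hω₂.mul sm2).sub (hω₁.mul sm1)
  have hwe : w = fun y => (fun x => (ω₂ x - ω₁ x) * a₁ x) y - (fun x => ω₂ x * az x) y := by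
    funext y
    have e1 : az y = a₁ y - cmp j0 (u₂ (thP n p Y y)) := by
      show cmp j0 (u₁ (thP n p Y y) - u₂ (thP n p Y y)) = _
      rw [map_sub]
    show ω₂ y * cmp j0 (u₂ (thP n p Y y)) - ω₁ y * a₁ y =
      (ω₂ y - ω₁ y) * a₁ y - ω₂ y * az y
    rw [e1]
    ring
  -- off `G`
  have hwG : ∀ y ∈ G, hd w y = 0 := by
    intro y hy
    refine hd_zero ?_
    filter_upwards [hGo.mem_nhds hy] with x hx
    show ω₂ x * cmp j0 (u₂ (thP n p Y x)) - ω₁ x * cmp j0 (u₁ (thP n p Y x)) = 0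
    rw [hωV x hx.1 hx.2, hu _ hx.2, sub_self]
  have e1 : ∫ y in U, hd w y = ∫ y in U \ G, hd w y := by
    refine setIntegral_eq_of_subset_of_forall_diff_eq_zero hU.measurableSet diff_subset ?_
    intro y hy
    by_contra hne
    exact hy.2 ⟨hy.1, fun hyG => hne (hwG y hyG)⟩
  have hUG : MeasurableSet (U \ G) := hU.measurableSet.diff hGo.measurableSet
  have hsub : U \ G ⊆ C := diff_subset.trans hUC
  have him : thP n p Y '' (U \ G) ⊆ Vᶜ := by
    rintro _ ⟨y, hy, rfl⟩ hyV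
    exact hy.2 ⟨hUB hy.1, hyV⟩
  have hpt : ∀ y ∈ U \ G, hd w y ≤ 2 * c4 * hd a₁ y + 2 * c3 * hd az y := by
    intro y hy
    have hyC := hsub hy
    have hyB := hCB hyC
    have d1 : DifferentiableAt ℝ a₁ y :=
      (sm1.contDiffAt (h.opB.mem_nhds hyB)).differentiableAt (by simp)
    have dz : DifferentiableAt ℝ az y :=
      (smz.contDiffAt (h.opB.mem_nhds hyB)).differentiableAt (by simp)
    have dm : DifferentiableAt ℝ (fun x => (ω₂ x - ω₁ x) * a₁ x) y :=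
      ((((hω₂.sub hω₁).mul sm1).contDiffAt (h.opB.mem_nhds hyB))).differentiableAt (by simp)
    have dn : DifferentiableAt ℝ (fun x => ω₂ x * az x) y :=
      ((hω₂.mul smz).contDiffAt (h.opB.mem_nhds hyB)).differentiableAt (by simp)
    have f1 := hd_add_le dm dn
    have f2 := h4 a₁ y hyC d1
    have f3 := h3 az y hyC dz
    rw [hwe]
    linarith
  have i1 : IntegrableOn (hd w) (U \ G) :=
    (((hd_cont h.opB smw).mono hCB).integrableOn_compact hC).mono_set hsub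
  have i2 : IntegrableOn (hd a₁) (U \ G) :=
    (((hd_cont h.opB sm1).mono hCB).integrableOn_compact hC).mono_set hsub
  have i3 : IntegrableOn (hd az) (U \ G) :=
    (((hd_cont h.opB smz).mono hCB).integrableOn_compact hC).mono_set hsub
  have e2 : ∫ y in U \ G, hd w y ≤
      2 * c4 * (∫ y in U \ G, hd a₁ y) + 2 * c3 * ∫ y in U \ G, hd az y := by
    rw [← integral_const_mul, ← integral_const_mul,
      ← integral_add (i2.const_mul _) (i3.const_mul _)]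
    exact setIntegral_mono_on i1 ((i2.const_mul _).add (i3.const_mul _)) hUG hpt
  have e3 := h1 u₁ (U \ G) Vᶜ hs1 hUG hsub him
  have e4 := h2 (u₁ - u₂) (U \ G) Vᶜ hs3 hUG hsub him
  have hbd : ∀ x ∈ (𝓡∂ n).boundary M, u₁ x = f x := fun x hx => hu₁.boundary x hx
  have e5 := fk_le Q Vᶜ hs3
  have e6 := trDiff Q hV hs1 hbd hu₂ hu
  have e7 := h5 f u₁ u₂ V hV hs1 hbd hu₂ hu
  have e8 := h6 u₁ Vᶜ hs1 hV.measurableSet.compl
  have e9 := ek_le_fk P Vᶜ hs1
  have e10 : ∫ x, ‖(u₁ - u₂) x‖ ^ 2 ∂Q.μ = ∫ x, ‖u₁ x - u₂ x‖ ^ 2 ∂Q.μ := rfl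
  rw [e10] at e5
  have e11 : (FK Q Vᶜ (u₁ - u₂) (u₁ - u₂)).re ≤ (1 + c5) * (c6 * (FK P Vᶜ u₁ u₁).re) := by
    have g1 : (EK Q Vᶜ u₁ u₁).re ≤ c6 * (FK P Vᶜ u₁ u₁).re :=
      e8.trans (mul_le_mul_of_nonneg_left e9 hc6)
    calc (FK Q Vᶜ (u₁ - u₂) (u₁ - u₂)).re ≤ (1 + c5) * (EK Q Vᶜ u₁ u₁).re := by linarith
      _ ≤ (1 + c5) * (c6 * (FK P Vᶜ u₁ u₁).re) :=
        mul_le_mul_of_nonneg_left g1 (by positivity)
  rw [e1]
  calc ∫ y in U \ G, hd w y
      ≤ 2 * c4 * (∫ y in U \ G, hd a₁ y) + 2 * c3 * ∫ y in U \ G, hd az y := e2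
    _ ≤ 2 * c4 * (c1 * (FK P Vᶜ u₁ u₁).re) +
        2 * c3 * (c2 * ((1 + c5) * (c6 * (FK P Vᶜ u₁ u₁).re))) := by
        refine add_le_add (mul_le_mul_of_nonneg_left e3 (by positivity))
          (mul_le_mul_of_nonneg_left (e4.trans (mul_le_mul_of_nonneg_left e11 hc2))
            (by positivity))
    _ = _ := by ring

end

end Vale.Agent.P088.R2.H338

end
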