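import Vale.Agent.P088.R2.H338.GG

/-!
# P088, Theorem S, block GI: the interior step, core form
-/

set_option linter.all false

open Bundle Manifold MeasureTheory Set Filter Topology Metric
open scoped ContDiff Matrix

noncomputable section

namespace Vale.Agent.P088.R2.H338

open Vale.Agent.P088 Vale.Agent.P088.EYM Vale.Agent.P088.EYM.O
open Vale.Agent.P088.R2.H31 (dj lap dj_congr dj_congr_ev lap_congr dj_mul lap_mul)

universe u

/-- The interior step. -/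
theorem giCore (n N : ℕ) [NeZero n] (M : Type u) [TopologicalSpace M]
    [ChartedSpace (EuclideanHalfSpace n) M] [IsManifold (𝓡∂ n) ∞ M] [T2Space M] [CompactSpace M]
    [ConnectedSpace M] [MeasurableSpace M] [BorelSpace M] (P Q : One n N M) (Γ V : Set M)
    (c : M → ℝ) (p : M) (D : Set (E n)) (X Y : E n → E n) (κ κ' ω₁ ω₂ : E n → ℝ) (R r : ℝ)
    (hN : 0 < N) (hR : 0 < R) (hRr : R < r) (hPA : ∀ x X, P.A.form x X = 0)
    (hQA : ∀ x X, Q.A.form x X = 0) (hΓ : RelBd n Γ) (hV : IsOpen V) (hVp : IsPreconnected V)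
    (hVΓ : (V ∩ Γ).Nonempty) (hS : SameD P Q Γ) (hcc : Continuous c) (hcp : ∀ x, 0 < c x)
    (hc : ∀ (x : M) (v w : TangentSpace (𝓡∂ n) x), Q.g.inner x v w = c x * P.g.inner x v w)
    (hcV : ∀ x ∈ V, c x = 1) (h : CIn P p D X Y κ (ball 0 r)) (h' : CIn Q p D X Y κ' (ball 0 r))
    (hω₁ : ContDiffOn ℝ ∞ ω₁ (ball 0 r)) (hω₂ : ContDiffOn ℝ ∞ ω₂ (ball 0 r))
    (hp₁ : ∀ y ∈ ball (0 : E n) r, 0 < ω₁ y) (hp₂ : ∀ y ∈ ball (0 : E n) r, 0 < ω₂ y)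
    (hw₁ : ∀ y ∈ ball (0 : E n) r, wt κ y = ω₁ y ^ 2)
    (hw₂ : ∀ y ∈ ball (0 : E n) r, wt κ' y = ω₂ y ^ 2)
    (hl : ∀ y ∈ ball (0 : E n) r, lap ω₁ y = 0)
    (hωV : ∀ y ∈ ball (0 : E n) r, thP n p Y y ∈ V → ω₂ y = ω₁ y) :
    H31.Step n R {y | y ∈ ball (0 : E n) r ∧ thP n p Y y ∈ V} (fun y => lap ω₂ y / ω₂ y) := by
  have hr : 0 < r := hR.trans hRr
  -- translation
  obtain ⟨z, hz⟩ : ∃ z : E n, trS (ball 0 r) z ⊆ {x | 0 < x 0} := by
    refine ⟨(2 * r) • ev 0, fun x hx => ?_⟩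
    have h1 : x - (2 * r) • ev 0 ∈ ball (0 : E n) r := hx
    rw [mem_ball_zero_iff] at h1
    have h2 : |(x - (2 * r) • (ev 0 : E n)) 0| ≤ ‖x - (2 * r) • (ev 0 : E n)‖ := by
      have := PiLp.norm_apply_le (x - (2 * r) • (ev 0 : E n)) 0
      rwa [Real.norm_eq_abs] at this
    simp only [PiLp.sub_apply, PiLp.smul_apply, ev_apply, if_true, smul_eq_mul, mul_one] at h2
    have h3 := (abs_lt.1 (h2.trans_lt h1)).1
    show 0 < x 0
    linarith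
  have hΓn : Γ.Nonempty := hVΓ.mono inter_subset_right
  have hbn : ((𝓡∂ n).boundary M).Nonempty := by
    obtain ⟨O, -, rfl⟩ := hΓ
    exact hΓn.mono inter_subset_right
  obtain ⟨⟨hsP, hsQ, -⟩, -⟩ :=
    Vale.Agent.P088.EYM.cData TM.fUniq TM.fForm n N M P Q Γ hΓ hΓn hS
  set j0 : Fin N := ⟨0, hN⟩ with hj0
  set C : Set (E n) := closedBall 0 R with hCd
  have hC : IsCompact C := isCompact_closedBall _ _
  have hCB : C ⊆ ball 0 r := closedBall_subset_ball hRr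
  have hUC : ball (0 : E n) R ⊆ C := ball_subset_closedBall
  set G : Set (E n) := {y | y ∈ ball (0 : E n) r ∧ thP n p Y y ∈ V} with hG
  have hGo : IsOpen G := h.contTh.isOpen_inter_preimage h.opB hV
  obtain ⟨C1, hC1, hrun⟩ := runQ n N M P Γ hΓ hΓn hsP
  obtain ⟨C2, hC2, hclose⟩ := h.close hPA hz j0 hC hCB hω₁ hp₁
  obtain ⟨C3, hC3, hwb⟩ := h.wbound h' hPA hQA hz j0 hC hCB isOpen_ball hUC hω₁ hω₂ hcc hcp hc
    hV hωV hbn
  obtain ⟨C4, hC4, hfkt⟩ := h.FKT hPA hz j0 hC hCB isOpen_ball.measurableSet hUC hω₁ hp₁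
  obtain ⟨C5, hC5, hfun⟩ := h.func hr hRr hPA hz j0 hω₁ hp₁ hw₁ hl
  refine ⟨C2 * C1 * C5 + 2 * C3 * C1 * C5 + 2 * C3 * C4, by positivity, ?_⟩
  intro f h₁ h₂ hf hfc hfs h1c h1k h1s h2c hlap ε hε
  have hfB : tsupport f ⊆ ball 0 r := hfs.trans (ball_subset_ball hRr.le)
  -- the section `T`
  have hbsm : ContDiff ℝ ∞ (fun y => (f y / ω₁ y) • eN N j0) :=
    (quot_smooth isOpen_ball hf hfB hω₁ hp₁).smul contDiff_const
  have hse := supp_e (N := N) j0 hp₁ hfB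
  have hbc : HasCompactSupport (fun y => (f y / ω₁ y) • eN N j0) := by
    unfold HasCompactSupport
    rw [hse]
    exact hfc
  obtain ⟨T, hT, hTe, -, hTs, hTb⟩ := h.ext hbsm hbc (by rw [hse]; exact hfB)
  rw [hse] at hTs
  obtain ⟨a, ha, hET⟩ := hfun f h₁ h₂ T hf hfs h1c h1k (h1s.trans inter_subset_right) h2c hlap hT
    hTe hTs
  have hI0 : 0 ≤ ∫ x, h₂ x ^ 2 := integral_nonneg fun x => sq_nonneg _
  have hSc : IsCompact (thP n p Y '' tsupport h₁) := h1k.isCompact.image_of_continuousOn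
    (h.contTh.mono ((h1s.trans inter_subset_right).trans (ball_subset_ball hRr.le)))
  have hSV : thP n p Y '' tsupport h₁ ⊆ V ∩ Mi n M := by
    rintro _ ⟨y, hy, rfl⟩
    exact ⟨(h1s hy).1.2, h.mem_int (h1s hy).1.1⟩
  have hε' : 0 < ε / (C2 + 2 * C3 + 1) := by positivity
  obtain ⟨u₁, ⟨f0, hf0, hu₁⟩, hu₁b⟩ := hrun V (thP n p Y '' tsupport h₁) T a
    (√(C5 * ∫ x, h₂ x ^ 2)) hV hVp hVΓ hT hTb hSc hSV ha (Real.sqrt_nonneg _)
    (fun φ hφ _ => hET φ hφ) _ hε'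
  rw [Real.sq_sqrt (by positivity)] at hu₁b
  obtain ⟨u₂, hu₂⟩ := hsQ f0 hf0
  have hmet : ∀ x ∈ V, ∀ v w : TangentSpace (𝓡∂ n) x, Q.g.inner x v w = P.g.inner x v w := by
    intro x hx v w
    rw [hc, hcV x hx, one_mul]
  have hu : ∀ x ∈ V, u₁ x = u₂ x :=
    lS n N M P Q Γ V hΓ hV hVp hVΓ hS (fun x _ X => by rw [hPA, hQA]) hmet (u₁, u₂)
      ⟨f0, hf0, hu₁, hu₂⟩
  have hs1 : SmS n u₁ := hu₁.smooth
  have hs2 : SmS n u₂ := hu₂.smooth
  have sm1 : ContDiffOn ℝ ∞ (fun y => cmp j0 (u₁ (thP n p Y y))) (ball 0 r) :=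
    (cmp j0).contDiff.comp_contDiffOn (h.smU hs1)
  have sm2 : ContDiffOn ℝ ∞ (fun y => cmp j0 (u₂ (thP n p Y y))) (ball 0 r) :=
    (cmp j0).contDiff.comp_contDiffOn (h.smU hs2)
  have smv : ContDiffOn ℝ ∞ (fun y => ω₁ y * cmp j0 (u₁ (thP n p Y y))) (ball 0 r) :=
    hω₁.mul sm1
  have smv2 : ContDiffOn ℝ ∞ (fun y => ω₂ y * cmp j0 (u₂ (thP n p Y y))) (ball 0 r) :=
    hω₂.mul sm2
  have smw := smv2.sub smv
  have hsub : ball (0 : E n) R \ G ⊆ C := diff_subset.trans hUC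
  have c2 : (2 : WithTop ℕ∞) ≤ ∞ := WithTop.coe_le_coe.2 (le_top (a := (2 : ℕ∞)))
  refine ⟨fun y => ω₁ y * cmp j0 (u₁ (thP n p Y y)), fun y => ω₂ y * cmp j0 (u₂ (thP n p Y y)) -
    ω₁ y * cmp j0 (u₁ (thP n p Y y)), ?_, ?_, ?_, ?_, ?_, ?_, ?_, ?_⟩
  · exact smv.continuousOn.mono (hsub.trans hCB)
  · exact (smw.mono (ball_subset_ball hRr.le)).of_le c2
  · intro x hx
    show ω₂ x * cmp j0 (u₂ (thP n p Y x)) - ω₁ x * cmp j0 (u₁ (thP n p Y x)) = 0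
    rw [hωV x hx.1.1 hx.1.2, hu _ hx.1.2, sub_self]
  · intro x hx
    have hxB : x ∈ ball (0 : E n) r := ball_subset_ball hRr.le hx
    have e1 := h.harmR hPA hz hω₁ hp₁ hw₁ j0 hu₁ hxB
    have e2 := h'.harmR hQA hz hω₂ hp₂ hw₂ j0 hu₂ hxB
    rw [H31.lap_sub ((smv2.contDiffAt (isOpen_ball.mem_nhds hxB)).of_le c2)
      ((smv.contDiffAt (isOpen_ball.mem_nhds hxB)).of_le c2), e1, e2, hl x hxB]
    show _ = lap ω₂ x / ω₂ x * (ω₂ x * cmp j0 (u₂ (thP n p Y x)) -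
      ω₁ x * cmp j0 (u₁ (thP n p Y x)) + ω₁ x * cmp j0 (u₁ (thP n p Y x)))
    have := (hp₂ x hxB).ne'
    field_simp
    ring
  · have hcv : ContinuousOn (fun y => (ω₁ y * cmp j0 (u₁ (thP n p Y y)) - f y) ^ 2) C :=
      ((smv.continuousOn.mono hCB).sub hf.continuous.continuousOn).pow 2
    exact (hcv.integrableOn_compact hC).mono_set hsub
  · have e1 := hclose f T u₁ (ball 0 R \ G) Vᶜ hf hT hs1
      (isOpen_ball.measurableSet.diff hGo.measurableSet) hsub (by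
        rintro _ ⟨y, hy, rfl⟩ hyV
        exact hy.2 ⟨ball_subset_ball hRr.le hy.1, hyV⟩) hTe
    refine e1.trans ((mul_le_mul_of_nonneg_left hu₁b hC2).trans ?_)
    have e2 : C2 * (ε / (C2 + 2 * C3 + 1)) ≤ ε := by
      rw [mul_div_assoc', div_le_iff₀ (by positivity)]
      nlinarith
    have e3 : 0 ≤ (2 * C3 * C1 * C5 + 2 * C3 * C4) * ∫ x, h₂ x ^ 2 := by positivity
    nlinarith
  · exact (((hd_cont isOpen_ball smw).mono hCB).integrableOn_compact hC).mono_set hUC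
  · have e1 := hwb f0 u₁ u₂ hu₁ hu₂ hu
    have hTu : SmS n (T - u₁) := hT.sub hs1
    have e2 : (FK P Vᶜ u₁ u₁).re ≤ 2 * (FK P Vᶜ T T).re + 2 * (FK P Vᶜ (T - u₁) (T - u₁)).re := by
      have e3 := fk_para P Vᶜ hT hTu
      have e0 : T - (T - u₁) = u₁ := by
        funext x
        show T x - (T x - u₁ x) = u₁ x
        abel
      rw [e0] at e3
      exact e3
    have e4 := hfkt f T V hf hfs hT hV hTe hTs
    have e5 : 0 ≤ ∫ y in ball (0 : E n) R \ G, hd f y := integral_nonneg fun y => hd_nonneg f y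
    have e6 : 2 * C3 * (ε / (C2 + 2 * C3 + 1)) ≤ ε := by
      rw [mul_div_assoc', div_le_iff₀ (by positivity)]
      nlinarith
    have e7 : 0 ≤ C2 * C1 * C5 * ∫ x, h₂ x ^ 2 := by positivity
    have e8 : 0 ≤ 2 * C3 * C4 * ∫ x, h₂ x ^ 2 := by positivity
    have e9 : 0 ≤ (C2 * C1 * C5 + 2 * C3 * C1 * C5) * ∫ y in ball (0 : E n) R \ G, hd f y := by
      positivity
    have e10 : (FK P Vᶜ u₁ u₁).re ≤ 2 * (C4 * ∫ y in ball (0 : E n) R \ G, hd f y) +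
        2 * (C1 * (C5 * ∫ x, h₂ x ^ 2) + ε / (C2 + 2 * C3 + 1)) := by
      linarith
    refine e1.trans ((mul_le_mul_of_nonneg_left e10 hC3).trans ?_)
    show _ ≤ (C2 * C1 * C5 + 2 * C3 * C1 * C5 + 2 * C3 * C4) *
      ((∫ y in ball (0 : E n) R \ G, hd f y) + ∫ x, h₂ x ^ 2) + ε
    linarith

end Vale.Agent.P088.R2.H338

end
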