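import Vale.Agent.P088.R2.H338.GH
import Vale.Agent.P088.R2.H31.GSpec

/-!
# P088, Theorem S, block GI: the interior step
-/

set_option linter.all false

open Bundle Manifold MeasureTheory Set Filter Topology Metric
open scoped ContDiff Matrix

noncomputable section

namespace Vale.Agent.P088.R2.H338

open Vale.Agent.P088 Vale.Agent.P088.EYM Vale.Agent.P088.EYM.O
open Vale.Agent.P088.R2.H31 (dj lap dj_congr dj_congr_ev lap_congr dj_mul lap_mul)

universe u

/-- The weight for `κ = t^{4/(n-2)}`. -/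
theorem wt_pow {n : ℕ} (hn : 3 ≤ n) {t : ℝ} (ht : 0 < t) :
    √((t ^ (4 / ((n : ℝ) - 2))) ^ n) / t ^ (4 / ((n : ℝ) - 2)) = t ^ 2 := by
  have hn' : (0 : ℝ) < (n : ℝ) - 2 := by
    have : (3 : ℝ) ≤ n := by exact_mod_cast hn
    linarith
  rw [Real.sqrt_eq_rpow, ← Real.rpow_natCast, ← Real.rpow_mul ht.le, ← Real.rpow_mul ht.le,
    ← Real.rpow_sub ht, ← Real.rpow_two]
  congr 1
  field_simp
  ring

section

variable {n N : ℕ} [NeZero n] {M : Type u} [TopologicalSpace M]
  [ChartedSpace (EuclideanHalfSpace n) M] [IsManifold (𝓡∂ n) ∞ M] [MeasurableSpace M]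

/-- Smooth functions in the coordinates. -/
theorem smR_coord {P : One n N M} {p : M} {D : Set (E n)} {X Y : E n → E n} {om : E n → ℝ}
    {r : ℝ} (hF : G31.FlatIn P p D X Y om r) {c : M → ℝ} (hc : SmR n c) :
    ContDiffOn ℝ ∞ (fun y => c (thP n p Y y)) (ball 0 r) := by
  have h1 : ContDiffOn ℝ ∞ (lu (𝓡∂ n) p c) (xc n p).target :=
    contDiffOn_lu_of_contMDiffOn hc.contMDiffOn
  exact h1.comp hF.smY fun y hy => hF.sub (hF.mapsY hy)

theorem flat_cin {P : One n N M} {p : M} {D : Set (E n)} {X Y : E n → E n} {om : E n → ℝ}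
    {r : ℝ} (hF : G31.FlatIn P p D X Y om r) :
    CIn P p D X Y (fun y => om y ^ (4 / ((n : ℝ) - 2))) (ball 0 r) where
  opD := hF.isOpen
  sub := hF.sub
  opB := isOpen_ball
  mapsX := hF.mapsX
  mapsY := hF.mapsY
  inv1 := hF.inv1
  inv2 := hF.inv2
  smX := hF.smX
  smY := hF.smY
  smκ := hF.smom.rpow_const_of_ne fun y hy => (hF.posom y hy).ne'
  posκ := fun y hy => Real.rpow_pos_of_pos (hF.posom y hy) _
  met := hF.met

theorem flat_cin' [T2Space M] [CompactSpace M] [BorelSpace M] (hn : 3 ≤ n) {P Q : One n N M} {p : M} {D : Set (E n)} {X Y : E n → E n}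
    {om : E n → ℝ} {r : ℝ} (hF : G31.FlatIn P p D X Y om r) {c : M → ℝ} (hcs : SmR n c)
    (hcp : ∀ x, 0 < c x)
    (hc : ∀ (x : M) (v w : TangentSpace (𝓡∂ n) x), Q.g.inner x v w = c x * P.g.inner x v w) :
    CIn Q p D X Y (fun y => ((c (thP n p Y y)) ^ (((n : ℝ) - 2) / 4) * om y) ^
      (4 / ((n : ℝ) - 2))) (ball 0 r) where
  opD := hF.isOpen
  sub := hF.sub
  opB := isOpen_ball
  mapsX := hF.mapsX
  mapsY := hF.mapsY
  inv1 := hF.inv1
  inv2 := hF.inv2
  smX := hF.smX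
  smY := hF.smY
  smκ := (((smR_coord hF hcs).rpow_const_of_ne fun y hy => (hcp _).ne').mul
    hF.smom).rpow_const_of_ne fun y hy =>
      (mul_pos (Real.rpow_pos_of_pos (hcp _) _) (hF.posom y hy)).ne'
  posκ := fun y hy => Real.rpow_pos_of_pos
    (mul_pos (Real.rpow_pos_of_pos (hcp _) _) (hF.posom y hy)) _
  met := fun y hy v w => by
    have hn' : (0 : ℝ) < (n : ℝ) - 2 := by
      have : (3 : ℝ) ≤ n := by exact_mod_cast hn
      linarith
    have h1 : (Q.loc p).g (Y y) = c (thP n p Y y) • (P.loc p).g (Y y) := gram_conf hc p _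
    have h2 := hF.met y hy v w
    rw [Real.mul_rpow (Real.rpow_nonneg (hcp _).le _) (hF.posom y hy).le,
      ← Real.rpow_mul (hcp _).le, show ((n : ℝ) - 2) / 4 * (4 / ((n : ℝ) - 2)) = 1 by
        field_simp, Real.rpow_one, mul_assoc, ← h2, h1]
    simp only [Matrix.smul_apply, smul_eq_mul]
    rw [Finset.mul_sum]
    refine Finset.sum_congr rfl fun i _ => ?_
    rw [Finset.mul_sum]
    refine Finset.sum_congr rfl fun j _ => ?_
    ring

end

/-- The interior step. -/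
theorem gi : G31.GI_statement.{u} := by
  intro n N _ M _ _ _ _ _ _ _ _ P Q Γ V c p D X Y om R hn hN hR hPA hQA hΓ hV hVp hVΓ hS hcs hcp
    hc hcV hF
  refine giCore n N M P Q Γ V c p D X Y _ _ om
    (fun y => (c (thP n p Y y)) ^ (((n : ℝ) - 2) / 4) * om y) R (2 * R) hN hR (by linarith) hPA
    hQA hΓ hV hVp hVΓ hS hcs.continuous hcp hc hcV (flat_cin hF) (flat_cin' hn hF hcs hcp hc)
    hF.smom (((smR_coord hF hcs).rpow_const_of_ne fun y hy => (hcp _).ne').mul hF.smom) hF.posom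
    (fun y hy => mul_pos (Real.rpow_pos_of_pos (hcp _) _) (hF.posom y hy))
    (fun y hy => wt_pow hn (hF.posom y hy))
    (fun y hy => wt_pow hn (mul_pos (Real.rpow_pos_of_pos (hcp _) _) (hF.posom y hy)))
    hF.harm (fun y hy hyV => ?_)
  show (c (thP n p Y y)) ^ (((n : ℝ) - 2) / 4) * om y = om y
  rw [hcV _ hyV, Real.one_rpow, one_mul]

end Vale.Agent.P088.R2.H338

end
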