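import Vale.Agent.P088.R2.H338.GG

/-!
# P088, Theorem S, local form of the interior step: conformally flat coordinates with a connection
-/

set_option linter.all false

open Bundle Manifold MeasureTheory Set Filter Topology Metric
open scoped ContDiff Matrix

noncomputable section

namespace Vale.Agent.P088.R2.H338

open Vale.Agent.P088 Vale.Agent.P088.EYM Vale.Agent.P088.EYM.O
open Vale.Agent.P088.R2.H31 (dj lap dj_congr dj_congr_ev lap_congr dj_mul lap_mul)

universe u

/-! ### Local data -/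

section

variable {n N : ℕ} [NeZero n]

/-- Conformally flat local data with a connection. -/
def cB (κ : E n → ℝ) (b : Fin n → E n → EndF N) : LD n N where
  g := fun x => κ x • (1 : Matrix (Fin n) (Fin n) ℝ)
  B := b
  h := fun _ => 1

/-- Skew-adjoint endomorphisms. -/
def Skw (b : Fin n → E n → EndF N) (D : Set (E n)) : Prop :=
  ∀ x ∈ D, ∀ j, ContinuousLinearMap.adjoint (b j x) = -b j x

theorem cB_ok {D : Set (E n)} {κ : E n → ℝ} {b : Fin n → E n → EndF N}
    (hκ : ContDiffOn ℝ ∞ κ D) (hp : ∀ x ∈ D, 0 < κ x) (hb : ∀ j, ContDiffOn ℝ ∞ (b j) D)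
    (hs : Skw b D) : (cB κ b : LD n N).Ok D where
  g_smooth := (cE_ok (N := N) hκ hp).g_smooth
  g_pos := (cE_ok (N := N) hκ hp).g_pos
  B_smooth := hb
  h_smooth := contDiffOn_const
  h_adj := (cE_ok (N := N) hκ hp).h_adj
  h_pos := (cE_ok (N := N) hκ hp).h_pos
  compat := fun x hx j => by
    show pd j (fun _ => (1 : EndF N)) x = ContinuousLinearMap.adjoint (b j x) * 1 + 1 * b j x
    rw [pd_const, hs x hx j, mul_one, one_mul, neg_add_cancel]

theorem flux_cB {κ : E n → ℝ} {b : Fin n → E n → EndF N} {x : E n} (hp : 0 < κ x) (j : Fin n)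
    (c : E n → Fib N) : flux (cB κ b) j c x = wt κ x • nab (cB κ b) j c x := by
  unfold flux
  have h1 : ∀ k, gg (cB κ b : LD n N).g j k x = if j = k then wt κ x else 0 := fun k =>
    gg_cE (N := N) hp j k
  simp only [h1, ite_smul, zero_smul, Finset.sum_ite_eq, Finset.mem_univ, if_true]

theorem ed_cB {κ : E n → ℝ} {b : Fin n → E n → EndF N} {x : E n} (hp : 0 < κ x)
    (c d : E n → Fib N) :
    ed (cB κ b) c d x =
      ∑ j, (wt κ x : ℂ) * inner ℂ (nab (cB κ b) j c x) (nab (cB κ b) j d x) := by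
  unfold ed
  refine Finset.sum_congr rfl fun j _ => ?_
  have h1 : ∀ w : Fib N, (cB κ b : LD n N).h x w = w := fun w => rfl
  have h2 : ∀ k, gg (cB κ b : LD n N).g j k x = if j = k then wt κ x else 0 := fun k =>
    gg_cE (N := N) hp j k
  simp only [h2, h1]
  rw [Finset.sum_eq_single j]
  · rw [if_pos rfl]
  · intro k _ hk
    rw [if_neg (Ne.symm hk), Complex.ofReal_zero, zero_mul]
  · intro h
    exact absurd (Finset.mem_univ _) h

/-- The covariant derivative. -/
def nb (b : Fin n → E n → EndF N) (j : Fin n) (F : E n → Fib N) (y : E n) : Fib N :=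
  fderiv ℝ F y (ev j) + b j y (F y)

/-- The operator. -/
def Lm (w : E n → ℝ) (b : Fin n → E n → EndF N) (F : E n → Fib N) (y : E n) : Fib N :=
  ∑ j, nb b j (fun y => w y • nb b j F y) y

theorem nab_tr {B : Set (E n)} {z : E n} (hz : trS B z ⊆ {x | 0 < x 0}) (κ : E n → ℝ)
    (b : Fin n → E n → EndF N) (F : E n → Fib N) (j : Fin n) {y : E n} (hy : y ∈ B) :
    nab (cB (fun x => κ (x - z)) fun j x => b j (x - z)) j (fun x => F (x - z)) (y + z) =
      nb b j F y := by
  unfold nab nb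
  show pd j (fun x => F (x - z)) (y + z) + b j (y + z - z) (F (y + z - z)) = _
  rw [pd_tr F z (hz (add_mem_trS hy)), add_sub_cancel_right]

theorem LopB_tr {B : Set (E n)} (hB : IsOpen B) {z : E n} (hz : trS B z ⊆ {x | 0 < x 0})
    {κ : E n → ℝ} (hp : ∀ x ∈ B, 0 < κ x) (b : Fin n → E n → EndF N) (F : E n → Fib N)
    {y : E n} (hy : y ∈ B) :
    Lop (cB (fun x => κ (x - z)) fun j x => b j (x - z)) (fun x => F (x - z)) (y + z) =
      Lm (wt κ) b F y := by
  have hr := trS_rel hB hz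
  have e1 : ∀ j, EqOn (flux (cB (fun x => κ (x - z)) fun j x => b j (x - z)) j
      (fun x => F (x - z))) (fun x => (fun y => wt κ y • nb b j F y) (x - z)) (trS B z) := by
    intro j x hx
    have hx' : x - z ∈ B := hx
    have e2 := nab_tr hz κ b F j hx'
    rw [sub_add_cancel] at e2
    have e3 := flux_cB (κ := fun x => κ (x - z)) (b := fun j x => b j (x - z)) (x := x)
      (hp _ hx') j (fun x => F (x - z))
    rw [e3, e2]
    rfl
  unfold Lop Lm
  refine Finset.sum_congr rfl fun j _ => ?_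
  rw [hr.pd_congr (e1 j) (add_mem_trS hy) j, e1 j (add_mem_trS hy)]
  have e3 := pd_tr (fun y => wt κ y • nb b j F y) z (hz (add_mem_trS hy)) j
  rw [e3]
  unfold nb
  show _ + b j (y + z - z) _ = _
  simp only [add_sub_cancel_right]

theorem edB_tr {B : Set (E n)} {z : E n} (hz : trS B z ⊆ {x | 0 < x 0})
    {κ : E n → ℝ} (hp : ∀ x ∈ B, 0 < κ x) (b : Fin n → E n → EndF N) (F F' : E n → Fib N)
    {y : E n} (hy : y ∈ B) :
    ed (cB (fun x => κ (x - z)) fun j x => b j (x - z)) (fun x => F (x - z))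
      (fun x => F' (x - z)) (y + z) =
      ∑ j, (wt κ y : ℂ) * inner ℂ (nb b j F y) (nb b j F' y) := by
  have h1 : wt (fun x => κ (x - z)) (y + z) = wt κ y := by
    unfold wt
    simp only [add_sub_cancel_right]
  rw [ed_cB (by simpa only [add_sub_cancel_right] using hp y hy), h1]
  simp only [nab_tr hz κ b F _ hy, nab_tr hz κ b F' _ hy]

/-! ### Parallel sections -/

/-- A smooth unit parallel section. -/
structure Par1 (b : Fin n → E n → EndF N) (B : Set (E n)) (e : E n → Fib N) : Prop where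
  sm : ContDiffOn ℝ ∞ e B
  unit : ∀ y ∈ B, ‖e y‖ = 1
  par : ∀ y ∈ B, ∀ j, nb b j e y = 0

/-- The real component along `e`. -/
def rc (e F : E n → Fib N) (y : E n) : ℝ := (inner ℂ (e y) (F y) : ℂ).re

variable {b : Fin n → E n → EndF N} {B : Set (E n)} {e : E n → Fib N}

theorem rc_le (he : Par1 b B e) {y : E n} (hy : y ∈ B) (F : E n → Fib N) :
    |rc e F y| ≤ ‖F y‖ := by
  unfold rc
  refine (Complex.abs_re_le_norm _).trans ((norm_inner_le_norm _ _).trans ?_)
  rw [he.unit y hy, one_mul]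

theorem rc_smul_e (he : Par1 b B e) {y : E n} (hy : y ∈ B) {β : E n → ℝ} {F : E n → Fib N}
    (hF : F y = β y • e y) : rc e F y = β y := by
  unfold rc
  have h2 : (inner ℂ (e y) (e y) : ℂ).re = ‖e y‖ ^ 2 := inner_self_eq_norm_sq (𝕜 := ℂ) (e y)
  rw [hF, inner_smul_right_eq_smul, Complex.real_smul, Complex.re_ofReal_mul, h2, he.unit y hy]
  ring

theorem rc_smooth {F : E n → Fib N} (he : ContDiffOn ℝ ∞ e B) (hF : ContDiffOn ℝ ∞ F B) :
    ContDiffOn ℝ ∞ (rc e F) B :=
  Complex.reCLM.contDiff.comp_contDiffOn (he.inner ℂ hF)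

/-- The derivative of the component is the component of the covariant derivative. -/
theorem dj_rc (hB : IsOpen B) (hs : Skw b B) (he : Par1 b B e) {F : E n → Fib N} {y : E n}
    (hy : y ∈ B) (hF : DifferentiableAt ℝ F y) (j : Fin n) :
    dj j (rc e F) y = rc e (nb b j F) y := by
  have hed : DifferentiableAt ℝ e y :=
    (he.sm.contDiffAt (hB.mem_nhds hy)).differentiableAt (by simp)
  have h1 : HasFDerivAt (rc e F) (Complex.reCLM.comp
      ((fderivInnerCLM ℂ (e y, F y)).comp ((fderiv ℝ e y).prod (fderiv ℝ F y)))) y :=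
    Complex.reCLM.hasFDerivAt.comp y (hed.hasFDerivAt.inner ℂ hF.hasFDerivAt)
  have h2 : dj j (rc e F) y = (inner ℂ (e y) (fderiv ℝ F y (ev j)) +
      inner ℂ (fderiv ℝ e y (ev j)) (F y) : ℂ).re := by
    unfold H31.dj
    rw [h1.fderiv]
    rfl
  have h3 : fderiv ℝ e y (ev j) = -b j y (e y) := eq_neg_of_add_eq_zero_left (he.par y hy j)
  have h4 : (inner ℂ (b j y (e y)) (F y) : ℂ) = -inner ℂ (e y) (b j y (F y)) := by
    have h5 := ContinuousLinearMap.adjoint_inner_right (b j y) (e y) (F y)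
    rw [hs y hy j] at h5
    rw [← h5]
    simp
  rw [h2, h3, inner_neg_left, h4, neg_neg]
  unfold rc nb
  rw [inner_add_right]

theorem nb_smul_e (hB : IsOpen B) (he : Par1 b B e) {β : E n → ℝ} {y : E n} (hy : y ∈ B)
    (hβ : DifferentiableAt ℝ β y) (j : Fin n) :
    nb b j (fun y => β y • e y) y = dj j β y • e y := by
  have hed : DifferentiableAt ℝ e y :=
    (he.sm.contDiffAt (hB.mem_nhds hy)).differentiableAt (by simp)
  have h1 : fderiv ℝ (fun y => β y • e y) y (ev j) =
      β y • fderiv ℝ e y (ev j) + dj j β y • e y := by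
    rw [(hβ.hasFDerivAt.fun_smul hed.hasFDerivAt).fderiv]
    rfl
  have h2 := he.par y hy j
  unfold nb at h2 ⊢
  rw [h1]
  have h3 : b j y (β y • e y) = β y • b j y (e y) :=
    ContinuousLinearMap.map_smul_of_tower _ _ _
  show β y • fderiv ℝ e y (ev j) + dj j β y • e y + b j y (β y • e y) = _
  rw [h3, add_right_comm, ← smul_add, h2, smul_zero, zero_add]

theorem nb_smooth (hB : IsOpen B) (hb : ∀ j, ContDiffOn ℝ ∞ (b j) B) {F : E n → Fib N}
    (hF : ContDiffOn ℝ ∞ F B) (j : Fin n) : ContDiffOn ℝ ∞ (nb b j F) B :=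
  (fd_smooth hB hF j).add (smooth_eval (hb j) hF)

/-- The component of `L F`. -/
theorem rc_Lm (hB : IsOpen B) (hs : Skw b B) (he : Par1 b B e) (hb : ∀ j, ContDiffOn ℝ ∞ (b j) B)
    {w : E n → ℝ} (hw : ContDiffOn ℝ ∞ w B) {F : E n → Fib N} (hF : ContDiffOn ℝ ∞ F B)
    {y : E n} (hy : y ∈ B) :
    rc e (Lm w b F) y = ∑ j, dj j (fun x => w x * dj j (rc e F) x) y := by
  have h1 : rc e (Lm w b F) y = ∑ j, rc e (nb b j (fun y => w y • nb b j F y)) y := by
    unfold rc Lm
    rw [inner_sum, Complex.re_sum]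
  rw [h1]
  refine Finset.sum_congr rfl fun j _ => ?_
  have h2 : ContDiffOn ℝ ∞ (fun y => w y • nb b j F y) B := hw.smul (nb_smooth hB hb hF j)
  rw [← dj_rc hB hs he hy ((h2.contDiffAt (hB.mem_nhds hy)).differentiableAt (by simp)) j]
  refine dj_congr ?_ j
  filter_upwards [hB.mem_nhds hy] with x hx
  rw [dj_rc hB hs he hx ((hF.contDiffAt (hB.mem_nhds hx)).differentiableAt (by simp)) j]
  unfold rc
  rw [inner_smul_right_eq_smul, Complex.real_smul, Complex.re_ofReal_mul]

/-- `L (β e)`. -/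
theorem Lm_smul_e (hB : IsOpen B) (he : Par1 b B e) {w β : E n → ℝ} (hw : ContDiffOn ℝ ∞ w B)
    (hβ : ContDiffOn ℝ ∞ β B) {y : E n} (hy : y ∈ B) :
    Lm w b (fun y => β y • e y) y = (∑ j, dj j (fun x => w x * dj j β x) y) • e y := by
  unfold Lm
  rw [Finset.sum_smul]
  refine Finset.sum_congr rfl fun j _ => ?_
  have hd : ContDiffOn ℝ ∞ (dj j β) B :=
    (hβ.fderiv_of_isOpen hB (m := ∞) (by simp)).clm_apply contDiffOn_const
  have h1 : (fun y => w y • nb b j (fun y => β y • e y) y) =ᶠ[𝓝 y]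
      fun y => (w y * dj j β y) • e y := by
    filter_upwards [hB.mem_nhds hy] with x hx
    rw [nb_smul_e hB he hx ((hβ.contDiffAt (hB.mem_nhds hx)).differentiableAt (by simp)) j,
      smul_smul]
  have h2 : nb b j (fun y => w y • nb b j (fun y => β y • e y) y) y =
      nb b j (fun y => (w y * dj j β y) • e y) y := by
    unfold nb
    unfold nb at h1
    rw [h1.fderiv_eq, h1.self_of_nhds]
  rw [h2]
  exact nb_smul_e hB he (β := fun x => w x * dj j β x) hy
    (((hw.mul hd).contDiffAt (hB.mem_nhds hy)).differentiableAt (by simp)) j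

end

end Vale.Agent.P088.R2.H338

end
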