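import Vale.Agent.P088.R2.H338.LA

/-!
# P088, Theorem S, local form of the interior step: transport to the coordinates
-/

set_option linter.all false

open Bundle Manifold MeasureTheory Set Filter Topology Metric
open scoped ContDiff Matrix

noncomputable section

namespace Vale.Agent.P088.R2.H338

open Vale.Agent.P088 Vale.Agent.P088.EYM Vale.Agent.P088.EYM.O
open Vale.Agent.P088.R2.H31 (dj lap dj_congr dj_congr_ev lap_congr dj_mul lap_mul)

universe u

section

variable {n N : ℕ} [NeZero n] {M : Type u} [TopologicalSpace M]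
  [ChartedSpace (EuclideanHalfSpace n) M] [IsManifold (𝓡∂ n) ∞ M]
variable [MeasurableSpace M] {P : One n N M} {p : M} {D : Set (E n)} {X Y : E n → E n}
  {κ : E n → ℝ} {B : Set (E n)}

/-- The connection in the coordinates. -/
def bj (P : One n N M) (p : M) (Y : E n → E n) (j : Fin n) (y : E n) : EndF N :=
  ∑ k, jm Y y k j • (P.loc p).B k (Y y)

theorem CIn.skw (h : CIn P p D X Y κ B) : Skw (bj P p Y) B := by
  intro y hy j
  have h1 : ∀ k, ContinuousLinearMap.adjoint ((P.loc p).B k (Y y)) = -(P.loc p).B k (Y y) :=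
    fun k => P.A.skew _ _
  have h2 : adjRE (bj P p Y j y) = ∑ k, jm Y y k j • adjRE ((P.loc p).B k (Y y)) := by
    unfold bj
    rw [map_sum]
    exact Finset.sum_congr rfl fun k _ => map_smul _ _ _
  rw [← adjRE_apply, h2]
  unfold bj
  rw [← Finset.sum_neg_distrib]
  refine Finset.sum_congr rfl fun k _ => ?_
  rw [adjRE_apply, h1]
  exact smul_neg _ _

theorem CIn.bjs (h : CIn P p D X Y κ B) (j : Fin n) : ContDiffOn ℝ ∞ (bj P p Y j) B := by
  unfold bj
  refine ContDiffOn.sum fun k _ => ?_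
  have h1 : ContDiffOn ℝ ∞ (fun y => fderiv ℝ Y y (ev j)) B :=
    (h.smY.fderiv_of_isOpen h.opB (m := ∞) (by simp)).clm_apply contDiffOn_const
  have h2 : ContDiffOn ℝ ∞ (fun y => jm Y y k j) B := coord_smooth h1 k
  have h3 : ContDiffOn ℝ ∞ (fun y => (P.loc p).B k (Y y)) B :=
    (h.okL.B_smooth k).comp h.smY fun y hy => h.mapsY hy
  exact h2.smul h3

theorem CIn.okB (h : CIn P p D X Y κ B) (z : E n) :
    (cB (fun x => κ (x - z)) fun j x => bj P p Y j (x - z) : LD n N).Ok (trS B z) :=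
  cB_ok (tr_smooth h.smκ) (fun x hx => h.posκ _ hx) (fun j => tr_smooth (h.bjs j))
    fun x hx j => h.skw _ hx j

theorem CIn.jac (h : CIn P p D X Y κ B) {z : E n} (hz : trS B z ⊆ {x | 0 < x 0}) {x : E n}
    (hx : x ∈ trS B z) : Jac (fun x => Y (x - z)) x = jm Y (x - z) := by
  have hx' : x - z ∈ B := hx
  ext i j
  have h3 : 0 < ((x - z) + z) 0 := by rw [sub_add_cancel]; exact hz hx
  have h2 := pd_tr (fun y => Y y i) z h3 j
  rw [sub_add_cancel] at h2
  unfold Jac jm
  simp only [Matrix.of_apply]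
  rw [h2]
  have h4 : HasFDerivAt (fun y => Y y i)
      ((EuclideanSpace.proj (𝕜 := ℝ) i).comp (fderiv ℝ Y (x - z))) (x - z) :=
    (EuclideanSpace.proj (𝕜 := ℝ) i).hasFDerivAt.comp (x - z) (h.diffY hx')
  rw [h4.fderiv]
  rfl

/-- A pull back to the translated set. -/
theorem CIn.pullB (h : CIn P p D X Y κ B) {z : E n} (hz : trS B z ⊆ {x | 0 < x 0}) :
    IsPull (cB (fun x => κ (x - z)) fun j x => bj P p Y j (x - z)) (P.loc p) (trS B z) D
      (fun x => Y (x - z)) (fun x => X x + z) (fun _ => 1) where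
  diffeo :=
    { mapsX := fun x hx => h.mapsY hx
      mapsY := fun x hx => add_mem_trS (h.mapsX hx)
      inv1 := fun x hx => by
        show X (Y (x - z)) + z = x
        rw [h.inv2 _ hx, sub_add_cancel]
      inv2 := fun x hx => by
        show Y (X x + z - z) = x
        rw [add_sub_cancel_right, h.inv1 x hx]
      smX := tr_smooth h.smY
      smY := h.smX.add contDiffOn_const }
  smS := contDiffOn_const
  unit := fun _ _ => isUnit_one
  g_eq := fun x hx => by
    rw [h.jac hz hx]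
    exact h.metM hx
  B_eq := fun x hx j => by
    show pd j (fun _ => (1 : EndF N)) x + bj P p Y j (x - z) * 1 =
      1 * ∑ k, Jac (fun x => Y (x - z)) x k j • (P.loc p).B k (Y (x - z))
    rw [h.jac hz hx, pd_const, zero_add, mul_one, one_mul]
    rfl
  h_eq := fun x hx => by
    show ContinuousLinearMap.adjoint (1 : EndF N) * 1 * 1 = 1
    rw [mul_one, mul_one]
    exact ContinuousLinearMap.adjoint_id

/-- The energy density. -/
theorem CIn.pairingB (h : CIn P p D X Y κ B) {z : E n}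
    (hz : trS B z ⊆ {x | 0 < x 0}) {u v : M → Fib N} (hu : SmS n u) (hv : SmS n v) {y : E n}
    (hy : y ∈ B) :
    (√((κ y) ^ n) : ℂ) * Vale.Agent.P088.pairing P.g P.A u v (thP n p Y y) =
      ∑ j, (wt κ y : ℂ) * inner ℂ (nb (bj P p Y) j (fun y => u (thP n p Y y)) y)
        (nb (bj P p Y) j (fun y => v (thP n p Y y)) y) := by
  have h1 := ed_pull (trS_rel h.opB hz) h.relD (h.okB z) h.okL (h.pullB hz) (h.smL hu)
    (h.smL hv) (add_mem_trS (z := z) hy)
  have h2 := edB_tr hz (κ := κ) h.posκ (bj P p Y) (fun y => u (thP n p Y y))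
    (fun y => v (thP n p Y y)) hy
  have h3 : (fun x : E n => (1 : EndF N) (lu (𝓡∂ n) p u (Y (x - z)))) =
    fun x => u (thP n p Y (x - z)) := rfl
  have h4 : (fun x : E n => (1 : EndF N) (lu (𝓡∂ n) p v (Y (x - z)))) =
    fun x => v (thP n p Y (x - z)) := rfl
  rw [h3, h4, h2] at h1
  have h5 := CEnergy_ed P p hu hv (h.sub (h.mapsY hy))
  have h6 : Jac (fun x => Y (x - z)) (y + z) = jm Y y := by
    rw [h.jac hz (add_mem_trS hy), add_sub_cancel_right]
  rw [h1, h6]
  simp only [add_sub_cancel_right]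
  rw [h5, ← mul_assoc, ← h.detE hy]
  push_cast
  rfl

theorem CIn.pairing_reB (h : CIn P p D X Y κ B) {z : E n}
    (hz : trS B z ⊆ {x | 0 < x 0}) {u : M → Fib N} (hu : SmS n u) {y : E n}
    (hy : y ∈ B) :
    √((κ y) ^ n) * (Vale.Agent.P088.pairing P.g P.A u u (thP n p Y y)).re =
      wt κ y * ∑ j, ‖nb (bj P p Y) j (fun y => u (thP n p Y y)) y‖ ^ 2 := by
  have h1 := congrArg Complex.re (h.pairingB hz hu hu hy)
  rw [Complex.re_ofReal_mul, Complex.re_sum] at h1
  rw [h1, Finset.mul_sum]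
  refine Finset.sum_congr rfl fun j _ => ?_
  rw [Complex.re_ofReal_mul]
  congr 1
  exact inner_self_eq_norm_sq (𝕜 := ℂ) _

/-- Solutions in the coordinates. -/
theorem CIn.harmB [T2Space M] [CompactSpace M] [BorelSpace M] (h : CIn P p D X Y κ B) {z : E n}
    (hz : trS B z ⊆ {x | 0 < x 0}) {f u : M → Fib N} (hu : P.Harm f u) {y : E n} (hy : y ∈ B) :
    Lm (wt κ) (bj P p Y) (fun y => u (thP n p Y y)) y = 0 := by
  have h1 : Sol (P.loc p) D (lu (𝓡∂ n) p u) := by
    have := TM.fHarm n N M P f u hu p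
    exact ⟨this.1.mono h.sub, fun x hx => this.2 x (h.sub hx)⟩
  have h2 := bSymm n N _ _ _ _ _ _ _ (trS_rel h.opB hz) h.relD (h.pullB hz)
  have h3 : EqOn (lu (𝓡∂ n) p u) (fun x => Ring.inverse ((fun _ : E n => (1 : EndF N)) (X x + z))
      ((fun x => u (thP n p Y (x - z))) (X x + z))) D := by
    intro x hx
    simp only [Ring.inverse_one]
    show lu (𝓡∂ n) p u x = u (thP n p Y (X x + z - z))
    rw [add_sub_cancel_right]
    unfold thP
    rw [h.inv1 x hx]
    rfl
  have h4 := bSol n N _ _ _ _ _ _ _ h.relD (trS_rel h.opB hz) h.okL (h.okB z) h2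
    (fun x => u (thP n p Y (x - z))) (cERel_sol_congr _ h.relD h3 h1)
    (tr_smooth (h.smU hu.smooth))
  have h5 := h4.2 (y + z) (add_mem_trS hy)
  rw [LopB_tr h.opB hz h.posκ (bj P p Y) (fun y => u (thP n p Y y)) hy] at h5
  exact h5

/-- The equation for the component along a parallel section. -/
theorem CIn.harmRB [T2Space M] [CompactSpace M] [BorelSpace M] (h : CIn P p D X Y κ B)
    {z : E n} (hz : trS B z ⊆ {x | 0 < x 0}) {e : E n → Fib N} (he : Par1 (bj P p Y) B e)
    {ω' : E n → ℝ} (hω : ContDiffOn ℝ ∞ ω' B)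
    (hp : ∀ y ∈ B, 0 < ω' y) (hw : ∀ y ∈ B, wt κ y = ω' y ^ 2)
    {f u : M → Fib N} (hu : P.Harm f u) {y : E n} (hy : y ∈ B) :
    lap (fun y => ω' y * rc e (fun y => u (thP n p Y y)) y) y =
      rc e (fun y => u (thP n p Y y)) y * lap ω' y := by
  have hF := h.smU hu.smooth
  have h1 := rc_Lm h.opB h.skw he h.bjs (wt_smooth h) hF hy
  have h0 : rc e (Lm (wt κ) (bj P p Y) fun y => u (thP n p Y y)) y = 0 := by
    unfold rc
    rw [h.harmB hz hu hy, inner_zero_right]
    rfl
  rw [h0] at h1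
  have h2 : ∀ j, dj j (fun x => wt κ x * dj j (rc e fun y => u (thP n p Y y)) x) y =
      dj j (fun x => ω' x ^ 2 * dj j (rc e fun y => u (thP n p Y y)) x) y := by
    intro j
    refine dj_congr ?_ j
    filter_upwards [h.opB.mem_nhds hy] with x hx
    rw [hw x hx]
  simp only [h2] at h1
  have c2 : (2 : WithTop ℕ∞) ≤ ∞ := WithTop.coe_le_coe.2 (le_top (a := (2 : ℕ∞)))
  rw [divω ((hω.contDiffAt (h.opB.mem_nhds hy)).of_le c2)
    (((rc_smooth he.sm hF).contDiffAt (h.opB.mem_nhds hy)).of_le c2)] at h1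
  have h3 := (mul_eq_zero.1 h1.symm).resolve_left (hp y hy).ne'
  linarith

/-- `β e` is smooth. -/
theorem smul_e_smooth {b : Fin n → E n → EndF N} {e : E n → Fib N} (hB : IsOpen B)
    (he : Par1 b B e) {β : E n → ℝ} (hβ : ContDiff ℝ ∞ β) (hs : tsupport β ⊆ B) :
    ContDiff ℝ ∞ fun y => β y • e y := by
  rw [contDiff_iff_contDiffAt]
  intro y
  by_cases hy : y ∈ tsupport β
  · exact hβ.contDiffAt.smul (he.sm.contDiffAt (hB.mem_nhds (hs hy)))
  · have h1 : β =ᶠ[𝓝 y] fun _ => 0 := notMem_tsupport_iff_eventuallyEq.1 hy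
    have h2 : (fun y => β y • e y) =ᶠ[𝓝 y] fun _ => 0 := by
      filter_upwards [h1] with x hx
      rw [hx, zero_smul]
    exact contDiffAt_const.congr_of_eventuallyEq h2

omit [NeZero n] in
theorem smul_e_supp (β : E n → ℝ) (e : E n → Fib N) :
    tsupport (fun y => β y • e y) ⊆ tsupport β := by
  refine closure_mono fun y hy => ?_
  rw [Function.mem_support] at hy ⊢
  intro h0
  exact hy (by rw [h0, zero_smul])

/-- Extension by zero of `β e`. -/
theorem CIn.extE [T2Space M] (h : CIn P p D X Y κ B) {b : Fin n → E n → EndF N}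
    {e : E n → Fib N} (he : Par1 b B e) {β : E n → ℝ} (hβ : ContDiff ℝ ∞ β)
    (hc : HasCompactSupport β) (hs : tsupport β ⊆ B) :
    ∃ T : M → Fib N, SmS n T ∧ (∀ y ∈ B, T (thP n p Y y) = β y • e y) ∧
      tsupport T ⊆ thP n p Y '' tsupport β ∧ ∀ x ∈ (𝓡∂ n).boundary M, T x = 0 := by
  have h1 := smul_e_supp β e
  have h2 : HasCompactSupport fun y => β y • e y :=
    IsCompact.of_isClosed_subset hc (isClosed_tsupport _) h1
  obtain ⟨T, hT, hTe, -, hTs, hTb⟩ := h.ext (smul_e_smooth h.opB he hβ hs) h2 (h1.trans hs)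
  exact ⟨T, hT, hTe, hTs.trans (image_mono h1), hTb⟩

/-- The energy of an extension by zero. -/
theorem CIn.energyTB [T2Space M] [CompactSpace M] [BorelSpace M] {r r' : ℝ} (hr : 0 < r)
    (hr' : r' < r) (h : CIn P p D X Y κ (ball 0 r)) {z : E n}
    (hz : trS (ball 0 r) z ⊆ {x | 0 < x 0}) {β : E n → ℝ} {e : E n → Fib N}
    (hs : tsupport β ⊆ ball 0 r') {T : M → Fib N} (hT : SmS n T)
    (hTb : ∀ y ∈ ball (0 : E n) r, T (thP n p Y y) = β y • e y)
    (hTs : tsupport T ⊆ thP n p Y '' tsupport β) {φ : M → Fib N} (hφ : SmS n φ) :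
    P.E T φ = -∫ y in ball (0 : E n) r,
      inner ℂ (Lm (wt κ) (bj P p Y) (fun y => β y • e y) y) (φ (thP n p Y y)) := by
  have hsr : tsupport β ⊆ ball 0 r := hs.trans (ball_subset_ball hr'.le)
  have h1 : P.E T φ = En (P.loc p) D (lu (𝓡∂ n) p T) (lu (𝓡∂ n) p φ) := by
    refine (TM.fEn n N M P p D h.relD h.sub).1 T φ hT hφ (Or.inl (hTs.trans ?_))
    rintro _ ⟨y, hy, rfl⟩
    exact ⟨Y y, h.mapsY (hsr hy), rfl⟩
  have h2 := bEnergy n N _ _ _ _ _ _ _ (trS_rel h.opB hz) h.relD (h.okB z) h.okL (h.pullB hz)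
    (lu (𝓡∂ n) p T) (lu (𝓡∂ n) p φ) (h.smL hT) (h.smL hφ)
  rw [← h1] at h2
  have h3 : (fun x : E n => (1 : EndF N) (lu (𝓡∂ n) p T (Y (x - z)))) =
    fun x => T (thP n p Y (x - z)) := rfl
  have h4 : (fun x : E n => (1 : EndF N) (lu (𝓡∂ n) p φ (Y (x - z)))) =
    fun x => φ (thP n p Y (x - z)) := rfl
  rw [h3, h4] at h2
  have hok := h.okB (N := N) z
  have sT : ContDiffOn ℝ 2 (fun x => T (thP n p Y (x - z))) (trS (ball 0 r) z) :=
    (tr_smooth (h.smU hT)).of_le (WithTop.coe_le_coe.2 (le_top (a := (2 : ℕ∞))))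
  have sφ : ContDiffOn ℝ 1 (fun x => φ (thP n p Y (x - z))) (trS (ball 0 r) z) :=
    (tr_smooth (h.smU hφ)).of_le (by simp)
  have h5 : En (cB (fun x => κ (x - z)) fun j x => bj P p Y j (x - z)) (trS (ball 0 r) z)
      (fun x => T (thP n p Y (x - z))) (fun x => φ (thP n p Y (x - z))) =
      - ∫ x in trS (ball 0 r) z,
        inner ℂ (Lop (cB (fun x => κ (x - z)) fun j x => bj P p Y j (x - z))
          (fun x => T (thP n p Y (x - z))) x) (φ (thP n p Y (x - z))) := by
    rw [trS_ball hz] at hok sT sφ ⊢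
    refine aGreen n N _ z r hr hok _ _ sT sφ ⟨r', hr', fun x hx hxn => ?_⟩ fun x hx hx0 => ?_
    · have hx1 : x - z ∈ ball (0 : E n) r := by
        rw [mem_ball_zero_iff, ← mem_ball_iff_norm]
        exact hx.1
      show T (thP n p Y (x - z)) = 0
      have h7 : β (x - z) = 0 := by
        refine image_eq_zero_of_notMem_tsupport fun h6 => hxn ?_
        have := hs h6
        rwa [mem_ball_zero_iff, ← mem_ball_iff_norm] at this
      rw [hTb _ hx1, h7, zero_smul]
    · rw [← trS_ball hz] at hx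
      exact absurd hx0 (ne_of_gt (hz hx))
  rw [h5, setIntegral_tr] at h2
  rw [← h2]
  congr 1
  refine setIntegral_congr_fun measurableSet_ball fun y hy => ?_
  have h7 : EqOn (fun y => T (thP n p Y y)) (fun y => β y • e y) (ball 0 r) :=
    fun y hy => hTb y hy
  have h8 : Lop (cB (fun x => κ (x - z)) fun j x => bj P p Y j (x - z))
      (fun x => T (thP n p Y (x - z))) (y + z) =
      Lm (wt κ) (bj P p Y) (fun y => β y • e y) y := by
    rw [LopB_tr isOpen_ball hz h.posκ (bj P p Y) (fun y => T (thP n p Y y)) hy]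
    have h11 : ∀ j, EqOn (nb (bj P p Y) j fun y => T (thP n p Y y))
        (nb (bj P p Y) j fun y => β y • e y) (ball 0 r) := by
      intro j y' hy'
      have h10 : (fun y => T (thP n p Y y)) =ᶠ[𝓝 y'] fun y => β y • e y :=
        Filter.eventuallyEq_of_mem (isOpen_ball.mem_nhds hy') h7
      unfold nb
      rw [h10.fderiv_eq, h10.self_of_nhds]
    unfold Lm
    refine Finset.sum_congr rfl fun j _ => ?_
    have h9 : (fun y => wt κ y • nb (bj P p Y) j (fun y => T (thP n p Y y)) y) =ᶠ[𝓝 y]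
        fun y => wt κ y • nb (bj P p Y) j (fun y => β y • e y) y := by
      filter_upwards [isOpen_ball.mem_nhds hy] with y' hy'
      rw [h11 j hy']
    show fderiv ℝ _ y (ev j) + _ = fderiv ℝ _ y (ev j) + _
    rw [h9.fderiv_eq]
    exact congrArg (fun t : Fib N => (fderiv ℝ (fun y => wt κ y •
      nb (bj P p Y) j (fun y => β y • e y) y) y) (ev j) + bj P p Y j y t) h9.self_of_nhds
  show inner ℂ (Lop _ _ (y + z)) (φ (thP n p Y (y + z - z))) = _
  rw [h8, add_sub_cancel_right]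

end

end Vale.Agent.P088.R2.H338

end
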