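import Vale.Agent.P088.R2.H338.LB
import Vale.Agent.P088.H5.LC275

/-!
# P088, Theorem S, local form of the interior step: estimates
-/

set_option linter.all false

open Bundle Manifold MeasureTheory Set Filter Topology Metric
open scoped ContDiff Matrix

noncomputable section

namespace Vale.Agent.P088.R2.H338

open Vale.Agent.P088 Vale.Agent.P088.EYM Vale.Agent.P088.EYM.O
open Vale.Agent.P088.R2.H31 (dj lap dj_congr dj_congr_ev lap_congr dj_mul lap_mul)

universe u

section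

variable {n N : ℕ} [NeZero n] {M : Type u} [TopologicalSpace M]
  [ChartedSpace (EuclideanHalfSpace n) M] [IsManifold (𝓡∂ n) ∞ M]
variable [MeasurableSpace M] {P Q : One n N M} {p : M} {D : Set (E n)} {X Y : E n → E n}
  {κ κ' : E n → ℝ} {B : Set (E n)} {e : E n → Fib N}

/-- The component of a section. -/
def rs (n : ℕ) [NeZero n] {N : ℕ} {M : Type u} [TopologicalSpace M]
    [ChartedSpace (EuclideanHalfSpace n) M] (p : M) (Y : E n → E n) (e : E n → Fib N)
    (u : M → Fib N) : E n → ℝ := rc e fun y => u (thP n p Y y)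

/-- The `H¹` density in the coordinates. -/
theorem CIn.hM_eqB (h : CIn P p D X Y κ B) {z : E n}
    (hz : trS B z ⊆ {x | 0 < x 0}) {u : M → Fib N} (hu : SmS n u) {y : E n} (hy : y ∈ B) :
    ds κ y * hM P u (thP n p Y y) =
      wt κ y * ∑ j, ‖nb (bj P p Y) j (fun y => u (thP n p Y y)) y‖ ^ 2 +
        ds κ y * ‖u (thP n p Y y)‖ ^ 2 := by
  unfold hM
  rw [mul_add, ← h.pairing_reB hz hu hy]
  rfl

theorem CIn.smR (h : CIn P p D X Y κ B) (he : ContDiffOn ℝ ∞ e B) {u : M → Fib N}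
    (hu : SmS n u) : ContDiffOn ℝ ∞ (rs n p Y e u) B := rc_smooth he (h.smU hu)

theorem CIn.hd_leB (h : CIn P p D X Y κ B) (he : Par1 (bj P p Y) B e) {u : M → Fib N}
    (hu : SmS n u) {y : E n} (hy : y ∈ B) : hd (rs n p Y e u) y ≤
      (∑ j, ‖nb (bj P p Y) j (fun y => u (thP n p Y y)) y‖ ^ 2) + ‖u (thP n p Y y)‖ ^ 2 := by
  have hF := ((h.smU hu).contDiffAt (h.opB.mem_nhds hy)).differentiableAt (by simp)
  unfold hd rs
  rw [add_comm]
  refine add_le_add (Finset.sum_le_sum fun j _ => ?_) ?_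
  · rw [dj_rc h.opB h.skw he hy hF j, ← sq_abs]
    exact pow_le_pow_left₀ (abs_nonneg _) (rc_le he hy _) 2
  · rw [← sq_abs]
    exact pow_le_pow_left₀ (abs_nonneg _) (rc_le he hy _) 2

variable [T2Space M] [CompactSpace M] [BorelSpace M]

/-- The `H¹` norm in the coordinates is bounded by the `H¹` norm on `M`. -/
theorem CIn.H1_leB (h : CIn P p D X Y κ B) {z : E n}
    (hz : trS B z ⊆ {x | 0 < x 0}) (he : Par1 (bj P p Y) B e) {C : Set (E n)}
    (hC : IsCompact C) (hCB : C ⊆ B) :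
    ∃ c : ℝ, 0 ≤ c ∧ ∀ (u : M → Fib N) (S : Set (E n)) (K : Set M), SmS n u → MeasurableSet S →
      S ⊆ C → thP n p Y '' S ⊆ K →
      ∫ y in S, hd (rs n p Y e u) y ≤ c * (FK P K u u).re := by
  obtain ⟨m1, hm1, h1⟩ := low_bd hC (h.ds_smooth.continuousOn.mono hCB) fun y hy =>
    h.ds_pos (hCB hy)
  obtain ⟨m2, hm2, h2⟩ := low_bd hC ((wt_smooth h).continuousOn.mono hCB) fun y hy =>
    h.wt_pos (hCB hy)
  set m := min m1 m2 with hm
  have hm0 : 0 < m := lt_min hm1 hm2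
  refine ⟨m⁻¹, by positivity, fun u S K hu hS hSC hSK => ?_⟩
  have hSB : S ⊆ B := hSC.trans hCB
  have hcd : ContinuousOn (hd (rs n p Y e u)) C := (hd_cont h.opB (h.smR he.sm hu)).mono hCB
  have hcM : ContinuousOn (fun y => ds κ y * hM P u (thP n p Y y)) C :=
    (h.ds_smooth.continuousOn.mono hCB).mul
      ((hM_cont P hu).comp_continuousOn (h.contTh.mono hCB))
  have hpt : ∀ y ∈ S, hd (rs n p Y e u) y ≤ m⁻¹ * (ds κ y * hM P u (thP n p Y y)) := by
    intro y hy
    have e1 := h.hd_leB he hu (hSB hy)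
    have e2 := h.hM_eqB hz hu (hSB hy)
    have e3 : 0 ≤ ∑ j, ‖nb (bj P p Y) j (fun y => u (thP n p Y y)) y‖ ^ 2 :=
      Finset.sum_nonneg fun j _ => sq_nonneg _
    have e4 : m ≤ wt κ y := (min_le_right _ _).trans (h2 y (hSC hy))
    have e5 : m ≤ ds κ y := (min_le_left _ _).trans (h1 y (hSC hy))
    rw [e2, ← div_eq_inv_mul, le_div_iff₀ hm0]
    nlinarith [mul_le_mul_of_nonneg_right e4 e3,
      mul_le_mul_of_nonneg_right e5 (sq_nonneg ‖u (thP n p Y y)‖)]
  obtain ⟨-, hint⟩ := h.integral hS hSB (hM_cont P hu)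
  calc ∫ y in S, hd (rs n p Y e u) y
      ≤ ∫ y in S, m⁻¹ * (ds κ y * hM P u (thP n p Y y)) :=
        setIntegral_mono_on ((hcd.integrableOn_compact hC).mono_set hSC)
          (((hcM.integrableOn_compact hC).mono_set hSC).const_mul _) hS hpt
    _ = m⁻¹ * ∫ x in thP n p Y '' S, hM P u x ∂P.μ := by
        rw [integral_const_mul, hint]
        rfl
    _ ≤ _ := mul_le_mul_of_nonneg_left (int_mono_hM P hSK hu) (by positivity)

/-- The `H¹` norm on `M` of an extension by zero of `(f / ω) e`. -/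
theorem CIn.FKTB (h : CIn P p D X Y κ B) {z : E n}
    (hz : trS B z ⊆ {x | 0 < x 0}) (he : Par1 (bj P p Y) B e) {C U : Set (E n)}
    (hC : IsCompact C) (hCB : C ⊆ B)
    (hU : MeasurableSet U) (hUC : U ⊆ C) {ω' : E n → ℝ} (hω : ContDiffOn ℝ ∞ ω' B)
    (hp : ∀ y ∈ B, 0 < ω' y) :
    ∃ c : ℝ, 0 ≤ c ∧ ∀ (f : E n → ℝ) (T : M → Fib N) (V : Set M), ContDiff ℝ ∞ f →
      tsupport f ⊆ U → SmS n T → IsOpen V →
      (∀ y ∈ B, T (thP n p Y y) = (f y / ω' y) • e y) →
      tsupport T ⊆ thP n p Y '' tsupport f →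
      (FK P Vᶜ T T).re ≤ c * ∫ y in U \ {y | y ∈ B ∧ thP n p Y y ∈ V}, hd f y := by
  obtain ⟨m1, hm1, h1⟩ := bdd_abs hC (h.ds_smooth.continuousOn.mono hCB)
  obtain ⟨m2, hm2, h2⟩ := bdd_abs hC ((wt_smooth h).continuousOn.mono hCB)
  have hinv : ContDiffOn ℝ ∞ (fun y => (ω' y)⁻¹) B := hω.inv fun y hy => (hp y hy).ne'
  obtain ⟨c1, hc1, h3⟩ := mulH1 h.opB hC hCB hinv
  refine ⟨(m1 + m2) * c1, by positivity, fun f T V hf hfs hT hV hTe hTs => ?_⟩
  set G : Set (E n) := {y | y ∈ B ∧ thP n p Y y ∈ V} with hG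
  have hGo : IsOpen G := h.contTh.isOpen_inter_preimage h.opB hV
  have hUG : MeasurableSet (U \ G) := hU.diff hGo.measurableSet
  have hUB : U ⊆ B := hUC.trans hCB
  have hsub : U \ G ⊆ C := diff_subset.trans hUC
  -- restriction to the coordinate domain
  have hzero : ∀ x ∈ Vᶜ, x ∉ thP n p Y '' (U \ G) → hM P T x = 0 := by
    intro x hx hxn
    have hxt : x ∉ tsupport T := by
      intro hxt
      obtain ⟨y, hy, rfl⟩ := hTs hxt
      exact hxn ⟨y, ⟨hfs hy, fun hyG => hx hyG.2⟩, rfl⟩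
    unfold hM
    rw [CEnergy_pairing_zero P T hxt, image_eq_zero_of_notMem_tsupport hxt]
    simp
  have him : thP n p Y '' (U \ G) ⊆ Vᶜ := by
    rintro _ ⟨y, hy, rfl⟩ hyV
    exact hy.2 ⟨hUB hy.1, hyV⟩
  obtain ⟨hmeas, hint⟩ := h.integral hUG (diff_subset.trans hUB) (hM_cont P hT)
  have e1 : (FK P Vᶜ T T).re = ∫ x in thP n p Y '' (U \ G), hM P T x ∂P.μ := by
    rw [fk_hM P Vᶜ hT]
    exact setIntegral_eq_of_subset_of_forall_diff_eq_zero hV.measurableSet.compl him
      fun x hx => hzero x hx.1 hx.2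
  rw [e1, hint, ← integral_const_mul]
  have hβ : ∀ y ∈ B, DifferentiableAt ℝ (fun y => f y / ω' y) y := fun y hy =>
    (hf.contDiffAt.div (hω.contDiffAt (h.opB.mem_nhds hy))
      (hp y hy).ne').differentiableAt (by simp)
  have hpt : ∀ y ∈ U \ G, √((κ y) ^ n) * hM P T (thP n p Y y) ≤ (m1 + m2) * c1 * hd f y := by
    intro y hy
    have hyC : y ∈ C := hsub hy
    have hyB : y ∈ B := hCB hyC
    have e2 := h.hM_eqB hz hT hyB
    have e3 : ∀ j, nb (bj P p Y) j (fun y => T (thP n p Y y)) y =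
        dj j (fun y => f y / ω' y) y • e y := by
      intro j
      have e4 : (fun y => T (thP n p Y y)) =ᶠ[𝓝 y] fun y => (f y / ω' y) • e y :=
        Filter.eventuallyEq_of_mem (h.opB.mem_nhds hyB) fun x hx => hTe x hx
      have e4' : nb (bj P p Y) j (fun y => T (thP n p Y y)) y =
          nb (bj P p Y) j (fun y => (f y / ω' y) • e y) y := by
        unfold nb
        rw [e4.fderiv_eq, e4.self_of_nhds]
      rw [e4', nb_smul_e h.opB he hyB (hβ y hyB) j]
    have e5 : ‖e y‖ = 1 := he.unit y hyB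
    have e6 : ∀ j, ‖nb (bj P p Y) j (fun y => T (thP n p Y y)) y‖ ^ 2 =
        dj j (fun y => f y / ω' y) y ^ 2 := by
      intro j
      rw [e3 j, norm_smul, e5, mul_one, Real.norm_eq_abs, sq_abs]
    have e7 : ‖T (thP n p Y y)‖ ^ 2 = (f y / ω' y) ^ 2 := by
      rw [hTe y hyB, norm_smul, e5, mul_one, Real.norm_eq_abs, sq_abs]
    simp only [e6] at e2
    rw [e7] at e2
    have e8 := h3 f y hyC (hf.differentiable (by simp) y)
    have e9 : hd (fun x => (ω' x)⁻¹ * f x) y = hd (fun y => f y / ω' y) y := by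
      have : (fun x => (ω' x)⁻¹ * f x) = fun y => f y / ω' y := by
        funext x
        rw [div_eq_inv_mul]
      rw [this]
    rw [e9] at e8
    have e10 : ds κ y ≤ m1 := (le_abs_self _).trans (h1 y hyC)
    have e11 : wt κ y ≤ m2 := (le_abs_self _).trans (h2 y hyC)
    have e12 : 0 ≤ ∑ j, dj j (fun y => f y / ω' y) y ^ 2 :=
      Finset.sum_nonneg fun j _ => sq_nonneg _
    have e13 : √((κ y) ^ n) * hM P T (thP n p Y y) ≤
        (m1 + m2) * hd (fun y => f y / ω' y) y := by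
      show ds κ y * _ ≤ _
      rw [e2]
      unfold hd
      nlinarith [mul_le_mul_of_nonneg_right e11 e12,
        mul_le_mul_of_nonneg_right e10 (sq_nonneg (f y / ω' y)), mul_nonneg hm1 e12,
        mul_nonneg hm2 (sq_nonneg (f y / ω' y))]
    calc _ ≤ (m1 + m2) * hd (fun y => f y / ω' y) y := e13
      _ ≤ (m1 + m2) * (c1 * hd f y) := mul_le_mul_of_nonneg_left e8 (by positivity)
      _ = _ := by ring
  have hc1' : ContinuousOn (fun y => √((κ y) ^ n) * hM P T (thP n p Y y)) C :=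
    (h.ds_smooth.continuousOn.mono hCB).mul
      ((hM_cont P hT).comp_continuousOn (h.contTh.mono hCB))
  have hc2' : ContinuousOn (fun y => (m1 + m2) * c1 * hd f y) C :=
    continuousOn_const.mul ((hd_cont isOpen_univ hf.contDiffOn).mono (subset_univ _))
  exact setIntegral_mono_on ((hc1'.integrableOn_compact hC).mono_set hsub)
    ((hc2'.integrableOn_compact hC).mono_set hsub) hUG hpt

/-- The functional `E(·, T)`, `T` the extension by zero of `(f / ω) e`. -/
theorem CIn.func1B {r r' : ℝ} (hr : 0 < r) (hr' : r' < r)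
    (h : CIn P p D X Y κ (ball 0 r)) {z : E n}
    (hz : trS (ball 0 r) z ⊆ {x | 0 < x 0}) (he : Par1 (bj P p Y) (ball 0 r) e) {ω' : E n → ℝ}
    (hω : ContDiffOn ℝ ∞ ω' (ball 0 r)) (hp : ∀ y ∈ ball (0 : E n) r, 0 < ω' y)
    (hw : ∀ y ∈ ball (0 : E n) r, wt κ y = ω' y ^ 2)
    (hl : ∀ y ∈ ball (0 : E n) r, lap ω' y = 0) {f : E n → ℝ} {T : M → Fib N}
    (hf : ContDiff ℝ ∞ f) (hfs : tsupport f ⊆ ball 0 r') (hT : SmS n T)
    (hTe : ∀ y ∈ ball (0 : E n) r, T (thP n p Y y) = (f y / ω' y) • e y)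
    (hTs : tsupport T ⊆ thP n p Y '' tsupport fun y => f y / ω' y) {φ : M → Fib N}
    (hφ : SmS n φ) :
    ‖P.E φ T‖ ≤ ∫ y in closedBall (0 : E n) r', |ω' y * lap f y| * ‖φ (thP n p Y y)‖ := by
  have hKc : IsCompact (closedBall (0 : E n) r') := isCompact_closedBall _ _
  have hKB : closedBall (0 : E n) r' ⊆ ball 0 r := closedBall_subset_ball hr'
  have hfB : tsupport f ⊆ ball 0 r := hfs.trans (ball_subset_ball hr'.le)
  have hβ := quot_smooth isOpen_ball hf hfB hω hp
  have hE := h.energyTB hr hr' hz (β := fun y => f y / ω' y) ((quot_supp f ω').trans hfs) hT hTe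
    hTs hφ
  have c2 : (2 : WithTop ℕ∞) ≤ ∞ := WithTop.coe_le_coe.2 (le_top (a := (2 : ℕ∞)))
  have hnorm : ‖P.E φ T‖ = ‖P.E T φ‖ := by
    obtain ⟨-, -, f3, -, -⟩ := TM.fForm n N M P
    rw [f3 T φ hT hφ, RCLike.norm_conj]
  have hL : ∀ y ∈ ball (0 : E n) r, Lm (wt κ) (bj P p Y) (fun y => (f y / ω' y) • e y) y =
      (ω' y * lap f y) • e y := by
    intro y hy
    rw [Lm_smul_e isOpen_ball he (wt_smooth h) hβ.contDiffOn hy]
    congr 1
    have e1 : ∀ j, dj j (fun x => wt κ x * dj j (fun y => f y / ω' y) x) y =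
        dj j (fun x => ω' x ^ 2 * dj j (fun y => f y / ω' y) x) y := by
      intro j
      refine dj_congr ?_ j
      filter_upwards [isOpen_ball.mem_nhds hy] with x hx
      rw [hw x hx]
    simp only [e1]
    rw [divω ((hω.contDiffAt (isOpen_ball.mem_nhds hy)).of_le c2) (hβ.contDiffAt.of_le c2),
      hl y hy, mul_zero, sub_zero]
    congr 1
    refine lap_congr ?_
    filter_upwards [isOpen_ball.mem_nhds hy] with x hx
    rw [mul_div_cancel₀ _ (hp x hx).ne']
  have hF : ∫ y in ball (0 : E n) r, inner ℂ (Lm (wt κ) (bj P p Y)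
      (fun y => (f y / ω' y) • e y) y) (φ (thP n p Y y)) =
      ∫ y in ball (0 : E n) r, inner ℂ ((ω' y * lap f y) • e y) (φ (thP n p Y y)) := by
    refine setIntegral_congr_fun measurableSet_ball fun y hy => ?_
    show inner ℂ (Lm (wt κ) (bj P p Y) (fun y => (f y / ω' y) • e y) y) (φ (thP n p Y y)) = _
    rw [hL y hy]
  have hF2 : ∫ y in ball (0 : E n) r, inner ℂ ((ω' y * lap f y) • e y) (φ (thP n p Y y)) =
      ∫ y in closedBall (0 : E n) r', inner ℂ ((ω' y * lap f y) • e y)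
        (φ (thP n p Y y)) := by
    refine setIntegral_eq_of_subset_of_forall_diff_eq_zero measurableSet_ball hKB ?_
    intro y hy
    have hyn : y ∉ tsupport f := fun h0 => hy.2 (ball_subset_closedBall (hfs h0))
    rw [lap_supp hyn, mul_zero, zero_smul, inner_zero_left]
  have hφc : ContinuousOn (fun y => ‖φ (thP n p Y y)‖) (closedBall (0 : E n) r') :=
    (hφ.continuous.norm).comp_continuousOn (h.contTh.mono hKB)
  have c1 : ContinuousOn (fun y => |ω' y * lap f y| * ‖φ (thP n p Y y)‖)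
      (closedBall (0 : E n) r') :=
    ((hω.continuousOn.mono hKB).mul (lap_cont hf).continuousOn).abs.mul hφc
  have i1 := c1.integrableOn_compact (μ := volume) hKc
  rw [hnorm, hE, norm_neg, hF, hF2]
  refine norm_integral_le_of_norm_le i1 ((ae_restrict_iff' measurableSet_closedBall).2
    (Eventually.of_forall fun y hy => ?_))
  refine (norm_inner_le_norm _ _).trans (le_of_eq ?_)
  rw [norm_smul, he.unit y (hKB hy), mul_one, Real.norm_eq_abs]

/-- The functional `E(·, T)`, `T` the extension by zero of `(f / ω) e`. -/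
theorem CIn.funcB {r r' : ℝ} (hr : 0 < r) (hr' : r' < r)
    (h : CIn P p D X Y κ (ball 0 r)) {z : E n}
    (hz : trS (ball 0 r) z ⊆ {x | 0 < x 0}) (he : Par1 (bj P p Y) (ball 0 r) e) {ω' : E n → ℝ}
    (hω : ContDiffOn ℝ ∞ ω' (ball 0 r)) (hp : ∀ y ∈ ball (0 : E n) r, 0 < ω' y)
    (hw : ∀ y ∈ ball (0 : E n) r, wt κ y = ω' y ^ 2)
    (hl : ∀ y ∈ ball (0 : E n) r, lap ω' y = 0) :
    ∃ c : ℝ, 0 ≤ c ∧ ∀ (f h₁ h₂ : E n → ℝ) (T : M → Fib N), ContDiff ℝ ∞ f →
      tsupport f ⊆ ball 0 r' → Continuous h₁ → HasCompactSupport h₁ → tsupport h₁ ⊆ ball 0 r' →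
      Continuous h₂ → (∀ x, lap f x = h₁ x + h₂ x) → SmS n T →
      (∀ y ∈ ball (0 : E n) r, T (thP n p Y y) = (f y / ω' y) • e y) →
      tsupport T ⊆ thP n p Y '' (tsupport fun y => f y / ω' y) →
      ∃ a : ℝ, 0 ≤ a ∧ ∀ φ : M → Fib N, SmS n φ →
        ‖P.E φ T‖ ≤ a * √(∫ x in thP n p Y '' tsupport h₁, ‖φ x‖ ^ 2 ∂P.μ) +
          √(c * ∫ x, h₂ x ^ 2) * √(∫ x, ‖φ x‖ ^ 2 ∂P.μ) := by
  haveI := (TM.fInt n N M P).1
  have hKc : IsCompact (closedBall (0 : E n) r') := isCompact_closedBall _ _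
  have hKB : closedBall (0 : E n) r' ⊆ ball 0 r := closedBall_subset_ball hr'
  obtain ⟨c, hc, hcb⟩ := h.wb hKc hKB hω.continuousOn
  refine ⟨c, hc, fun f h₁ h₂ T hf hfs h1c h1k h1s h2c hlap hT hTe hTs => ?_⟩
  have hK1K : tsupport h₁ ⊆ closedBall (0 : E n) r' := h1s.trans ball_subset_closedBall
  have h2k := h2_supp hKc (hfs.trans ball_subset_closedBall) hK1K hlap fun y hy => lap_supp hy
  refine ⟨√(∫ y in tsupport h₁, (ω' y * h₁ y) ^ 2 / ds κ y), Real.sqrt_nonneg _,
    fun φ hφ => ?_⟩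
  have b1 := h.func1B hr hr' hz he hω hp hw hl hf hfs hT hTe hTs hφ
  have b2 := h.split hKc hKB hω.continuousOn hf h1c hK1K h2c hlap hφ
  have hωc : ContinuousOn ω' (closedBall (0 : E n) r') := hω.continuousOn.mono hKB
  have b3 := h.cs h1k.isCompact (hK1K.trans hKB) (g := fun y => ω' y * h₁ y)
    ((hωc.mono hK1K).mul h1c.continuousOn) hφ
  have b4 := h.cs hKc hKB (g := fun y => ω' y * h₂ y) (hωc.mul h2c.continuousOn) hφ
  have b5 := hcb h₂ h2c h2k
  have hG : Continuous fun x => ‖φ x‖ ^ 2 := hφ.continuous.norm.pow 2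
  have b6 : ∫ x in thP n p Y '' closedBall (0 : E n) r', ‖φ x‖ ^ 2 ∂P.μ ≤
      ∫ x, ‖φ x‖ ^ 2 ∂P.μ :=
    setIntegral_le_integral (integrable_of_continuous hG)
      (Eventually.of_forall fun y => sq_nonneg _)
  refine (b1.trans b2).trans (add_le_add b3 (b4.trans ?_))
  exact mul_le_mul (Real.sqrt_le_sqrt b5) (Real.sqrt_le_sqrt b6)
    (Real.sqrt_nonneg _) (Real.sqrt_nonneg _)

/-- Comparison of the energies of two arbitrary pairs. -/
theorem ek_fk (P Q : One n N M) :
    ∃ C : ℝ, 0 ≤ C ∧ ∀ (u : M → Fib N) (K : Set M), SmS n u → MeasurableSet K →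
      (EK Q K u u).re ≤ C * (FK P K u u).re := by
  obtain ⟨C0, hC0, h0⟩ := glob_le Q.g P.g Q.A P.A
  have hrc := continuous_rho P.g Q.g
  obtain ⟨C, hC⟩ := isCompact_univ.exists_bound_of_continuousOn hrc.continuousOn
  refine ⟨max C 0 * C0, by positivity, fun u K hu hK => ?_⟩
  haveI := (TM.fInt n N M P).1
  rw [ek_re Q K hu, fk_hM P K hu, withDensity_rho P Q, restrict_withDensity hK,
    integral_withDensity_eq_integral_toReal_smul₀, ← integral_const_mul]
  · refine integral_mono ?_ ?_ fun x => ?_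
    · have h2 : Continuous fun x => (ENNReal.ofReal (rho P.g Q.g x)).toReal •
          (pairing Q.g Q.A u u x).re := by
        have h3 : (fun x => (ENNReal.ofReal (rho P.g Q.g x)).toReal •
          (pairing Q.g Q.A u u x).re) = fun x => rho P.g Q.g x •
          (pairing Q.g Q.A u u x).re := by
          funext x
          rw [ENNReal.toReal_ofReal (rho_pos P.g Q.g x).le]
        rw [h3]
        exact hrc.smul (Complex.continuous_re.comp (continuous_pairing Q.g Q.A hu hu))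
      exact (integrable_of_continuous h2).integrableOn
    · exact ((integrable_of_continuous (hM_cont P hu)).integrableOn).const_mul _
    · show (ENNReal.ofReal (rho P.g Q.g x)).toReal • (pairing Q.g Q.A u u x).re ≤
        max C 0 * C0 * hM P u x
      rw [ENNReal.toReal_ofReal (rho_pos P.g Q.g x).le, smul_eq_mul, mul_assoc]
      have h4 : rho P.g Q.g x ≤ max C 0 :=
        ((le_abs_self _).trans (hC x (mem_univ x))).trans (le_max_left _ _)
      exact mul_le_mul h4 (h0 x u) (cForm_pairing_nonneg Q.g Q.A u x) (le_max_right _ _)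
  · exact hrc.measurable.ennreal_ofReal.aemeasurable
  · exact Eventually.of_forall fun x => ENNReal.ofReal_lt_top

end

end Vale.Agent.P088.R2.H338

end
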