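import Vale.Agent.P088.R2.H338.LC

/-!
# P088, Theorem S, local form of the interior step: the bounds for `v - f` and `w`
-/

set_option linter.all false

open Bundle Manifold MeasureTheory Set Filter Topology Metric
open scoped ContDiff Matrix

noncomputable section

namespace Vale.Agent.P088.R2.H338

open Vale.Agent.P088 Vale.Agent.P088.EYM Vale.Agent.P088.EYM.O
open Vale.Agent.P088.R2.H31 (dj lap dj_congr dj_congr_ev lap_congr dj_mul lap_mul)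

universe u

section

variable {n N : ℕ} [NeZero n] {M : Type u} [TopologicalSpace M]
  [ChartedSpace (EuclideanHalfSpace n) M] [IsManifold (𝓡∂ n) ∞ M]
variable [MeasurableSpace M] {P Q : One n N M} {p : M} {D : Set (E n)} {X Y : E n → E n}
  {κ κ' : E n → ℝ} {B : Set (E n)} {e : E n → Fib N}
variable [T2Space M] [CompactSpace M] [BorelSpace M]

/-- `v - f`. -/
theorem CIn.closeB (h : CIn P p D X Y κ B) {z : E n}
    (hz : trS B z ⊆ {x | 0 < x 0}) (he : Par1 (bj P p Y) B e) {C : Set (E n)}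
    (hC : IsCompact C) (hCB : C ⊆ B)
    {ω' : E n → ℝ} (hω : ContDiffOn ℝ ∞ ω' B) (hp : ∀ y ∈ B, 0 < ω' y) :
    ∃ c : ℝ, 0 ≤ c ∧ ∀ (f : E n → ℝ) (T u : M → Fib N) (S : Set (E n)) (K : Set M),
      ContDiff ℝ ∞ f → SmS n T → SmS n u → MeasurableSet S → S ⊆ C → thP n p Y '' S ⊆ K →
      (∀ y ∈ B, T (thP n p Y y) = (f y / ω' y) • e y) →
      ∫ y in S, (ω' y * rs n p Y e u y - f y) ^ 2 ≤ c * (FK P K (T - u) (T - u)).re := by
  obtain ⟨c1, hc1, h1⟩ := h.H1_leB hz he hC hCB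
  obtain ⟨c2, hc2, h2⟩ := bdd_abs hC (hω.continuousOn.mono hCB)
  refine ⟨c2 ^ 2 * c1, by positivity, fun f T u S K hf hT hu hS hSC hSK hTe => ?_⟩
  have hTu : SmS n (T - u) := hT.sub hu
  have h3 := h1 (T - u) S K hTu hS hSC hSK
  have hcd : ContinuousOn (hd (rs n p Y e (T - u))) C :=
    (hd_cont h.opB (h.smR he.sm hTu)).mono hCB
  have hcv : ContinuousOn (fun y => (ω' y * rs n p Y e u y - f y) ^ 2) C :=
    (((hω.continuousOn.mono hCB).mul ((h.smR he.sm hu).continuousOn.mono hCB)).sub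
      hf.continuous.continuousOn).pow 2
  have h4 : ∀ y ∈ S, (ω' y * rs n p Y e u y - f y) ^ 2 ≤
      c2 ^ 2 * hd (rs n p Y e (T - u)) y := by
    intro y hy
    have hyB : y ∈ B := hCB (hSC hy)
    have e1 : rs n p Y e (T - u) y = f y / ω' y - rs n p Y e u y := by
      have e0 : rs n p Y e (T - u) y = rs n p Y e T y - rs n p Y e u y := by
        unfold rs rc
        show (inner ℂ (e y) (T (thP n p Y y) - u (thP n p Y y)) : ℂ).re = _
        rw [inner_sub_right, Complex.sub_re]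
      rw [e0]
      congr 1
      exact rc_smul_e he hyB (β := fun y => f y / ω' y) (hTe y hyB)
    have e2 : (ω' y * rs n p Y e u y - f y) ^ 2 =
        ω' y ^ 2 * (rs n p Y e (T - u) y) ^ 2 := by
      rw [e1, ← mul_pow, mul_sub, mul_div_cancel₀ _ (hp y hyB).ne']
      ring
    rw [e2]
    have e3 : ω' y ^ 2 ≤ c2 ^ 2 := by
      rw [← sq_abs]
      exact pow_le_pow_left₀ (abs_nonneg _) (h2 y (hSC hy)) 2
    have e4 : (rs n p Y e (T - u) y) ^ 2 ≤ hd (rs n p Y e (T - u)) y :=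
      le_add_of_nonneg_right (Finset.sum_nonneg fun j _ => sq_nonneg _)
    exact mul_le_mul e3 e4 (sq_nonneg _) (sq_nonneg _)
  calc ∫ y in S, (ω' y * rs n p Y e u y - f y) ^ 2
      ≤ ∫ y in S, c2 ^ 2 * hd (rs n p Y e (T - u)) y :=
        setIntegral_mono_on ((hcv.integrableOn_compact hC).mono_set hSC)
          (((hcd.integrableOn_compact hC).mono_set hSC).const_mul _) hS h4
    _ = c2 ^ 2 * ∫ y in S, hd (rs n p Y e (T - u)) y :=
        integral_const_mul _ _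
    _ ≤ c2 ^ 2 * (c1 * (FK P K (T - u) (T - u)).re) :=
        mul_le_mul_of_nonneg_left h3 (sq_nonneg _)
    _ = _ := by ring

/-- The `H¹` norm of `w = ω₂ u₂ - ω₁ u₁`. -/
theorem CIn.wboundB [ConnectedSpace M] (h : CIn P p D X Y κ B) (h' : CIn Q p D X Y κ' B)
    {z : E n} (hz : trS B z ⊆ {x | 0 < x 0}) (he : Par1 (bj P p Y) B e)
    (he' : Par1 (bj Q p Y) B e) {C U : Set (E n)} (hC : IsCompact C) (hCB : C ⊆ B)
    (hU : IsOpen U) (hUC : U ⊆ C) {ω₁ ω₂ : E n → ℝ} (hω₁ : ContDiffOn ℝ ∞ ω₁ B)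
    (hω₂ : ContDiffOn ℝ ∞ ω₂ B)
    {V : Set M} (hV : IsOpen V) (hωV : ∀ y ∈ B, thP n p Y y ∈ V → ω₂ y = ω₁ y)
    (hb : ((𝓡∂ n).boundary M).Nonempty) :
    ∃ k : ℝ, 0 ≤ k ∧ ∀ f u₁ u₂ : M → Fib N, P.Harm f u₁ → Q.Harm f u₂ →
      (∀ x ∈ V, u₁ x = u₂ x) →
      ∫ y in U, hd (fun y => ω₂ y * rs n p Y e u₂ y - ω₁ y * rs n p Y e u₁ y) y ≤
        k * (FK P Vᶜ u₁ u₁).re := by
  obtain ⟨c1, hc1, h1⟩ := h.H1_leB hz he hC hCB
  obtain ⟨c2, hc2, h2⟩ := h'.H1_leB hz he' hC hCB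
  obtain ⟨c3, hc3, h3⟩ := mulH1 h.opB hC hCB hω₂
  obtain ⟨c4, hc4, h4⟩ := mulH1 h.opB hC hCB (hω₂.sub hω₁)
  obtain ⟨c5, hc5, h5⟩ := trL2 Q hb
  obtain ⟨c6, hc6, h6⟩ := ek_fk P Q
  refine ⟨2 * c4 * c1 + 2 * c3 * (c2 * ((1 + c5) * c6)), by positivity,
    fun f u₁ u₂ hu₁ hu₂ hu => ?_⟩
  set G : Set (E n) := {y | y ∈ B ∧ thP n p Y y ∈ V} with hG
  have hGo : IsOpen G := h.contTh.isOpen_inter_preimage h.opB hV
  have hUB : U ⊆ B := hUC.trans hCB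
  have hs1 : SmS n u₁ := hu₁.smooth
  have hs2 : SmS n u₂ := hu₂.smooth
  have hs3 : SmS n (u₁ - u₂) := hs1.sub hs2
  set w : E n → ℝ := fun y => ω₂ y * rs n p Y e u₂ y - ω₁ y * rs n p Y e u₁ y with hw
  have sm1 : ContDiffOn ℝ ∞ (rs n p Y e u₁) B := h.smR he.sm hs1
  have sm2 : ContDiffOn ℝ ∞ (rs n p Y e u₂) B := h.smR he.sm hs2
  have smz : ContDiffOn ℝ ∞ (rs n p Y e (u₁ - u₂)) B := h.smR he.sm hs3
  have smw : ContDiffOn ℝ ∞ w B := (hω₂.mul sm2).sub (hω₁.mul sm1)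
  have hwe : w = fun y => (fun x => (ω₂ x - ω₁ x) * rs n p Y e u₁ x) y -
      (fun x => ω₂ x * rs n p Y e (u₁ - u₂) x) y := by
    funext y
    have e1 : rs n p Y e (u₁ - u₂) y = rs n p Y e u₁ y - rs n p Y e u₂ y := by
      unfold rs rc
      show (inner ℂ (e y) (u₁ (thP n p Y y) - u₂ (thP n p Y y)) : ℂ).re = _
      rw [inner_sub_right, Complex.sub_re]
    show ω₂ y * rs n p Y e u₂ y - ω₁ y * rs n p Y e u₁ y =
      (ω₂ y - ω₁ y) * rs n p Y e u₁ y - ω₂ y * rs n p Y e (u₁ - u₂) y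
    rw [e1]
    ring
  -- off `G`
  have hwG : ∀ y ∈ G, hd w y = 0 := by
    intro y hy
    refine hd_zero ?_
    filter_upwards [hGo.mem_nhds hy] with x hx
    show ω₂ x * rs n p Y e u₂ x - ω₁ x * rs n p Y e u₁ x = 0
    have e0 : rs n p Y e u₂ x = rs n p Y e u₁ x := by
      show (inner ℂ (e x) (u₂ (thP n p Y x)) : ℂ).re = (inner ℂ (e x) (u₁ (thP n p Y x)) : ℂ).re
      rw [hu _ hx.2]
    rw [hωV x hx.1 hx.2, e0, sub_self]
  have e1 : ∫ y in U, hd w y = ∫ y in U \ G, hd w y := by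
    refine setIntegral_eq_of_subset_of_forall_diff_eq_zero hU.measurableSet diff_subset ?_
    intro y hy
    by_contra hne
    exact hy.2 ⟨hy.1, fun hyG => hne (hwG y hyG)⟩
  have hUG : MeasurableSet (U \ G) := hU.measurableSet.diff hGo.measurableSet
  have hsub : U \ G ⊆ C := diff_subset.trans hUC
  have him : thP n p Y '' (U \ G) ⊆ Vᶜ := by
    rintro _ ⟨y, hy, rfl⟩ hyV
    exact hy.2 ⟨hUB hy.1, hyV⟩
  have hpt : ∀ y ∈ U \ G, hd w y ≤
      2 * c4 * hd (rs n p Y e u₁) y + 2 * c3 * hd (rs n p Y e (u₁ - u₂)) y := by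
    intro y hy
    have hyC := hsub hy
    have hyB := hCB hyC
    have d1 : DifferentiableAt ℝ (rs n p Y e u₁) y :=
      (sm1.contDiffAt (h.opB.mem_nhds hyB)).differentiableAt (by simp)
    have dz : DifferentiableAt ℝ (rs n p Y e (u₁ - u₂)) y :=
      (smz.contDiffAt (h.opB.mem_nhds hyB)).differentiableAt (by simp)
    have dm : DifferentiableAt ℝ (fun x => (ω₂ x - ω₁ x) * rs n p Y e u₁ x) y :=
      ((((hω₂.sub hω₁).mul sm1).contDiffAt (h.opB.mem_nhds hyB))).differentiableAt (by simp)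
    have dn : DifferentiableAt ℝ (fun x => ω₂ x * rs n p Y e (u₁ - u₂) x) y :=
      ((hω₂.mul smz).contDiffAt (h.opB.mem_nhds hyB)).differentiableAt (by simp)
    have f1 := hd_add_le dm dn
    have f2 := h4 (rs n p Y e u₁) y hyC d1
    have f3 := h3 (rs n p Y e (u₁ - u₂)) y hyC dz
    rw [hwe]
    linarith
  have i1 : IntegrableOn (hd w) (U \ G) :=
    (((hd_cont h.opB smw).mono hCB).integrableOn_compact hC).mono_set hsub
  have i2 : IntegrableOn (hd (rs n p Y e u₁)) (U \ G) :=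
    (((hd_cont h.opB sm1).mono hCB).integrableOn_compact hC).mono_set hsub
  have i3 : IntegrableOn (hd (rs n p Y e (u₁ - u₂))) (U \ G) :=
    (((hd_cont h.opB smz).mono hCB).integrableOn_compact hC).mono_set hsub
  have e2 : ∫ y in U \ G, hd w y ≤ 2 * c4 * (∫ y in U \ G, hd (rs n p Y e u₁) y) +
      2 * c3 * ∫ y in U \ G, hd (rs n p Y e (u₁ - u₂)) y := by
    rw [← integral_const_mul, ← integral_const_mul,
      ← integral_add (i2.const_mul _) (i3.const_mul _)]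
    exact setIntegral_mono_on i1 ((i2.const_mul _).add (i3.const_mul _)) hUG hpt
  have e3 := h1 u₁ (U \ G) Vᶜ hs1 hUG hsub him
  have e4 := h2 (u₁ - u₂) (U \ G) Vᶜ hs3 hUG hsub him
  have hbd : ∀ x ∈ (𝓡∂ n).boundary M, u₁ x = f x := fun x hx => hu₁.boundary x hx
  have e5 := fk_le Q Vᶜ hs3
  have e6 := trDiff Q hV hs1 hbd hu₂ hu
  have e7 := h5 f u₁ u₂ V hV hs1 hbd hu₂ hu
  have e8 := h6 u₁ Vᶜ hs1 hV.measurableSet.compl
  have e10 : ∫ x, ‖(u₁ - u₂) x‖ ^ 2 ∂Q.μ = ∫ x, ‖u₁ x - u₂ x‖ ^ 2 ∂Q.μ := rfl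
  rw [e10] at e5
  have e11 : (FK Q Vᶜ (u₁ - u₂) (u₁ - u₂)).re ≤ (1 + c5) * (c6 * (FK P Vᶜ u₁ u₁).re) := by
    calc (FK Q Vᶜ (u₁ - u₂) (u₁ - u₂)).re ≤ (1 + c5) * (EK Q Vᶜ u₁ u₁).re := by linarith
      _ ≤ (1 + c5) * (c6 * (FK P Vᶜ u₁ u₁).re) :=
        mul_le_mul_of_nonneg_left e8 (by positivity)
  rw [e1]
  calc ∫ y in U \ G, hd w y
      ≤ 2 * c4 * (∫ y in U \ G, hd (rs n p Y e u₁) y) +
        2 * c3 * ∫ y in U \ G, hd (rs n p Y e (u₁ - u₂)) y := e2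
    _ ≤ 2 * c4 * (c1 * (FK P Vᶜ u₁ u₁).re) +
        2 * c3 * (c2 * ((1 + c5) * (c6 * (FK P Vᶜ u₁ u₁).re))) := by
        refine add_le_add (mul_le_mul_of_nonneg_left e3 (by positivity))
          (mul_le_mul_of_nonneg_left (e4.trans (mul_le_mul_of_nonneg_left e11 hc2))
            (by positivity))
    _ = _ := by ring

end

/-- The interior step, local form. -/
theorem glCore (n N : ℕ) [NeZero n] (M : Type u) [TopologicalSpace M]
    [ChartedSpace (EuclideanHalfSpace n) M] [IsManifold (𝓡∂ n) ∞ M] [T2Space M] [CompactSpace M]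
    [ConnectedSpace M] [MeasurableSpace M] [BorelSpace M] (P Q : One n N M) (Γ V : Set M)
    (p : M) (D : Set (E n)) (X Y : E n → E n) (κ κ' ω₁ ω₂ : E n → ℝ) (e : E n → Fib N)
    (R r : ℝ) (hR : 0 < R) (hRr : R < r) (hΓ : RelBd n Γ) (hV : IsOpen V)
    (hVp : IsPreconnected V) (hVΓ : (V ∩ Γ).Nonempty) (hS : SameD P Q Γ) (hag : AgreeOn P Q V)
    (h : CIn P p D X Y κ (ball 0 r)) (h' : CIn Q p D X Y κ' (ball 0 r))
    (he : Par1 (bj P p Y) (ball 0 r) e) (he' : Par1 (bj Q p Y) (ball 0 r) e)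
    (hω₁ : ContDiffOn ℝ ∞ ω₁ (ball 0 r)) (hω₂ : ContDiffOn ℝ ∞ ω₂ (ball 0 r))
    (hp₁ : ∀ y ∈ ball (0 : E n) r, 0 < ω₁ y) (hp₂ : ∀ y ∈ ball (0 : E n) r, 0 < ω₂ y)
    (hw₁ : ∀ y ∈ ball (0 : E n) r, wt κ y = ω₁ y ^ 2)
    (hw₂ : ∀ y ∈ ball (0 : E n) r, wt κ' y = ω₂ y ^ 2)
    (hl : ∀ y ∈ ball (0 : E n) r, lap ω₁ y = 0)
    (hωV : ∀ y ∈ ball (0 : E n) r, thP n p Y y ∈ V → ω₂ y = ω₁ y) :
    H31.Step n R {y | y ∈ ball (0 : E n) r ∧ thP n p Y y ∈ V} (fun y => lap ω₂ y / ω₂ y) := by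
  have hr : 0 < r := hR.trans hRr
  -- translation
  obtain ⟨z, hz⟩ : ∃ z : E n, trS (ball 0 r) z ⊆ {x | 0 < x 0} := by
    refine ⟨(2 * r) • ev 0, fun x hx => ?_⟩
    have h1 : x - (2 * r) • ev 0 ∈ ball (0 : E n) r := hx
    rw [mem_ball_zero_iff] at h1
    have h2 : |(x - (2 * r) • (ev 0 : E n)) 0| ≤ ‖x - (2 * r) • (ev 0 : E n)‖ := by
      have := PiLp.norm_apply_le (x - (2 * r) • (ev 0 : E n)) 0
      rwa [Real.norm_eq_abs] at this
    simp only [PiLp.sub_apply, PiLp.smul_apply, ev_apply, if_true, smul_eq_mul, mul_one] at h2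
    have h3 := (abs_lt.1 (h2.trans_lt h1)).1
    show 0 < x 0
    linarith
  have hΓn : Γ.Nonempty := hVΓ.mono inter_subset_right
  have hbn : ((𝓡∂ n).boundary M).Nonempty := by
    obtain ⟨O, -, rfl⟩ := hΓ
    exact hΓn.mono inter_subset_right
  obtain ⟨⟨hsP, hsQ, -⟩, -⟩ :=
    Vale.Agent.P088.EYM.cData TM.fUniq TM.fForm n N M P Q Γ hΓ hΓn hS
  set C : Set (E n) := closedBall 0 R with hCd
  have hC : IsCompact C := isCompact_closedBall _ _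
  have hCB : C ⊆ ball 0 r := closedBall_subset_ball hRr
  have hUC : ball (0 : E n) R ⊆ C := ball_subset_closedBall
  set G : Set (E n) := {y | y ∈ ball (0 : E n) r ∧ thP n p Y y ∈ V} with hG
  have hGo : IsOpen G := h.contTh.isOpen_inter_preimage h.opB hV
  obtain ⟨C1, hC1, hrun⟩ := runQ n N M P Γ hΓ hΓn hsP
  obtain ⟨C2, hC2, hclose⟩ := h.closeB hz he hC hCB hω₁ hp₁
  obtain ⟨C3, hC3, hwb⟩ := h.wboundB h' hz he he' hC hCB isOpen_ball hUC hω₁ hω₂ hV hωV hbn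
  obtain ⟨C4, hC4, hfkt⟩ := h.FKTB hz he hC hCB isOpen_ball.measurableSet hUC hω₁ hp₁
  obtain ⟨C5, hC5, hfun⟩ := h.funcB hr hRr hz he hω₁ hp₁ hw₁ hl
  refine ⟨C2 * C1 * C5 + 2 * C3 * C1 * C5 + 2 * C3 * C4, by positivity, ?_⟩
  intro f h₁ h₂ hf hfc hfs h1c h1k h1s h2c hlap ε hε
  have hfB : tsupport f ⊆ ball 0 r := hfs.trans (ball_subset_ball hRr.le)
  -- the section `T`
  have hqs : tsupport (fun y => f y / ω₁ y) ⊆ tsupport f := quot_supp f ω₁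
  have hqc : HasCompactSupport (fun y => f y / ω₁ y) :=
    IsCompact.of_isClosed_subset hfc (isClosed_tsupport _) hqs
  obtain ⟨T, hT, hTe, hTs, hTb⟩ := h.extE he (quot_smooth isOpen_ball hf hfB hω₁ hp₁) hqc
    (hqs.trans hfB)
  obtain ⟨a, ha, hET⟩ := hfun f h₁ h₂ T hf hfs h1c h1k (h1s.trans inter_subset_right) h2c hlap hT
    hTe hTs
  have hI0 : 0 ≤ ∫ x, h₂ x ^ 2 := integral_nonneg fun x => sq_nonneg _
  have hSc : IsCompact (thP n p Y '' tsupport h₁) := h1k.isCompact.image_of_continuousOn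
    (h.contTh.mono ((h1s.trans inter_subset_right).trans (ball_subset_ball hRr.le)))
  have hSV : thP n p Y '' tsupport h₁ ⊆ V ∩ Mi n M := by
    rintro _ ⟨y, hy, rfl⟩
    exact ⟨(h1s hy).1.2, h.mem_int (h1s hy).1.1⟩
  have hε' : 0 < ε / (C2 + 2 * C3 + 1) := by positivity
  obtain ⟨u₁, ⟨f0, hf0, hu₁⟩, hu₁b⟩ := hrun V (thP n p Y '' tsupport h₁) T a
    (√(C5 * ∫ x, h₂ x ^ 2)) hV hVp hVΓ hT hTb hSc hSV ha (Real.sqrt_nonneg _)
    (fun φ hφ _ => hET φ hφ) _ hε'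
  rw [Real.sq_sqrt (by positivity)] at hu₁b
  obtain ⟨u₂, hu₂⟩ := hsQ f0 hf0
  have hu : ∀ x ∈ V, u₁ x = u₂ x :=
    lS n N M P Q Γ V hΓ hV hVp hVΓ hS hag.conn hag.met (u₁, u₂) ⟨f0, hf0, hu₁, hu₂⟩
  have hs1 : SmS n u₁ := hu₁.smooth
  have hs2 : SmS n u₂ := hu₂.smooth
  have sm1 : ContDiffOn ℝ ∞ (rs n p Y e u₁) (ball 0 r) := h.smR he.sm hs1
  have sm2 : ContDiffOn ℝ ∞ (rs n p Y e u₂) (ball 0 r) := h.smR he.sm hs2
  have smv : ContDiffOn ℝ ∞ (fun y => ω₁ y * rs n p Y e u₁ y) (ball 0 r) := hω₁.mul sm1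
  have smv2 : ContDiffOn ℝ ∞ (fun y => ω₂ y * rs n p Y e u₂ y) (ball 0 r) := hω₂.mul sm2
  have smw := smv2.sub smv
  have hsub : ball (0 : E n) R \ G ⊆ C := diff_subset.trans hUC
  have c2 : (2 : WithTop ℕ∞) ≤ ∞ := WithTop.coe_le_coe.2 (le_top (a := (2 : ℕ∞)))
  refine ⟨fun y => ω₁ y * rs n p Y e u₁ y, fun y => ω₂ y * rs n p Y e u₂ y -
    ω₁ y * rs n p Y e u₁ y, ?_, ?_, ?_, ?_, ?_, ?_, ?_, ?_⟩
  · exact smv.continuousOn.mono (hsub.trans hCB)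
  · exact (smw.mono (ball_subset_ball hRr.le)).of_le c2
  · intro x hx
    show ω₂ x * rs n p Y e u₂ x - ω₁ x * rs n p Y e u₁ x = 0
    have e0 : rs n p Y e u₂ x = rs n p Y e u₁ x := by
      show (inner ℂ (e x) (u₂ (thP n p Y x)) : ℂ).re = (inner ℂ (e x) (u₁ (thP n p Y x)) : ℂ).re
      rw [hu _ hx.1.2]
    rw [hωV x hx.1.1 hx.1.2, e0, sub_self]
  · intro x hx
    have hxB : x ∈ ball (0 : E n) r := ball_subset_ball hRr.le hx
    have e1 := h.harmRB hz he hω₁ hp₁ hw₁ hu₁ hxB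
    have e2 := h'.harmRB hz he' hω₂ hp₂ hw₂ hu₂ hxB
    have e3 : lap (fun y => ω₂ y * rs n p Y e u₂ y - ω₁ y * rs n p Y e u₁ y) x =
        rs n p Y e u₂ x * lap ω₂ x - rs n p Y e u₁ x * lap ω₁ x := by
      rw [H31.lap_sub ((smv2.contDiffAt (isOpen_ball.mem_nhds hxB)).of_le c2)
        ((smv.contDiffAt (isOpen_ball.mem_nhds hxB)).of_le c2)]
      exact congrArg₂ (fun a b => a - b) e2 e1
    rw [e3, hl x hxB]
    show _ = lap ω₂ x / ω₂ x * (ω₂ x * rs n p Y e u₂ x -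
      ω₁ x * rs n p Y e u₁ x + ω₁ x * rs n p Y e u₁ x)
    have := (hp₂ x hxB).ne'
    field_simp
    ring
  · have hcv : ContinuousOn (fun y => (ω₁ y * rs n p Y e u₁ y - f y) ^ 2) C :=
      ((smv.continuousOn.mono hCB).sub hf.continuous.continuousOn).pow 2
    exact (hcv.integrableOn_compact hC).mono_set hsub
  · have e1 := hclose f T u₁ (ball 0 R \ G) Vᶜ hf hT hs1
      (isOpen_ball.measurableSet.diff hGo.measurableSet) hsub (by
        rintro _ ⟨y, hy, rfl⟩ hyV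
        exact hy.2 ⟨ball_subset_ball hRr.le hy.1, hyV⟩) hTe
    refine e1.trans ((mul_le_mul_of_nonneg_left hu₁b hC2).trans ?_)
    have e2 : C2 * (ε / (C2 + 2 * C3 + 1)) ≤ ε := by
      rw [mul_div_assoc', div_le_iff₀ (by positivity)]
      nlinarith
    have e3 : 0 ≤ (2 * C3 * C1 * C5 + 2 * C3 * C4) * ∫ x, h₂ x ^ 2 := by positivity
    nlinarith
  · exact (((hd_cont isOpen_ball smw).mono hCB).integrableOn_compact hC).mono_set hUC
  · have e1 := hwb f0 u₁ u₂ hu₁ hu₂ hu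
    have hTu : SmS n (T - u₁) := hT.sub hs1
    have e2 : (FK P Vᶜ u₁ u₁).re ≤ 2 * (FK P Vᶜ T T).re + 2 * (FK P Vᶜ (T - u₁) (T - u₁)).re := by
      have e3 := fk_para P Vᶜ hT hTu
      have e0 : T - (T - u₁) = u₁ := by
        funext x
        show T x - (T x - u₁ x) = u₁ x
        abel
      rw [e0] at e3
      exact e3
    have e4 := hfkt f T V hf hfs hT hV hTe (hTs.trans (image_mono hqs))
    have e5 : 0 ≤ ∫ y in ball (0 : E n) R \ G, hd f y := integral_nonneg fun y => hd_nonneg f y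
    have e6 : 2 * C3 * (ε / (C2 + 2 * C3 + 1)) ≤ ε := by
      rw [mul_div_assoc', div_le_iff₀ (by positivity)]
      nlinarith
    have e7 : 0 ≤ C2 * C1 * C5 * ∫ x, h₂ x ^ 2 := by positivity
    have e8 : 0 ≤ 2 * C3 * C4 * ∫ x, h₂ x ^ 2 := by positivity
    have e9 : 0 ≤ (C2 * C1 * C5 + 2 * C3 * C1 * C5) * ∫ y in ball (0 : E n) R \ G, hd f y := by
      positivity
    have e10 : (FK P Vᶜ u₁ u₁).re ≤ 2 * (C4 * ∫ y in ball (0 : E n) R \ G, hd f y) +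
        2 * (C1 * (C5 * ∫ x, h₂ x ^ 2) + ε / (C2 + 2 * C3 + 1)) := by
      linarith
    refine e1.trans ((mul_le_mul_of_nonneg_left e10 hC3).trans ?_)
    show _ ≤ (C2 * C1 * C5 + 2 * C3 * C1 * C5 + 2 * C3 * C4) *
      ((∫ y in ball (0 : E n) R \ G, hd f y) + ∫ x, h₂ x ^ 2) + ε
    linarith

end Vale.Agent.P088.R2.H338

end
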