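import Vale.Agent.P088.R2.H31.GSpec

/-!
# P088, Theorem S: the local form of the interior step
-/

open Bundle Manifold MeasureTheory Set Filter Topology Metric
open scoped ContDiff Matrix

noncomputable section

namespace Vale.Agent.P088.R2.H338

open Vale.Agent.P088 Vale.Agent.P088.EYM Vale.Agent.P088.EYM.O

universe u

/-- (GL) The interior step in local form: `P` and `Q` are arbitrary off the open set `W`; on `W`
the metrics are conformal, the metric of `P` is conformally flat with a harmonic conformal factor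
in the coordinates, and there is a unit section which is parallel for both connections. -/
def GL_statement : Prop :=
  ∀ (n N : ℕ) [NeZero n] (M : Type u) [TopologicalSpace M] [ChartedSpace (EuclideanHalfSpace n) M]
    [IsManifold (𝓡∂ n) ∞ M] [T2Space M] [CompactSpace M] [ConnectedSpace M] [MeasurableSpace M]
    [BorelSpace M] (P Q : One n N M) (Γ V W : Set M) (c : M → ℝ) (e : M → Fib N) (p : M)
    (D : Set (E n)) (X Y : E n → E n) (om : E n → ℝ) (R : ℝ), 3 ≤ n → 0 < R → RelBd n Γ →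
    IsOpen V → IsPreconnected V → (V ∩ Γ).Nonempty → SameD P Q Γ → AgreeOn P Q V → IsOpen W →
    ContMDiffOn (𝓡∂ n) 𝓘(ℝ, ℝ) ∞ c W → (∀ x ∈ W, 0 < c x) →
    (∀ x ∈ W, ∀ v w : TangentSpace (𝓡∂ n) x, Q.g.inner x v w = c x * P.g.inner x v w) →
    ContMDiffOn (𝓡∂ n) 𝓘(ℝ, Fib N) ∞ e W → (∀ x ∈ W, ‖e x‖ = 1) →
    (∀ x ∈ W, ∀ X : TangentSpace (𝓡∂ n) x, cov P.A e x X = 0) →
    (∀ x ∈ W, ∀ X : TangentSpace (𝓡∂ n) x, cov Q.A e x X = 0) →
    (∀ x ∈ D, (xc n p).symm x ∈ W) → G31.FlatIn P p D X Y om (2 * R) →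
    H31.Step n R {y | y ∈ ball (0 : E n) (2 * R) ∧ (xc n p).symm (Y y) ∈ V}
      (fun y => H31.lap (fun z => (c ((xc n p).symm (Y z))) ^ (((n : ℝ) - 2) / 4) * om z) y /
        ((c ((xc n p).symm (Y y))) ^ (((n : ℝ) - 2) / 4) * om y))

end Vale.Agent.P088.R2.H338
end
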