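import Vale.Agent.P088.R2.H338.LD
import Vale.Agent.P088.R2.H338.GI
import Vale.Agent.P088.R2.H338.LSpec

/-!
# P088, Theorem S: the local form of the interior step
-/

set_option linter.all false

open Bundle Manifold MeasureTheory Set Filter Topology Metric
open scoped ContDiff Matrix

noncomputable section

namespace Vale.Agent.P088.R2.H338

open Vale.Agent.P088 Vale.Agent.P088.EYM Vale.Agent.P088.EYM.O
open Vale.Agent.P088.R2.H31 (dj lap dj_congr dj_congr_ev lap_congr dj_mul lap_mul)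

universe u

section

variable {n N : ℕ} [NeZero n] {M : Type u} [TopologicalSpace M]
  [ChartedSpace (EuclideanHalfSpace n) M] [IsManifold (𝓡∂ n) ∞ M] [MeasurableSpace M]

theorem smP {p : M} {Y : E n → E n} {B : Set (E n)} (hY : ContDiffOn ℝ ∞ Y B)
    (hm : MapsTo Y B (tg n p)) : ContMDiffOn 𝓘(ℝ, E n) (𝓡∂ n) ∞ (thP n p Y) B :=
  (contMDiffOn_extChartAt_symm p).comp hY.contMDiffOn hm

/-- Local maps in the coordinates. -/
theorem smLoc {V : Type*} [NormedAddCommGroup V] [NormedSpace ℝ V] {p : M} {Y : E n → E n}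
    {B : Set (E n)} (hY : ContDiffOn ℝ ∞ Y B) (hm : MapsTo Y B (tg n p)) {W : Set M} {c : M → V}
    (hc : ContMDiffOn (𝓡∂ n) 𝓘(ℝ, V) ∞ c W) (hW : ∀ y ∈ B, thP n p Y y ∈ W) :
    ContDiffOn ℝ ∞ (fun y => c (thP n p Y y)) B := by
  rw [← contMDiffOn_iff_contDiffOn]
  exact hc.comp (smP hY hm) hW

/-- The covariant derivative in the chart, for a local section. -/
theorem nab_local {P : One n N M} {p : M} {e : M → Fib N} {W : Set M} (hW : IsOpen W)
    (he : ContMDiffOn (𝓡∂ n) 𝓘(ℝ, Fib N) ∞ e W) {x : E n} (hx : x ∈ tg n p)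
    (hxW : (xc n p).symm x ∈ W) (j : Fin n) :
    nab (P.loc p) j (lu (𝓡∂ n) p e) x =
      cov P.A e ((xc n p).symm x) (coordVec (𝓡∂ n) p ((xc n p).symm x) j) := by
  have hx' : (xc n p).symm x ∈ (extChartAt (𝓡∂ n) p).source := (xc n p).map_target hx
  have h1 : MDifferentiableAt (𝓡∂ n) 𝓘(ℝ, Fib N) e ((xc n p).symm x) :=
    (he.contMDiffAt (hW.mem_nhds hxW)).mdifferentiableAt (by simp)
  unfold nab cov
  rw [dmap_coordVec (𝓡∂ n) hx' h1, CEnergy_range, (xc n p).right_inv hx]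
  rfl

/-- A parallel section in the coordinates. -/
theorem CIn.par1 {P : One n N M} {p : M} {D : Set (E n)} {X Y : E n → E n} {κ : E n → ℝ}
    {B : Set (E n)} (h : CIn P p D X Y κ B) {z : E n} (hz : trS B z ⊆ {x | 0 < x 0}) {W : Set M}
    (hW : IsOpen W) {e : M → Fib N} (he : ContMDiffOn (𝓡∂ n) 𝓘(ℝ, Fib N) ∞ e W)
    (he1 : ∀ x ∈ W, ‖e x‖ = 1) (hep : ∀ x ∈ W, ∀ X : TangentSpace (𝓡∂ n) x, cov P.A e x X = 0)
    (hD : ∀ x ∈ D, (xc n p).symm x ∈ W) :
    Par1 (bj P p Y) B (fun y => e (thP n p Y y)) where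
  sm := smLoc h.smY (fun y hy => h.sub (h.mapsY hy)) he fun y hy => hD _ (h.mapsY hy)
  unit := fun y hy => he1 _ (hD _ (h.mapsY hy))
  par := fun y hy j => by
    have hed : ContDiffOn ℝ ∞ (lu (𝓡∂ n) p e) D :=
      smLoc (Y := id) contDiffOn_id (fun y hy => h.sub hy) he fun y hy => hD y hy
    have h1 := energy_nab_pull (trS_rel h.opB hz) h.relD (h.pullB hz) (m := ∞) (by simp) hed
      (add_mem_trS (z := z) hy) j
    have h2 := nab_tr hz κ (bj P p Y) (fun y => e (thP n p Y y)) j hy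
    have h3 : (fun x : E n => (1 : EndF N) (lu (𝓡∂ n) p e (Y (x - z)))) =
      fun x => e (thP n p Y (x - z)) := rfl
    rw [h3, h2] at h1
    rw [h1]
    have h4 : ∀ k, nab (P.loc p) k (lu (𝓡∂ n) p e) (Y (y + z - z)) = 0 := by
      intro k
      rw [add_sub_cancel_right, nab_local hW he (h.sub (h.mapsY hy)) (hD _ (h.mapsY hy)) k]
      exact hep _ (hD _ (h.mapsY hy)) _
    simp only [h4, smul_zero, Finset.sum_const_zero, map_zero]

theorem flat_cinL (hn : 3 ≤ n) {P Q : One n N M} {p : M} {D : Set (E n)} {X Y : E n → E n}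
    {om : E n → ℝ} {r : ℝ} (hF : G31.FlatIn P p D X Y om r) {c : M → ℝ} {W : Set M}
    (hcs : ContMDiffOn (𝓡∂ n) 𝓘(ℝ, ℝ) ∞ c W) (hcp : ∀ x ∈ W, 0 < c x)
    (hc : ∀ x ∈ W, ∀ v w : TangentSpace (𝓡∂ n) x, Q.g.inner x v w = c x * P.g.inner x v w)
    (hD : ∀ x ∈ D, (xc n p).symm x ∈ W) :
    CIn Q p D X Y (fun y => ((c (thP n p Y y)) ^ (((n : ℝ) - 2) / 4) * om y) ^
      (4 / ((n : ℝ) - 2))) (ball 0 r) where
  opD := hF.isOpen
  sub := hF.sub
  opB := isOpen_ball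
  mapsX := hF.mapsX
  mapsY := hF.mapsY
  inv1 := hF.inv1
  inv2 := hF.inv2
  smX := hF.smX
  smY := hF.smY
  smκ := (((smLoc hF.smY (fun y hy => hF.sub (hF.mapsY hy)) hcs
    fun y hy => hD _ (hF.mapsY hy)).rpow_const_of_ne fun y hy =>
      (hcp _ (hD _ (hF.mapsY hy))).ne').mul hF.smom).rpow_const_of_ne fun y hy =>
      (mul_pos (Real.rpow_pos_of_pos (hcp _ (hD _ (hF.mapsY hy))) _) (hF.posom y hy)).ne'
  posκ := fun y hy => Real.rpow_pos_of_pos
    (mul_pos (Real.rpow_pos_of_pos (hcp _ (hD _ (hF.mapsY hy))) _) (hF.posom y hy)) _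
  met := fun y hy v w => by
    have hn' : (0 : ℝ) < (n : ℝ) - 2 := by
      have : (3 : ℝ) ≤ n := by exact_mod_cast hn
      linarith
    have hyW : thP n p Y y ∈ W := hD _ (hF.mapsY hy)
    have h1 : (Q.loc p).g (Y y) = c (thP n p Y y) • (P.loc p).g (Y y) := by
      ext i j
      exact hc _ hyW _ _
    have h2 := hF.met y hy v w
    rw [Real.mul_rpow (Real.rpow_nonneg (hcp _ hyW).le _) (hF.posom y hy).le,
      ← Real.rpow_mul (hcp _ hyW).le, show ((n : ℝ) - 2) / 4 * (4 / ((n : ℝ) - 2)) = 1 by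
        field_simp, Real.rpow_one, mul_assoc, ← h2, h1]
    simp only [Matrix.smul_apply, smul_eq_mul]
    rw [Finset.mul_sum]
    refine Finset.sum_congr rfl fun i _ => ?_
    rw [Finset.mul_sum]
    refine Finset.sum_congr rfl fun j _ => ?_
    ring

/-- The conformal factor is `1` where the metrics agree. -/
theorem conf_one {P Q : One n N M} {c : M → ℝ} {x : M}
    (hc : ∀ v w : TangentSpace (𝓡∂ n) x, Q.g.inner x v w = c x * P.g.inner x v w)
    (h : ∀ v w : TangentSpace (𝓡∂ n) x, Q.g.inner x v w = P.g.inner x v w) : c x = 1 := by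
  have hv : (ev 0 : E n) ≠ 0 := by
    intro h0
    have := congrArg (fun v : E n => v 0) h0
    simp at this
  have h1 := P.g.pos x (ev 0 : E n) hv
  have h2 := (h (ev 0 : E n) (ev 0 : E n)).symm.trans (hc (ev 0 : E n) (ev 0 : E n))
  have h3 : (c x - 1) * P.g.inner x (ev 0 : E n) (ev 0 : E n) = 0 := by
    rw [sub_mul, one_mul, ← h2, sub_self]
  have h4 := (mul_eq_zero.1 h3).resolve_right h1.ne'
  linarith

end

/-- The interior step, local form. -/
theorem gl : GL_statement.{u} := by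
  intro n N _ M _ _ _ _ _ _ _ _ P Q Γ V W c e p D X Y om R hn hR hΓ hV hVp hVΓ hS hag hW hcs hcp
    hc he he1 heP heQ hD hF
  obtain ⟨z, hz⟩ : ∃ z : E n, trS (ball 0 (2 * R)) z ⊆ {x | 0 < x 0} := by
    refine ⟨(2 * (2 * R)) • ev 0, fun x hx => ?_⟩
    have h1 : x - (2 * (2 * R)) • ev 0 ∈ ball (0 : E n) (2 * R) := hx
    rw [mem_ball_zero_iff] at h1
    have h2 : |(x - (2 * (2 * R)) • (ev 0 : E n)) 0| ≤ ‖x - (2 * (2 * R)) • (ev 0 : E n)‖ := by
      have := PiLp.norm_apply_le (x - (2 * (2 * R)) • (ev 0 : E n)) 0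
      rwa [Real.norm_eq_abs] at this
    simp only [PiLp.sub_apply, PiLp.smul_apply, ev_apply, if_true, smul_eq_mul, mul_one] at h2
    have h3 := (abs_lt.1 (h2.trans_lt h1)).1
    show 0 < x 0
    linarith
  have hc1 := flat_cin hF
  have hc2 := flat_cinL hn hF hcs hcp hc hD
  have hyW : ∀ y ∈ ball (0 : E n) (2 * R), thP n p Y y ∈ W := fun y hy => hD _ (hF.mapsY hy)
  refine glCore n N M P Q Γ V p D X Y _ _ om
    (fun y => (c (thP n p Y y)) ^ (((n : ℝ) - 2) / 4) * om y) (fun y => e (thP n p Y y)) R (2 * R)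
    hR (by linarith) hΓ hV hVp hVΓ hS hag hc1 hc2 (hc1.par1 hz hW he he1 heP hD)
    (hc2.par1 hz hW he he1 heQ hD)
    hF.smom (((smLoc hF.smY (fun y hy => hF.sub (hF.mapsY hy)) hcs hyW).rpow_const_of_ne
      fun y hy => (hcp _ (hyW y hy)).ne').mul hF.smom) hF.posom
    (fun y hy => mul_pos (Real.rpow_pos_of_pos (hcp _ (hyW y hy)) _) (hF.posom y hy))
    (fun y hy => wt_pow hn (hF.posom y hy))
    (fun y hy => wt_pow hn (mul_pos (Real.rpow_pos_of_pos (hcp _ (hyW y hy)) _)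
      (hF.posom y hy)))
    hF.harm (fun y hy hyV => ?_)
  show (c (thP n p Y y)) ^ (((n : ℝ) - 2) / 4) * om y = om y
  rw [conf_one (hc _ (hyW y hy)) (hag.met _ hyV), Real.one_rpow, one_mul]

end Vale.Agent.P088.R2.H338

end
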