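import Vale.Agent.P088.H5.I.IR849

/-!
# P088, Theorem S, block RUN: quantitative Runge approximation
-/

set_option linter.all false

open Bundle Manifold MeasureTheory Set Filter Topology
open scoped ContDiff Matrix

noncomputable section

namespace Vale.Agent.P088.R2.H338

open Vale.Agent.P088 Vale.Agent.P088.EYM Vale.Agent.P088.EYM.O

universe u

/-- Real arithmetic: `x² ≤ p x + q x` gives `x ≤ p + q`. -/
theorem le_of_sq_le {x p q : ℝ} (hx : 0 ≤ x) (hp : 0 ≤ p) (hq : 0 ≤ q)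
    (h : x ^ 2 ≤ p * x + q * x) : x ≤ p + q := by
  by_contra hc
  push Not at hc
  nlinarith

/-- If `T = 0` on `∂M` and `|E(φ, T)| ≤ a ‖φ‖_{L²(S)} + b ‖φ‖_{L²(M)}`, where `S` is a compact
subset of `O' ∩ M°`, then solutions with data on `Γ` approximate `T` in `H¹` off `O'` up to an
error `C b²`, with `C` independent of `O'`, `S`, `T`, `a`, `b`. -/
theorem runQ (n N : ℕ) [NeZero n] (M : Type u) [TopologicalSpace M]
    [ChartedSpace (EuclideanHalfSpace n) M] [IsManifold (𝓡∂ n) ∞ M] [T2Space M] [CompactSpace M]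
    [ConnectedSpace M] [MeasurableSpace M] [BorelSpace M] (P : One n N M) (Γ : Set M)
    (hΓ : RelBd n Γ) (hΓn : Γ.Nonempty) (hsol : P.HasSol Γ) :
    ∃ C : ℝ, 0 ≤ C ∧ ∀ (O' S : Set M) (T : M → Fib N) (a b : ℝ), IsOpen O' → IsPreconnected O' →
      (O' ∩ Γ).Nonempty → SmS n T → (∀ x ∈ (𝓡∂ n).boundary M, T x = 0) → IsCompact S →
      S ⊆ O' ∩ Mi n M → 0 ≤ a → 0 ≤ b →
      (∀ φ : M → Fib N, SmS n φ → (∀ x ∈ (𝓡∂ n).boundary M, φ x = 0) →
        ‖P.E φ T‖ ≤ a * √(∫ x in S, ‖φ x‖ ^ 2 ∂P.μ) + b * √(∫ x, ‖φ x‖ ^ 2 ∂P.μ)) →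
      ∀ ε > 0, ∃ u ∈ P.U Γ, (FK P O'ᶜ (T - u) (T - u)).re ≤ C * b ^ 2 + ε := by
  have hbn : ((𝓡∂ n).boundary M).Nonempty := by
    obtain ⟨O, -, rfl⟩ := hΓ
    exact hΓn.mono inter_subset_right
  obtain ⟨f1, f2, f3, f4, f5⟩ := TM.fForm n N M P
  obtain ⟨Cp, hCp0, hCp⟩ := TM.fPoinc n N M P hbn
  refine ⟨Cp * (1 + Cp), by positivity, ?_⟩
  intro O' S T a b hO hOp hOΓ hT hT0 hS hSO ha hb hET ε hε
  obtain ⟨hIo, -, hcl⟩ := TM.fConn n M
  have hbd : IsClosed ((𝓡∂ n).boundary M) := by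
    rw [← ModelWithCorners.compl_interior]
    exact hIo.isClosed_compl
  obtain ⟨u, w, l, hu, hw, hw0, hcE, hcL, hlE, hlF, hlT⟩ :=
    l2 n N M P Γ O'ᶜ T hΓ hΓn hsol hT
  have hKm : MeasurableSet (O'ᶜ) := hO.measurableSet.compl
  have hus : ∀ k, SmS n (u k) := fun k => by
    obtain ⟨f, -, hf⟩ := hu k
    exact hf.smooth
  -- the functional vanishes on sections supported in `O'`
  have hlim : ∀ φ : M → Fib N, IsBdryData (𝓡∂ n) Γ φ → tsupport φ ⊆ (O'ᶜ)ᶜ →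
      Tendsto (fun k => P.E (w k) φ) atTop (𝓝 0) := by
    intro φ hφ hs
    have h0 : ∀ k, FK P O'ᶜ (T - u k) φ = 0 := fun k =>
      fk_zero P O'ᶜ hKm _ (disjoint_left.2 fun x hx hx' => hs hx hx')
    have h1 := hlF φ hφ.smooth
    simp only [h0] at h1
    have h2 : l φ = 0 := tendsto_nhds_unique h1 tendsto_const_nhds
    have h3 := hlE φ hφ
    rwa [h2] at h3
  -- the sequence tends to zero in the interior of `O'`
  have hZ : O' ∩ Mi n M ⊆ cRungeB_Z P w := by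
    refine (D779.conn_int (n := n) hO hOp).subset_of_closure_inter_subset (cRungeB_Z_open P _) ?_ ?_
    · obtain ⟨p, hpO, hpΓ⟩ := hOΓ
      have hpZ : p ∈ cRungeB_Z P w :=
        lb_i aUcpBd TM.fInt TM.fLoc TM.fEn TM.fExt hbd hw hw0 hcE hcL
          hO.isClosed_compl hΓ hlim hpΓ (fun h => h hpO)
      obtain ⟨q, ⟨hqZ, hqO⟩, hqI⟩ := mem_closure_iff.1 (hcl p)
        (cRungeB_Z P w ∩ O') ((cRungeB_Z_open P _).inter hO) ⟨hpZ, hpO⟩
      exact ⟨q, ⟨hqO, hqI⟩, hqZ⟩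
    · rintro m ⟨hmZ, hmO, hmI⟩
      exact lb_ii aUcpInt TM.fInt TM.fLoc TM.fEn TM.fExt hbd hw hcE hcL
        hO.isClosed_compl hlim hmI (fun h => h hmO) hmZ
  have hwc : ∀ k, Continuous (w k) := fun k => cRungeB_sm_cont (hw k)
  have hwi : ∀ k, Integrable (fun x => ‖w k x‖ ^ 2) P.μ := fun k =>
    cRungeB_integrable P TM.fInt (hwc k)
  have hK0 : Tendsto (fun k => ∫ x in S, ‖w k x‖ ^ 2 ∂P.μ) atTop (𝓝 0) :=
    cRungeB_cover hwi hS (hSO.trans hZ)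
  -- boundary data which vanish
  have hzb : ∀ φ : M → Fib N, SmS n φ → (∀ x ∈ (𝓡∂ n).boundary M, φ x = 0) →
      IsBdryData (𝓡∂ n) Γ φ := by
    intro φ hφ hφ0
    refine ⟨hφ, ?_⟩
    have h1 : {x ∈ (𝓡∂ n).boundary M | φ x ≠ 0} = ∅ := by
      ext x
      simp only [mem_setOf_eq, mem_empty_iff_false, iff_false, not_and, not_not]
      exact fun hx => hφ0 x hx
    rw [h1, closure_empty]
    exact empty_subset _
  -- Cauchy-Schwarz
  have csF : ∀ φ ψ : M → Fib N, SmS n φ → SmS n ψ →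
      ‖FK P O'ᶜ φ ψ‖ ^ 2 ≤ (FK P O'ᶜ φ φ).re * (FK P O'ᶜ ψ ψ).re := fun φ ψ hφ hψ =>
    cForm_cs (SmS n) (FK P O'ᶜ) (fun _ _ h1 h2 => crungea_add h1 h2)
      (fun c _ h1 => crungea_smul h1 c) (fun u v w h1 h2 h3 => fk_add P O'ᶜ h1 h2 h3)
      (fun c u v h1 h2 => fk_smul P O'ᶜ c h1 h2) (fun u v h1 h2 => fk_conj P O'ᶜ u v)
      (fun u h1 => fk_nonneg P O'ᶜ h1) φ ψ hφ hψ
  have csE : ∀ φ ψ : M → Fib N, SmS n φ → SmS n ψ →
      ‖P.E φ ψ‖ ^ 2 ≤ (P.E φ φ).re * (P.E ψ ψ).re := fun φ ψ hφ hψ =>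
    cForm_cs (SmS n) P.E (fun _ _ h1 h2 => crungea_add h1 h2)
      (fun c _ h1 => crungea_smul h1 c) (fun u v w h1 h2 h3 => f1 u v w h1 h2 h3)
      (fun c u v h1 h2 => f2 c u v h1 h2) (fun u v h1 h2 => f3 u v h1 h2)
      (fun u h1 => f4 u h1) φ ψ hφ hψ
  set D : ℝ := (l T).re with hD
  have hTu : ∀ k, SmS n (T - u k) := fun k => hT.sub (hus k)
  have hD0 : 0 ≤ D := ge_of_tendsto' hlT fun k => fk_nonneg P O'ᶜ (hTu k)
  have hlb : ∀ φ : M → Fib N, SmS n φ → ‖l φ‖ ^ 2 ≤ D * (FK P O'ᶜ φ φ).re := by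
    intro φ hφ
    refine le_of_tendsto_of_tendsto' ((hlF φ hφ).norm.pow 2) (hlT.mul_const _) fun k => ?_
    exact csF _ _ (hTu k) hφ
  set e : ℕ → ℝ := fun k => (P.E (w k) (w k)).re with he
  have he0 : ∀ k, 0 ≤ e k := fun k => f4 _ (hw k)
  have hFw : ∀ k, (FK P O'ᶜ (w k) (w k)).re ≤ (1 + Cp) * e k := by
    intro k
    refine (fk_le P O'ᶜ (hw k)).trans ?_
    have := hCp _ (hw k) (hw0 k)
    simp only [he]
    linarith
  set G : ℝ := √(D * (1 + Cp)) with hG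
  have hG0 : 0 ≤ G := Real.sqrt_nonneg _
  have hlw : ∀ k, ‖l (w k)‖ ≤ G * √(e k) := by
    intro k
    rw [hG, ← Real.sqrt_mul (by positivity)]
    refine Real.le_sqrt_of_sq_le ?_
    refine (hlb _ (hw k)).trans ?_
    calc D * (FK P O'ᶜ (w k) (w k)).re ≤ D * ((1 + Cp) * e k) :=
          mul_le_mul_of_nonneg_left (hFw k) hD0
      _ = D * (1 + Cp) * e k := by ring
  -- the energies of the sequence
  have hen : ∀ δ > 0, ∃ k₀, ∀ j ≥ k₀, √(e j) ≤ G + δ := by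
    intro δ hδ
    obtain ⟨k₀, hk₀⟩ := hcE (δ ^ 2) (by positivity)
    refine ⟨k₀, fun j hj => ?_⟩
    have h1 : Tendsto (fun k => ‖P.E (w k) (w j) - P.E (w j) (w j)‖) atTop
        (𝓝 ‖l (w j) - P.E (w j) (w j)‖) :=
      ((hlE (w j) (hzb _ (hw j) (hw0 j))).sub tendsto_const_nhds).norm
    have h2 : ∀ k ≥ k₀, ‖P.E (w k) (w j) - P.E (w j) (w j)‖ ≤ δ * √(e j) := by
      intro k hk
      have e1 : P.E (w k) (w j) - P.E (w j) (w j) = P.E (w k - w j) (w j) := by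
        have hs : SmS n (w k - w j) := (hw k).sub (hw j)
        have e2 : P.E (w j) (w k) = P.E (w j) (w j) + P.E (w j) (w k - w j) := by
          rw [← f1 _ _ _ (hw j) (hw j) hs]
          congr 1
          abel
        have e3 : P.E (w k) (w j) = (starRingEnd ℂ) (P.E (w j) (w k)) :=
          f3 _ _ (hw j) (hw k)
        have e4 : P.E (w k - w j) (w j) = (starRingEnd ℂ) (P.E (w j) (w k - w j)) :=
          f3 _ _ (hw j) hs
        have e5 : P.E (w j) (w j) = (starRingEnd ℂ) (P.E (w j) (w j)) :=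
          f3 _ _ (hw j) (hw j)
        rw [e3, e2, map_add, ← e5, e4]
        ring
      rw [e1]
      have h3 := csE _ _ ((hw k).sub (hw j)) (hw j)
      have h4 : ‖P.E (w k - w j) (w j)‖ ^ 2 ≤ δ ^ 2 * e j :=
        h3.trans (mul_le_mul_of_nonneg_right (hk₀ k hk j hj) (he0 j))
      have h5 : ‖P.E (w k - w j) (w j)‖ ^ 2 ≤ (δ * √(e j)) ^ 2 := by
        rw [mul_pow, Real.sq_sqrt (he0 j)]
        exact h4
      exact (abs_le_of_sq_le_sq' h5 (by positivity)).2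
    have h3 : ‖l (w j) - P.E (w j) (w j)‖ ≤ δ * √(e j) :=
      le_of_tendsto h1 (eventually_atTop.2 ⟨k₀, h2⟩)
    refine le_of_sq_le (Real.sqrt_nonneg _) hG0 hδ.le ?_
    rw [Real.sq_sqrt (he0 j)]
    have h4 : e j ≤ ‖P.E (w j) (w j)‖ := Complex.re_le_norm _
    have h5 : ‖P.E (w j) (w j)‖ ≤ ‖l (w j)‖ + ‖l (w j) - P.E (w j) (w j)‖ := by
      have h6 := norm_sub_le (l (w j)) (l (w j) - P.E (w j) (w j))
      rwa [sub_sub_cancel] at h6
    linarith [hlw j]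
  -- the limit of `E(w_k, T)`
  have hlTle : ‖l T‖ ≤ b * (√Cp * G) := by
    refine le_of_forall_pos_le_add fun δ hδ => ?_
    have hET' := hlE T (hzb T hT hT0)
    set η : ℝ := δ / (1 + b * √Cp) with hη
    have hη0 : 0 < η := by positivity
    obtain ⟨k₀, hk₀⟩ := hen η hη0
    have hbd2 : ∀ k ≥ k₀, ‖P.E (w k) T‖ ≤ a * √(∫ x in S, ‖w k x‖ ^ 2 ∂P.μ) +
        b * (√Cp * (G + η)) := by
      intro k hk
      refine (hET _ (hw k) (hw0 k)).trans (add_le_add_right ?_ _)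
      refine mul_le_mul_of_nonneg_left ?_ hb
      have h1 : √(∫ x, ‖w k x‖ ^ 2 ∂P.μ) ≤ √(Cp * e k) := Real.sqrt_le_sqrt (hCp _ (hw k) (hw0 k))
      rw [Real.sqrt_mul hCp0.le] at h1
      exact h1.trans (mul_le_mul_of_nonneg_left (hk₀ k hk) (Real.sqrt_nonneg _))
    have hlimR : Tendsto (fun k => a * √(∫ x in S, ‖w k x‖ ^ 2 ∂P.μ) +
        b * (√Cp * (G + η))) atTop (𝓝 (a * √0 + b * (√Cp * (G + η)))) :=
      ((((Real.continuous_sqrt.tendsto 0).comp hK0).const_mul a).add_const _)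
    have h1 : ‖l T‖ ≤ a * √0 + b * (√Cp * (G + η)) :=
      le_of_tendsto_of_tendsto hET'.norm hlimR (eventually_atTop.2 ⟨k₀, hbd2⟩)
    rw [Real.sqrt_zero, mul_zero, zero_add] at h1
    refine h1.trans ?_
    have h2 : b * √Cp * η ≤ δ := by
      rw [hη, mul_div_assoc']
      rw [div_le_iff₀ (by positivity)]
      nlinarith [mul_nonneg hb (Real.sqrt_nonneg Cp)]
    nlinarith
  have hDle : D ≤ Cp * (1 + Cp) * b ^ 2 := by
    have h1 : D ≤ b * (√Cp * G) := (Complex.re_le_norm _).trans hlTle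
    have h2 : √D ≤ b * (√Cp * √(1 + Cp)) := by
      have h3 : √D * √D ≤ √D * (b * (√Cp * √(1 + Cp))) := by
        rw [Real.mul_self_sqrt hD0]
        refine h1.trans (le_of_eq ?_)
        rw [hG, Real.sqrt_mul hD0]
        ring
      rcases (Real.sqrt_nonneg D).eq_or_lt with h0 | h0
      · rw [← h0]
        positivity
      · exact le_of_mul_le_mul_left h3 h0
    have h4 : D = √D ^ 2 := (Real.sq_sqrt hD0).symm
    rw [h4]
    have h5 := pow_le_pow_left₀ (Real.sqrt_nonneg D) h2 2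
    refine h5.trans (le_of_eq ?_)
    rw [mul_pow, mul_pow, Real.sq_sqrt hCp0.le, Real.sq_sqrt (by positivity)]
    ring
  obtain ⟨k, hk⟩ := (Metric.tendsto_atTop.1 hlT) ε hε
  have hk1 := hk k le_rfl
  rw [Real.dist_eq] at hk1
  have hk2 := (abs_lt.1 hk1).2
  exact ⟨u k, hu k, by linarith⟩

end Vale.Agent.P088.R2.H338

end
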