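import Vale.Agent.P088.H5.I.IE332
import Vale.Agent.P088.R2.H338.Run

/-!
# P088, Theorem S, block TR: transfer of solutions
-/

set_option linter.all false

open Bundle Manifold MeasureTheory Set Filter Topology
open scoped ContDiff Matrix

noncomputable section

namespace Vale.Agent.P088.R2.H338

open Vale.Agent.P088 Vale.Agent.P088.EYM Vale.Agent.P088.EYM.O

universe u

section

variable {n N : ℕ} [NeZero n] {M : Type u} [TopologicalSpace M]
  [ChartedSpace (EuclideanHalfSpace n) M] [IsManifold (𝓡∂ n) ∞ M]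

/-- the pairing vanishes where a section vanishes locally -/
theorem pairing_zero_left (g : Metric (𝓡∂ n) M) (A : Connection (𝓡∂ n) N M) {z u : M → Fib N}
    {O : Set M} (hO : IsOpen O) (hz : ∀ x ∈ O, z x = 0) {x : M} (hx : x ∈ O) :
    pairing g A z u x = 0 := by
  have h1 : z =ᶠ[𝓝 x] fun _ => (0 : Fib N) := Filter.eventuallyEq_of_mem (hO.mem_nhds hx) hz
  rw [pairing_germ g A h1 (EventuallyEq.refl _ u)]
  unfold pairing
  simp only [cov_zero', inner_zero_left, mul_zero, Finset.sum_const_zero]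

variable [T2Space M] [CompactSpace M] [MeasurableSpace M] [BorelSpace M]

/-- energy form on a set -/
def EK (Q : One n N M) (K : Set M) (a b : M → Fib N) : ℂ :=
  ∫ x in K, pairing Q.g Q.A a b x ∂Q.μ

variable (Q : One n N M) (K : Set M)

theorem ek_int {a b : M → Fib N} (ha : SmS n a) (hb : SmS n b) :
    Integrable (fun x => pairing Q.g Q.A a b x) (Q.μ.restrict K) := by
  haveI := (TM.fInt n N M Q).1
  exact (integrable_of_continuous (continuous_pairing Q.g Q.A ha hb)).integrableOn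

theorem ek_add {a b c : M → Fib N} (ha : SmS n a) (hb : SmS n b) (hc : SmS n c) :
    EK Q K a (b + c) = EK Q K a b + EK Q K a c := by
  unfold EK
  rw [← integral_add (ek_int Q K ha hb) (ek_int Q K ha hc)]
  refine integral_congr_ae (Eventually.of_forall fun x => ?_)
  simp only [cForm_pairing_add Q.g Q.A hb hc]

theorem ek_smul (c : ℂ) {a b : M → Fib N} (ha : SmS n a) (hb : SmS n b) :
    EK Q K a (c • b) = c * EK Q K a b := by
  unfold EK
  rw [← integral_const_mul]
  refine integral_congr_ae (Eventually.of_forall fun x => ?_)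
  simp only [cForm_pairing_smul Q.g Q.A c hb]

theorem ek_conj (a b : M → Fib N) : EK Q K b a = (starRingEnd ℂ) (EK Q K a b) := by
  unfold EK
  rw [← integral_conj]
  refine integral_congr_ae (Eventually.of_forall fun x => ?_)
  simp only [cForm_pairing_conj Q.g Q.A a b x]

theorem ek_re {a : M → Fib N} (ha : SmS n a) :
    (EK Q K a a).re = ∫ x in K, (pairing Q.g Q.A a a x).re ∂Q.μ :=
  (integral_re (𝕜 := ℂ) (ek_int Q K ha ha)).symm

theorem ek_nonneg {a : M → Fib N} (ha : SmS n a) : 0 ≤ (EK Q K a a).re := by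
  rw [ek_re Q K ha]
  exact integral_nonneg fun x => cForm_pairing_nonneg Q.g Q.A a x

theorem ek_cs {a b : M → Fib N} (ha : SmS n a) (hb : SmS n b) :
    ‖EK Q K a b‖ ^ 2 ≤ (EK Q K a a).re * (EK Q K b b).re :=
  cForm_cs (SmS n) (EK Q K) (fun _ _ h1 h2 => crungea_add h1 h2)
    (fun c _ h1 => crungea_smul h1 c) (fun u v w h1 h2 h3 => ek_add Q K h1 h2 h3)
    (fun c u v h1 h2 => ek_smul Q K c h1 h2) (fun u v h1 h2 => ek_conj Q K u v)
    (fun u h1 => ek_nonneg Q K h1) a b ha hb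

/-- The energy of a section which vanishes on `O` is the energy off `O`. -/
theorem ek_off {z b : M → Fib N} {O : Set M} (hO : IsOpen O) (hz : ∀ x ∈ O, z x = 0)
    (hzs : SmS n z) (hb : SmS n b) : Q.E z b = EK Q Oᶜ z b := by
  haveI := (TM.fInt n N M Q).1
  have hi : Integrable (fun x => pairing Q.g Q.A z b x) Q.μ :=
    integrable_of_continuous (continuous_pairing Q.g Q.A hzs hb)
  have h1 := integral_add_compl hO.measurableSet hi
  have h2 : ∫ x in O, pairing Q.g Q.A z b x ∂Q.μ = 0 :=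
    setIntegral_eq_zero_of_forall_eq_zero fun x hx => pairing_zero_left Q.g Q.A hO hz hx
  rw [h2, zero_add] at h1
  exact h1.symm

/-- (TR2) Let `v` be the `Q`-harmonic extension of `f`, `u = f` on `∂M` and `u = v` on `O`. The
energy of `u - v` is at most the energy of `u` off `O`. -/
theorem trDiff {f u v : M → Fib N} {O : Set M} (hO : IsOpen O) (hu : SmS n u)
    (huf : ∀ x ∈ (𝓡∂ n).boundary M, u x = f x) (hv : Q.Harm f v) (huv : ∀ x ∈ O, u x = v x) :
    (Q.E (u - v) (u - v)).re ≤ (EK Q Oᶜ u u).re := by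
  obtain ⟨f1, f2, f3, f4, f5⟩ := TM.fForm n N M Q
  have hvs : SmS n v := hv.smooth
  have hzs : SmS n (u - v) := hu.sub hvs
  have hz0 : ∀ x ∈ (𝓡∂ n).boundary M, (u - v) x = 0 := fun x hx => by
    show u x - v x = 0
    rw [huf x hx, hv.boundary x hx, sub_self]
  have hzO : ∀ x ∈ O, (u - v) x = 0 := fun x hx => by
    show u x - v x = 0
    rw [huv x hx, sub_self]
  have h1 : Q.E v (u - v) = 0 := hv.weak _ hzs hz0
  have h2 : Q.E (u - v) v = 0 := by
    rw [f3 _ _ hvs hzs, h1, map_zero]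
  have h3 : Q.E (u - v) u = Q.E (u - v) (u - v) := by
    have h4 : Q.E (u - v) u = Q.E (u - v) (v + (u - v)) := by
      congr 1
      abel
    rw [h4, f1 _ _ _ hzs hvs hzs, h2, zero_add]
  have h5 := ek_cs Q Oᶜ hzs hu
  have e1 : EK Q Oᶜ (u - v) (u - v) = Q.E (u - v) (u - v) := (ek_off Q hO hzO hzs hzs).symm
  have e2 : EK Q Oᶜ (u - v) u = Q.E (u - v) (u - v) := by
    rw [← ek_off Q hO hzO hzs hu, h3]
  rw [e1, e2] at h5
  have h6 : (Q.E (u - v) (u - v)).re ≤ ‖Q.E (u - v) (u - v)‖ := Complex.re_le_norm _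
  have h7 := f4 _ hzs
  have h8 : (Q.E (u - v) (u - v)).re ^ 2 ≤ (Q.E (u - v) (u - v)).re * (EK Q Oᶜ u u).re :=
    (pow_le_pow_left₀ h7 h6 2).trans h5
  rcases h7.eq_or_lt with h0 | h0
  · rw [← h0]
    exact ek_nonneg Q Oᶜ hu
  · rw [sq] at h8
    exact le_of_mul_le_mul_left h8 h0

/-- (TR3) The same for the `L²` norm. -/
theorem trL2 [ConnectedSpace M] (hb : ((𝓡∂ n).boundary M).Nonempty) :
    ∃ C : ℝ, 0 < C ∧ ∀ (f u v : M → Fib N) (O : Set M), IsOpen O → SmS n u →
      (∀ x ∈ (𝓡∂ n).boundary M, u x = f x) → Q.Harm f v → (∀ x ∈ O, u x = v x) →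
      ∫ x, ‖u x - v x‖ ^ 2 ∂Q.μ ≤ C * (EK Q Oᶜ u u).re := by
  obtain ⟨C, hC, hCp⟩ := TM.fPoinc n N M Q hb
  refine ⟨C, hC, fun f u v O hO hu huf hv huv => ?_⟩
  have h1 := hCp (u - v) (hu.sub hv.smooth) fun x hx => by
    show u x - v x = 0
    rw [huf x hx, hv.boundary x hx, sub_self]
  exact h1.trans (mul_le_mul_of_nonneg_left (trDiff Q hO hu huf hv huv) hC.le)

end

/-- (TR1) The energies of corresponding solutions off a measurable subset `B` of the set where the
pairs agree. -/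
theorem trEnergy (n N : ℕ) [NeZero n] (M : Type u) [TopologicalSpace M]
    [ChartedSpace (EuclideanHalfSpace n) M] [IsManifold (𝓡∂ n) ∞ M] [T2Space M] [CompactSpace M]
    [ConnectedSpace M] [MeasurableSpace M] [BorelSpace M] (P Q : One n N M) (Γ O B : Set M)
    (hΓ : RelBd n Γ) (hO : IsOpen O) (hOp : IsPreconnected O) (hOΓ : (O ∩ Γ).Nonempty)
    (hS : SameD P Q Γ) (hag : AgreeOn P Q O) (hB : MeasurableSet B) (hBO : B ⊆ O) :
    ∀ u ∈ PP P Q Γ, EK P Bᶜ u.1 u.1 = EK Q Bᶜ u.2 u.2 := by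
  intro u hu
  have hL := lS n N M P Q Γ O hΓ hO hOp hOΓ hS hag.conn hag.met u hu
  have hΓn : Γ.Nonempty := hOΓ.mono inter_subset_right
  have hbn : ((𝓡∂ n).boundary M).Nonempty := by
    obtain ⟨O', -, rfl⟩ := hΓ
    exact hΓn.mono inter_subset_right
  obtain ⟨-, hd⟩ := Vale.Agent.P088.EYM.cData TM.fUniq TM.fForm n N M P Q Γ hΓ hΓn hS
  obtain ⟨f, hf, h1, h2⟩ := hu
  have e0 : P.E f u.1 = Q.E f u.2 :=
    hd u ⟨f, hf, h1, h2⟩ f f hf.smooth hf.smooth (fun _ _ => rfl) hf.supp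
  have e1 : P.E f u.1 = P.E u.1 u.1 :=
    ((TM.fUniq n N M P hbn).2.2 f u.1 f u.1 h1 hf.smooth h1.smooth
      fun x hx => (h1.boundary x hx).symm).2
  have e2 : Q.E f u.2 = Q.E u.2 u.2 :=
    ((TM.fUniq n N M Q hbn).2.2 f u.2 f u.2 h2 hf.smooth h2.smooth
      fun x hx => (h2.boundary x hx).symm).2
  rw [e1, e2] at e0
  haveI := (TM.fInt n N M P).1
  haveI := (TM.fInt n N M Q).1
  have iP : Integrable (fun x => pairing P.g P.A u.1 u.1 x) P.μ :=
    integrable_of_continuous (continuous_pairing P.g P.A h1.smooth h1.smooth)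
  have iQ : Integrable (fun x => pairing Q.g Q.A u.2 u.2 x) Q.μ :=
    integrable_of_continuous (continuous_pairing Q.g Q.A h2.smooth h2.smooth)
  have s1 := integral_add_compl hB iP
  have s2 := integral_add_compl hB iQ
  have s3 : ∫ x in B, pairing Q.g Q.A u.2 u.2 x ∂Q.μ = ∫ x in B, pairing P.g P.A u.1 u.1 x ∂P.μ := by
    rw [withDensity_rho P Q, restrict_withDensity hB,
      integral_withDensity_eq_integral_toReal_smul₀]
    · refine setIntegral_congr_fun hB fun x hx => ?_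
      have hg : gram P.g x x = gram Q.g x x :=
        gram_of_inner fun a b => (hag.met x (hBO hx) a b).symm
      have g1 : u.1 =ᶠ[𝓝 x] u.2 := Filter.eventuallyEq_of_mem (hO.mem_nhds (hBO hx)) hL
      rw [ENNReal.toReal_ofReal (rho_pos P.g Q.g x).le, rho_one hg, one_smul,
        pairing_germ P.g P.A g1 g1, pairing_congr hg (hag.conn x (hBO hx))]
    · exact (continuous_rho P.g Q.g).measurable.ennreal_ofReal.aemeasurable
    · exact Eventually.of_forall fun x => ENNReal.ofReal_lt_top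
  have e3 : ∫ x, pairing P.g P.A u.1 u.1 x ∂P.μ = ∫ x, pairing Q.g Q.A u.2 u.2 x ∂Q.μ := e0
  rw [← s1, ← s2, s3] at e3
  exact add_left_cancel e3

end Vale.Agent.P088.R2.H338

end
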